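import Vale.Agent.P240.R2.H329.OA6
import Vale.Agent.P240.R2.H613.I5
import Vale.Agent.P240.H195.CF

/-!
`FewAut 2` for `Ω_n(q)`, `n` and `q` odd, provided that all automorphisms are induced by `SO_n(q)`:
the product of two elements of `SO_n(q)` outside `Ω_n(q)` lies in `Ω_n(q)`.
-/

set_option autoImplicit false

namespace Vale.Agent.P240.R2.H112.Ab

open Matrix Subgroup Vale.Agent.P240.H195 Vale.Agent.P240.R2.AS Vale.Agent.P240.R2.H487.CG

universe u v

/-- normal subgroups of index at most two that see all automorphisms -/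
theorem few_two {G : Type u} [Group G] {H : Subgroup G}
    (hf : ∀ f : MulAut ↥H, ∃ t : G, ∀ x : ↥H, ((f x : ↥H) : G) = t * x * t⁻¹)
    (h2 : ∀ y₁ y₂ : G, y₁ ∉ H → y₂ ∉ H → y₁ * y₂ ∈ H) : FewAut 2 ↥H := by
  have key : ∀ f g : MulAut ↥H, OutAut 2 f → OutAut 2 g →
      g ∈ zpowers f ⊔ (MulAut.conj (G := ↥H)).range := by
    intro f g hfo hgo
    obtain ⟨s, hs⟩ := hf f
    obtain ⟨t, ht⟩ := hf g
    have inn : ∀ (f : MulAut ↥H) (s : G), (∀ x : ↥H, ((f x : ↥H) : G) = s * x * s⁻¹) → s ∈ H →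
        f ∈ (MulAut.conj (G := ↥H)).range := by
      intro f s hs hsH
      refine ⟨⟨s, hsH⟩, ?_⟩
      ext x
      rw [MulAut.conj_apply, hs]
      rfl
    have hsH : s ∉ H := fun h => hfo.2 (inn f s hs h)
    have htH : t ∉ H := fun h => hgo.2 (inn g t ht h)
    have h1 : f * g ∈ (MulAut.conj (G := ↥H)).range := by
      refine inn (f * g) (s * t) (fun x => ?_) (h2 s t hsH htH)
      rw [MulAut.mul_apply, hs, ht, _root_.mul_inv_rev]
      group
    have h3 : g = f⁻¹ * (f * g) := by group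
    rw [h3]
    exact mul_mem (inv_mem (mem_sup_left (mem_zpowers f))) (mem_sup_right h1)
  exact ⟨fun f g _ hf hg _ => Or.inl (key f g hf hg), Or.inl key⟩

lemma mem_comm_map {G : Type u} {G' : Type v} [Group G] [Group G'] (e : G →* G') {y : G}
    (hy : y ∈ commutator G) : e y ∈ commutator G' := by
  rw [← Abelianization.ker_of, MonoidHom.mem_ker] at hy ⊢
  have h1 := congrArg (Abelianization.map e) hy
  rwa [Abelianization.map_of, map_one] at h1

/-- the product of two elements of `SO_n(q)` outside `Ω_n(q)` lies in `Ω_n(q)`, for `n` odd -/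
theorem mul_mem_comm {F : Type u} [Field F] [Finite F] (hq : Odd (Nat.card F)) {n : ℕ}
    (hn : Odd n) {y₁ y₂ : ↥(GJ n (RingEquiv.refl F))}
    (h1 : y₁ ∉ commutator ↥(GJ n (RingEquiv.refl F)))
    (h2 : y₂ ∉ commutator ↥(GJ n (RingEquiv.refl F))) :
    y₁ * y₂ ∈ commutator ↥(GJ n (RingEquiv.refl F)) := by
  classical
  have := Fintype.ofFinite F
  let _ : StarRing F := starRingOfComm
  have hs : ∀ x : F, star x = x := fun x => rfl
  have h20 : (2 : F) ≠ 0 := H651.two_ne (K := F) hq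
  obtain ⟨e⟩ := Vale.Agent.P240.R2.H613.I5.pgu_equiv (K := F) (n := n) hs h20 hn
  obtain ⟨t, ht, hab⟩ := H329.ab_two (K := F) (n := n) hs hq hn
  have key : ∀ y : ↥(GJ n (RingEquiv.refl F)), ∀ g : GU F n,
      (QuotientGroup.mk g : PGU F n) = e.symm y →
        (y ∈ commutator ↥(GJ n (RingEquiv.refl F)) ↔ H296.O.ab F n g = 1) := by
    intro y g hg
    rw [H296.O.ab_eq_one, hg]
    constructor
    · exact fun h => mem_comm_map e.symm.toMonoidHom h
    · intro h
      have := mem_comm_map e.toMonoidHom h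
      change e (e.symm y) ∈ _ at this
      rwa [e.apply_symm_apply] at this
  obtain ⟨g₁, hg₁⟩ := QuotientGroup.mk_surjective (e.symm y₁)
  obtain ⟨g₂, hg₂⟩ := QuotientGroup.mk_surjective (e.symm y₂)
  have h3 := (hab g₁).resolve_left fun h => h1 ((key _ _ hg₁).2 h)
  have h4 := (hab g₂).resolve_left fun h => h2 ((key _ _ hg₂).2 h)
  have h5 : (QuotientGroup.mk (g₁ * g₂) : PGU F n) = e.symm (y₁ * y₂) := by
    rw [map_mul, ← hg₁, ← hg₂]
    rfl
  rw [key _ _ h5, map_mul, h3, h4, ht]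

/-- **the last step**: all automorphisms of `Ω_n(q)` are induced by `SO_n(q)` -/
theorem fewAut_of_SO {F : Type u} [Field F] [Finite F] (hq : Odd (Nat.card F)) {n : ℕ}
    (hn : Odd n)
    (hf : ∀ f : MulAut ↥(commutator ↥(GJ n (RingEquiv.refl F))),
      ∃ t : ↥(GJ n (RingEquiv.refl F)), ∀ x : ↥(commutator ↥(GJ n (RingEquiv.refl F))),
        ((f x : ↥(commutator ↥(GJ n (RingEquiv.refl F)))) : ↥(GJ n (RingEquiv.refl F))) =
          t * x * t⁻¹) :
    FewAut 2 ↥(commutator ↥(GJ n (RingEquiv.refl F))) :=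
  few_two hf fun _ _ h1 h2 => mul_mem_comm hq hn h1 h2

end Vale.Agent.P240.R2.H112.Ab
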