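import Vale.Agent.P240.R2.H997.ParFix

/-!
Split BN-pairs: the braid relation of two generators is a property of the minimal parabolic
subgroups, so an automorphism that stabilizes `B` does not reverse a path whose first bond is simple
and whose last bond is not. Moreover every automorphism stabilizes `B` and a given opposite chamber
after multiplication by an inner automorphism.
-/

set_option autoImplicit false

namespace Vale.Agent.P240.R2.H112.Br

open Subgroup Vale.Agent.P240.K Vale.Agent.P240.H195 Vale.Agent.P240.R2.H997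

universe u

/-- a permutation of a path that preserves adjacency is trivial or reverses the path -/
theorem path_rev {l : ℕ} (π : Equiv.Perm (Fin l))
    (hadj : ∀ i j : Fin l, i.val + 1 = j.val → (π i).val + 1 = (π j).val ∨ (π j).val + 1 = (π i).val)
    (hadj' : ∀ i j : Fin l, i.val + 1 = j.val →
      (π⁻¹ i).val + 1 = (π⁻¹ j).val ∨ (π⁻¹ j).val + 1 = (π⁻¹ i).val) :
    π = 1 ∨ ∀ i, (π i).val + i.val + 1 = l := by
  rcases Nat.eq_zero_or_pos l with rfl | hl
  · exact Or.inl (Subsingleton.elim _ _)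
  have key : ∀ σ : Equiv.Perm (Fin l), (∀ i j : Fin l, i.val + 1 = j.val →
      (σ i).val + 1 = (σ j).val ∨ (σ j).val + 1 = (σ i).val) →
      ∀ (d : ℕ) (i j : Fin l), i.val + d = j.val →
        (σ i).val ≤ (σ j).val + d ∧ (σ j).val ≤ (σ i).val + d := by
    intro σ hσ d
    induction d with
    | zero =>
      intro i j hij
      have : i = j := Fin.ext (by simpa using hij)
      subst this
      simp
    | succ d ih =>
      intro i j hij
      have hj := j.2
      have h1 := ih i ⟨i.val + d, by omega⟩ rfl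
      have h2 := hσ ⟨i.val + d, by omega⟩ j (by simp only []; omega)
      omega
  have k1 := key π hadj
  have k2 := key π⁻¹ hadj'
  have hinv : ∀ x, π⁻¹ (π x) = x := π.symm_apply_apply
  have h0' : ∀ i : Fin l, (π i).val = (π ⟨0, hl⟩).val + i.val ∨
      (π i).val + i.val = (π ⟨0, hl⟩).val := by
    intro i
    have h1 := k1 i.val ⟨0, hl⟩ i (by simp)
    rcases le_total (π ⟨0, hl⟩).val (π i).val with h2 | h2
    · have h3 := k2 ((π i).val - (π ⟨0, hl⟩).val) (π ⟨0, hl⟩) (π i) (by omega)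
      simp only [hinv] at h3
      omega
    · have h3 := k2 ((π ⟨0, hl⟩).val - (π i).val) (π i) (π ⟨0, hl⟩) (by omega)
      simp only [hinv] at h3
      omega
  have hend : (π ⟨0, hl⟩).val = 0 ∨ (π ⟨0, hl⟩).val + 1 = l := by
    have h1 := h0' ⟨l - 1, by omega⟩
    have h2 := (π ⟨l - 1, by omega⟩).2
    have h3 := (π ⟨0, hl⟩).2
    simp only [] at h1
    omega
  rcases hend with h1 | h1
  · left
    ext i
    rw [Equiv.Perm.one_apply]
    have h2 := h0' i
    omega
  · right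
    intro i
    have h2 := h0' i
    have h3 := (π i).2
    omega

section
variable {L : Type u} [Group L] {B N U : Subgroup L} {S : Set L} {r : ℕ}

/-- `P Q P ⊆ Q P Q` -/
def Brd (P Q : Subgroup L) : Prop := ∀ x ∈ P, ∀ y ∈ Q, ∀ z ∈ P, ∃ y' ∈ Q, ∃ x' ∈ P, ∃ y'' ∈ Q,
  x * y * z = y' * x' * y''

lemma Brd.am {P Q : Subgroup L} (h : Brd P Q) (e : MulAut L) : Brd (am e P) (am e Q) := by
  rintro _ ⟨x, hx, rfl⟩ _ ⟨y, hy, rfl⟩ _ ⟨z, hz, rfl⟩
  obtain ⟨y', hy', x', hx', y'', hy'', he⟩ := h x hx y hy z hz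
  refine ⟨e y', apply_mem_am hy', e x', apply_mem_am hx', e y'', apply_mem_am hy'', ?_⟩
  change e x * e y * e z = e y' * e x' * e y''
  rw [← map_mul, ← map_mul, he, map_mul, map_mul]

lemma brd_of (h : SB r B N U S) {a b : L} (ha : a ∈ S) (hb : b ∈ S)
    (hab : (b * a * b)⁻¹ * (a * b * a) ∈ B) : Brd (Par B a) (Par B b) := by
  intro x hx y hy z hz
  have haN := h.sub a ha
  have hbN := h.sub b hb
  rcases (h.mem_Par ha).1 hx with hxB | ⟨c₁, hc₁, c₂, hc₂, hxe⟩
  · exact ⟨x * y, mul_mem (le_Par hxB) hy, z, hz, 1, one_mem _, by group⟩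
  rcases (h.mem_Par ha).1 hz with hzB | ⟨c₅, hc₅, c₆, hc₆, hze⟩
  · exact ⟨1, one_mem _, x, hx, y * z, mul_mem hy (le_Par hzB), by group⟩
  rcases (h.mem_Par hb).1 hy with hyB | ⟨c₃, hc₃, c₄, hc₄, hye⟩
  · exact ⟨1, one_mem _, x * y * z, mul_mem (mul_mem hx (le_Par hyB)) hz, 1, one_mem _, by group⟩
  rcases h.mul b hb (c₄ * c₅) (mul_mem hc₄ hc₅) a haN with ⟨d, hd, d', hd', he⟩ |
    ⟨d, hd, d', hd', he⟩
  · -- `y z ∈ P`
    have e1 : y * z = (c₃ * d) * a * (d' * c₆) := by
      calc y * z = c₃ * (b * (c₄ * c₅) * a) * c₆ := by rw [hye, hze]; group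
        _ = _ := by rw [he]; group
    have h1 : y * z ∈ Par B a := by
      rw [e1]
      exact mul_mem (mul_mem (le_Par (mul_mem hc₃ hd)) self_mem_Par) (le_Par (mul_mem hd' hc₆))
    exact ⟨1, one_mem _, x * (y * z), mul_mem hx h1, 1, one_mem _, by group⟩
  have e1 : y * z = (c₃ * d) * (b * a) * (d' * c₆) := by
    calc y * z = c₃ * (b * (c₄ * c₅) * a) * c₆ := by rw [hye, hze]; group
      _ = _ := by rw [he]; group
  rcases h.mul a ha (c₂ * (c₃ * d)) (mul_mem hc₂ (mul_mem hc₃ hd)) (b * a) (mul_mem hbN haN) with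
    ⟨g, hg, g', hg', hge⟩ | ⟨g, hg, g', hg', hge⟩
  · refine ⟨c₁ * g * b, mul_mem (le_Par (mul_mem hc₁ hg)) self_mem_Par,
      a * (g' * (d' * c₆)), mul_mem self_mem_Par (le_Par (mul_mem hg' (mul_mem hd' hc₆))),
      1, one_mem _, ?_⟩
    calc x * y * z = x * (y * z) := by group
      _ = c₁ * (a * (c₂ * (c₃ * d)) * (b * a)) * (d' * c₆) := by rw [e1, hxe]; group
      _ = _ := by rw [hge]; group
  · refine ⟨c₁ * g * b, mul_mem (le_Par (mul_mem hc₁ hg)) self_mem_Par, a, self_mem_Par,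
      b * (((b * a * b)⁻¹ * (a * b * a)) * (g' * (d' * c₆))), mul_mem self_mem_Par
        (le_Par (mul_mem hab (mul_mem hg' (mul_mem hd' hc₆)))), ?_⟩
    calc x * y * z = x * (y * z) := by group
      _ = c₁ * (a * (c₂ * (c₃ * d)) * (b * a)) * (d' * c₆) := by rw [e1, hxe]; group
      _ = _ := by rw [hge]; group

lemma dc_mul (h : SB r B N U S) {s n x y : L} (hs : s ∈ S) (hn : n ∈ N) (hx : DC B n x)
    (hy : y ∈ Par B s) : DC B n (y * x) ∨ DC B (s * n) (y * x) := by
  rcases (h.mem_Par hs).1 hy with hyB | ⟨c₁, hc₁, c₂, hc₂, hye⟩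
  · exact Or.inl (hx.left hyB)
  obtain ⟨d, hd, d', hd', hxe⟩ := hx
  have e1 : y * x = c₁ * (s * (c₂ * d) * n) * d' := by rw [hye, hxe]; group
  rw [e1]
  rcases h.mul s hs (c₂ * d) (mul_mem hc₂ hd) n hn with h1 | h1
  · exact Or.inl ((h1.left hc₁).right hd')
  · exact Or.inr ((h1.left hc₁).right hd')

lemma of_brd (h : SB r B N U S) [Finite L] {a b : L} (ha : a ∈ S) (hb : b ∈ S)
    (hne : a⁻¹ * b ∉ B) (hnc : (b * a)⁻¹ * (a * b) ∉ B) (hbr : Brd (Par B a) (Par B b)) :
    (b * a * b)⁻¹ * (a * b * a) ∈ B := by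
  have haN := h.sub a ha
  have hbN := h.sub b hb
  have haB := h.not_mem ha
  have hbP : b ∉ Par B a := fun hc => hne ((h.gen_mem_par hb ha).1 hc)
  obtain ⟨y', hy', x', hx', y'', hy'', he⟩ := hbr a self_mem_Par b self_mem_Par a self_mem_Par
  have hN : a * b * a ∈ N := mul_mem (mul_mem haN hbN) haN
  -- the words
  have c0 : a * b * a ∉ Par B a := by
    intro hc
    apply hbP
    have e1 : b = a⁻¹ * (a * b * a) * a⁻¹ := by group
    rw [e1]
    exact mul_mem (mul_mem (inv_mem self_mem_Par) hc) (inv_mem self_mem_Par)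
  have c1 : b⁻¹ * (a * b * a) ∉ B := by
    intro hc
    apply hnc
    have hcN : b⁻¹ * (a * b * a) ∈ N := mul_mem (inv_mem hbN) hN
    have e1 : (b * a)⁻¹ * (a * b) = (a⁻¹ * (b⁻¹ * (a * b * a)) * a) * (a⁻¹ * a⁻¹) := by group
    rw [e1]
    exact mul_mem (h.norm' haN hc hcN) (h.inv_mul ha)
  have c2 : (b * a)⁻¹ * (a * b * a) ∉ B := by
    intro hc
    apply haB
    have hcN : (b * a)⁻¹ * (a * b * a) ∈ N := mul_mem (inv_mem (mul_mem hbN haN)) hN
    have h1 := h.norm a haN _ hc hcN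
    have h1N : a * ((b * a)⁻¹ * (a * b * a)) * a⁻¹ ∈ N := mul_mem (mul_mem haN hcN) (inv_mem haN)
    have h2 := h.norm b hbN _ h1 h1N
    have e1 : b * (a * ((b * a)⁻¹ * (a * b * a)) * a⁻¹) * b⁻¹ = a := by group
    rwa [e1] at h2
  have fin : ∀ n ∈ N, DC B n (y' * (x' * y'')) → n⁻¹ * (a * b * a) ∈ B := by
    intro n hn hd
    have e1 : y' * (x' * y'') = a * b * a := by rw [he]; group
    rw [e1] at hd
    exact h.inj hn hN hd
  have h1N := one_mem N
  have one_case : ∀ n ∈ N, n ∈ Par B a → DC B n (y' * (x' * y'')) → False := by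
    intro n hn hnP hd
    apply c0
    have h1 := fin n hn hd
    have e1 : a * b * a = n * (n⁻¹ * (a * b * a)) := by group
    rw [e1]
    exact mul_mem hnP (le_Par h1)
  have hb1 : DC B 1 y'' ∨ DC B (b * 1) y'' := by
    have := dc_mul h hb h1N (DC.refl (B := B) 1) hy''
    rwa [mul_one] at this
  -- the cases
  have f1 : DC B 1 (y' * (x' * y'')) → False := one_case 1 h1N (one_mem _)
  have f2 : DC B a (y' * (x' * y'')) → False := one_case a haN self_mem_Par
  have f3 : DC B b (y' * (x' * y'')) → False := fun hd => c1 (fin b hbN hd)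
  have f4 : DC B (b * a) (y' * (x' * y'')) → False := fun hd => c2 (fin _ (mul_mem hbN haN) hd)
  have f5 : DC B (a * b) (y' * (x' * y'')) → False := by
    intro hd
    have h1 := fin _ (mul_mem haN hbN) hd
    have e1 : (a * b)⁻¹ * (a * b * a) = a := by group
    rw [e1] at h1
    exact haB h1
  have f6 : DC B (b * b) (y' * (x' * y'')) → False :=
    one_case _ (mul_mem hbN hbN) (le_Par (h.sq b hb))
  rw [mul_one] at hb1
  rcases hb1 with h2 | h2
  · rcases dc_mul h ha h1N h2 hx' with h3 | h3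
    · rcases dc_mul h hb h1N h3 hy' with h4 | h4
      · exact (f1 h4).elim
      · rw [mul_one] at h4
        exact (f3 h4).elim
    · rw [mul_one] at h3
      rcases dc_mul h hb haN h3 hy' with h4 | h4
      · exact (f2 h4).elim
      · exact (f4 h4).elim
  · rcases dc_mul h ha hbN h2 hx' with h3 | h3
    · rcases dc_mul h hb hbN h3 hy' with h4 | h4
      · exact (f3 h4).elim
      · exact (f6 h4).elim
    · rcases dc_mul h hb (mul_mem haN hbN) h3 hy' with h4 | h4
      · exact (f5 h4).elim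
      · have h5 := fin _ (mul_mem hbN (mul_mem haN hbN)) h4
        have e1 : (b * (a * b))⁻¹ * (a * b * a) = (b * a * b)⁻¹ * (a * b * a) := by group
        rwa [e1] at h5

/-- **paths whose first bond is simple and whose last bond is not** -/
theorem par_fix_of_Bn (h : SB r B N U S) [Finite L] {l : ℕ} (hl : 3 ≤ l) (s : Fin l → L)
    (hs : ∀ i, s i ∈ S) (hall : ∀ t ∈ S, ∃ i, (s i)⁻¹ * t ∈ B)
    (hinj : ∀ i j, (s i)⁻¹ * s j ∈ B → i = j)
    (hnc : ∀ i j : Fin l, i.val + 1 = j.val → (s j * s i)⁻¹ * (s i * s j) ∉ B)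
    (hc : ∀ i j : Fin l, i.val + 1 < j.val → (s j * s i)⁻¹ * (s i * s j) ∈ B)
    (hb : ∀ i j : Fin l, i.val = 0 → j.val = 1 →
      (s j * s i * s j)⁻¹ * (s i * s j * s i) ∈ B)
    (hb' : ∀ i j : Fin l, i.val + 2 = l → j.val + 1 = l →
      (s j * s i * s j)⁻¹ * (s i * s j * s i) ∉ B)
    {e : MulAut L} (he : am e B = B) :
    ∀ t ∈ S, am e (Par B t) = Par B t := by
  obtain ⟨π, hπ1, hπ2, -, -⟩ := par_perm h s hs hall hinj he
  refine par_fix_of_perm h hs hall hπ1 ?_
  have hcomm : ∀ i j : Fin l, (s j * s i)⁻¹ * (s i * s j) ∈ B →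
      (s i * s j)⁻¹ * (s j * s i) ∈ B := by
    intro i j h1
    have := inv_mem h1
    rwa [mul_inv_rev, inv_inv] at this
  have hrel : ∀ i j : Fin l, i ≠ j → (¬ (i.val + 1 = j.val ∨ j.val + 1 = i.val)) →
      (s j * s i)⁻¹ * (s i * s j) ∈ B := by
    intro i j hij hcon
    have hij' : i.val ≠ j.val := fun h => hij (Fin.ext h)
    push Not at hcon
    rcases lt_or_gt_of_ne hij' with h2 | h2
    · exact hc i j (by omega)
    · exact hcomm j i (hc j i (by omega))
  have hrel' : ∀ i j : Fin l, (i.val + 1 = j.val ∨ j.val + 1 = i.val) →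
      (s j * s i)⁻¹ * (s i * s j) ∉ B := by
    rintro i j (h1 | h1)
    · exact hnc i j h1
    · exact fun h2 => hnc j i h1 (hcomm i j h2)
  have hrev := path_rev π ?_ ?_
  · rcases hrev with h1 | h1
    · exact h1
    · exfalso
      obtain ⟨i, hi⟩ : ∃ i : Fin l, i.val = 0 := ⟨⟨0, by omega⟩, rfl⟩
      obtain ⟨j, hj⟩ : ∃ j : Fin l, j.val = 1 := ⟨⟨1, by omega⟩, rfl⟩
      have h2 := (brd_of h (hs i) (hs j) (hb i j hi hj)).am e
      rw [hπ1, hπ1] at h2
      have h3 := h1 i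
      have h4 := h1 j
      have hne : (s (π i))⁻¹ * s (π j) ∉ B := by
        intro h5
        have h6 := hinj _ _ h5
        rw [h6] at h3
        omega
      have h5 := of_brd h (hs _) (hs _) hne (hrel' _ _ (Or.inr (by omega))) h2
      refine hb' (π j) (π i) (by omega) (by omega) ?_
      have h6 := inv_mem h5
      rwa [mul_inv_rev, inv_inv] at h6
  · intro i j hij
    by_contra hcon
    have hne : π i ≠ π j := by
      intro h1
      have := π.injective h1
      subst this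
      omega
    exact hrel' i j (Or.inl hij) ((hπ2 i j).2 (hrel _ _ hne hcon))
  · intro i j hij
    by_contra hcon
    have hne : π⁻¹ i ≠ π⁻¹ j := by
      intro h1
      have := π⁻¹.injective h1
      subst this
      omega
    have h1 := (hπ2 (π⁻¹ i) (π⁻¹ j)).1 (hrel _ _ hne hcon)
    have h2 : ∀ x, π (π⁻¹ x) = x := π.apply_symm_apply
    rw [h2, h2] at h1
    exact hrel' i j (Or.inl hij) h1

/-- every automorphism stabilizes `B` and `n₀ B n₀⁻¹` after multiplication by an inner one -/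
theorem norm_all (h : SB r B N U S) [Finite L] (hr : r.Prime) {n₀ : L} (hn₀ : n₀ ∈ N)
    (hopp : ∀ x ∈ U, n₀ * x * n₀⁻¹ ∈ U → x = 1) (f : MulAut L) :
    ∃ g : L, am ((MulAut.conj g)⁻¹ * f) B = B ∧
      am ((MulAut.conj g)⁻¹ * f) (cj n₀ B) = cj n₀ B := by
  obtain ⟨g, hg⟩ := h.exists_conj hr f
  have hlong := h.long_of_opp hr hn₀ hopp
  obtain ⟨e₀, he₀⟩ : ∃ e₀, e₀ = (MulAut.conj g)⁻¹ * f := ⟨_, rfl⟩
  have e1 : ∀ x : L, (MulAut.conj x)⁻¹ = MulAut.conj x⁻¹ := fun x => (map_inv _ _).symm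
  have he₀B : am e₀ B = B := by
    rw [he₀, am_mul, hg, e1, am_conj, ← cj_mul, inv_mul_cancel, cj_one]
  have h0 : Opp B S (cj n₀ B) := (h.opp_iff hr hlong).2 ⟨1, one_mem _, by rw [one_mul]⟩
  obtain ⟨u, hu, huC⟩ := (h.opp_iff hr hlong).1 (opp_am h he₀B h0)
  have huB := h.le hu
  have e2 : (MulAut.conj (g * u))⁻¹ * f = (MulAut.conj u)⁻¹ * e₀ := by
    rw [he₀, map_mul, mul_inv_rev, mul_assoc]
  refine ⟨g * u, ?_, ?_⟩
  · rw [e2, am_mul, he₀B, e1, am_conj, cj_self (inv_mem huB)]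
  · rw [e2, am_mul, huC, e1, am_conj, ← cj_mul, inv_mul_cancel_left]

end

end Vale.Agent.P240.R2.H112.Br
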