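import Vale.Agent.P240.R2.H112.SA
import Vale.Agent.P240.R2.H112.S12

/-!
P240, symplectic line: `PSpHom` from an abstract isomorphism `PSp_{2m}(K) ≅ L`.
-/

set_option autoImplicit false

namespace Vale.Agent.P240.R2.H112

open Matrix Subgroup
open Vale.Agent.P240.R2.H715 (ts PSpHom)

universe u v

attribute [local instance] ts

section

variable {K : Type u} [Field K] {m : ℕ}

/-- the center of `Sp_{2m}(K)` consists of the scalars -/
theorem mem_center_sy (hm : 1 ≤ m) (g : Vale.Agent.P240.R2.H715.Sy K m) :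
    g ∈ center (Vale.Agent.P240.R2.H715.Sy K m) ↔
      ∃ c : K, g.1 = c • (1 : Matrix (Fin m ⊕ Fin m) (Fin m ⊕ Fin m) K) := by
  constructor
  · intro hg
    refine (stmtS1' K m hm g (RingEquiv.refl K) fun h => ⟨1, ?_⟩).2
    have h1 := congrArg Subtype.val (mem_center_iff.1 hg h)
    have h2 : h.1.map (RingEquiv.refl K) = h.1 := by
      ext i j
      rfl
    rw [h2, one_smul]
    exact h1.symm
  · rintro ⟨c, hc⟩
    rw [mem_center_iff]
    intro h
    apply Subtype.ext
    change h.1 * g.1 = g.1 * h.1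
    rw [hc, Matrix.mul_smul, Matrix.smul_mul, Matrix.mul_one, Matrix.one_mul]

/-- an abstract isomorphism `PSp_{2m}(K) ≅ L` gives the homomorphism onto `L`, and every element
of the normalizer acts as a semilinear similitude -/
theorem exists_pspHom [Finite K] (h2 : (2 : K) ≠ 0) (hm : 2 ≤ m) {G : Type v} [Group G]
    (L : Subgroup G)
    (e : (Vale.Agent.P240.R2.H715.Sy K m ⧸ center (Vale.Agent.P240.R2.H715.Sy K m)) ≃* L) :
    ∃ ε : Vale.Agent.P240.R2.H715.Sy K m →* G,
      (∀ g, ε g = e (QuotientGroup.mk g)) ∧ ε.range = L ∧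
      (∀ g : Vale.Agent.P240.R2.H715.Sy K m, ε g = 1 ↔
        ∃ c : K, g.1 = c • (1 : Matrix (Fin m ⊕ Fin m) (Fin m ⊕ Fin m) K)) ∧
      ∀ x ∈ Subgroup.normalizer (L : Set G),
        ∃ (M : Matrix (Fin m ⊕ Fin m) (Fin m ⊕ Fin m) K) (μ : K) (σ : K ≃+* K), μ ≠ 0 ∧
          M * J (Fin m) K * Mᵀ = μ • J (Fin m) K ∧
          Vale.Agent.P240.R2.H715.Acts ε x M σ := by
  refine ⟨L.subtype.comp (e.toMonoidHom.comp
    (QuotientGroup.mk' (center (Vale.Agent.P240.R2.H715.Sy K m)))), fun _ => rfl, ?_, ?_, ?_⟩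
  · ext y
    constructor
    · rintro ⟨g, rfl⟩
      exact (e (QuotientGroup.mk g)).2
    · intro hy
      obtain ⟨z, hz⟩ := e.surjective ⟨y, hy⟩
      obtain ⟨g, rfl⟩ := QuotientGroup.mk_surjective z
      exact ⟨g, congrArg Subtype.val hz⟩
  · intro g
    rw [← mem_center_sy (by omega), ← QuotientGroup.eq_one_iff]
    constructor
    · intro h
      apply e.injective
      rw [map_one]
      exact Subtype.ext h
    · intro h
      change ((e (QuotientGroup.mk g) : L) : G) = 1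
      rw [h, map_one]
      rfl
  · intro x hx
    obtain ⟨M, μ, σ, hμ, hM, hf⟩ := stmtSA' h2 hm
      ((e.trans (Subgroup.normalizerMonoidHom L ⟨x, hx⟩)).trans e.symm)
    refine ⟨M, μ, σ, hμ, hM, fun h h' hh => ?_⟩
    have h1 := hf h h' hh
    have h3 : (Subgroup.normalizerMonoidHom L ⟨x, hx⟩) (e (QuotientGroup.mk h)) =
        e (QuotientGroup.mk h') := by
      rw [← h1]
      change _ = e (e.symm _)
      rw [e.apply_symm_apply]
      rfl
    have h4 := congrArg Subtype.val h3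
    exact h4

/-- `PSpHom` from an abstract isomorphism -/
theorem pspHom_of [Finite K] (h2 : (2 : K) ≠ 0) (hm : 2 ≤ m) {G : Type v} [Group G]
    (L : Subgroup G)
    (e : (Vale.Agent.P240.R2.H715.Sy K m ⧸ center (Vale.Agent.P240.R2.H715.Sy K m)) ≃* L) :
    ∃ ε : Vale.Agent.P240.R2.H715.Sy K m →* G, PSpHom m L ε := by
  obtain ⟨ε, _, h3, h4, h5⟩ := exists_pspHom h2 hm L e
  exact ⟨ε, h3, h4, fun x hx _ => h5 x hx⟩

end

end Vale.Agent.P240.R2.H112
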