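import Vale.Agent.P240.R2.H112.Cn0
import Vale.Agent.P240.R2.H112.PH

/-!
The poset of nontrivial elementary abelian `2`-subgroups of `PSp_{2m}(K)`, `m ≥ 2`, is connected.
-/

set_option linter.all false

namespace Vale.Agent.P240.R2.H112.Cn

open Matrix Subgroup Relation
open Vale.Agent.P240.R2.H715 (ts Sy)

universe u v

noncomputable section

variable {K : Type u} [Field K] {m : ℕ}

/-- the symplectic form -/
def Bf (K : Type u) [Field K] (m : ℕ) : LinearMap.BilinForm K (Fin m ⊕ Fin m → K) :=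
  Matrix.toBilin' (J (Fin m) K)

lemma Bf_apply (x y : Fin m ⊕ Fin m → K) : Bf K m x y = x ⬝ᵥ (J (Fin m) K *ᵥ y) :=
  Matrix.toBilin'_apply' _ _ _

lemma Bf_skew (x y : Fin m ⊕ Fin m → K) : Bf K m y x = -Bf K m x y := by
  rw [Bf_apply, Bf_apply, Matrix.dotProduct_mulVec, ← Matrix.mulVec_transpose, J_transpose,
    Matrix.neg_mulVec, neg_dotProduct, dotProduct_comm]

lemma Bf_alt (h2 : (2 : K) ≠ 0) (x : Fin m ⊕ Fin m → K) : Bf K m x x = 0 := by
  have h := Bf_skew x x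
  have h3 : (2 : K) * Bf K m x x = 0 := by linear_combination h
  exact (mul_eq_zero.1 h3).resolve_left h2

lemma exists_pair {x : Fin m ⊕ Fin m → K} (hx : x ≠ 0) : ∃ g, Bf K m x g = 1 := by
  obtain ⟨i, hi⟩ := Function.ne_iff.1 hx
  have hi' : x i ≠ 0 := hi
  refine ⟨J (Fin m) K *ᵥ (-(x i)⁻¹ • Pi.single i 1), ?_⟩
  rw [Bf_apply, Matrix.mulVec_mulVec, J_squared, Matrix.neg_mulVec, Matrix.one_mulVec,
    neg_smul, neg_neg, dotProduct_smul, dotProduct_single, mul_one, smul_eq_mul,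
    inv_mul_cancel₀ hi']

/-- elements of the group from isometries -/
lemma ex_of (f : (Fin m ⊕ Fin m → K) →ₗ[K] (Fin m ⊕ Fin m → K))
    (hf : ∀ x y, Bf K m (f x) (f y) = Bf K m x y) : ∃ s : Sy K m, ∀ x, s.1 *ᵥ x = f x := by
  obtain ⟨M, hM⟩ : ∃ M, M = LinearMap.toMatrix' f := ⟨_, rfl⟩
  have hMf : ∀ x, M *ᵥ x = f x := by
    intro x
    rw [hM, LinearMap.toMatrix'_mulVec]
  have hJ : Mᵀ * J (Fin m) K * M = J (Fin m) K := by
    apply (Matrix.toBilin' (R₁ := K) (n := Fin m ⊕ Fin m)).injective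
    refine LinearMap.ext fun x => LinearMap.ext fun y => ?_
    have h1 := hf x y
    rw [Bf_apply, Bf_apply, ← hMf, ← hMf] at h1
    rw [Matrix.toBilin'_apply', Matrix.toBilin'_apply', ← h1, ← Matrix.mulVec_mulVec,
      ← Matrix.mulVec_mulVec, Matrix.dotProduct_mulVec, Matrix.vecMul_transpose]
  exact ⟨⟨M, SymplecticGroup.mem_iff'.2 hJ⟩, hMf⟩

lemma sy_ext {s s' : Sy K m} (h : ∀ x, s.1 *ᵥ x = s'.1 *ᵥ x) : s = s' :=
  Subtype.ext (Matrix.mulVec_injective (funext h))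

lemma sy_Bf (s : Sy K m) (x y : Fin m ⊕ Fin m → K) :
    Bf K m (s.1 *ᵥ x) (s.1 *ᵥ y) = Bf K m x y := by
  have h1 : s.1ᵀ * J (Fin m) K * s.1 = J (Fin m) K := SymplecticGroup.mem_iff'.1 s.2
  rw [Bf_apply, Bf_apply, ← Matrix.vecMul_transpose, ← Matrix.dotProduct_mulVec,
    Matrix.mulVec_mulVec, Matrix.mulVec_mulVec, h1]

lemma mul_act (s s' : Sy K m) (x : Fin m ⊕ Fin m → K) : (s * s').1 *ᵥ x = s.1 *ᵥ (s'.1 *ᵥ x) := by
  rw [Matrix.mulVec_mulVec]
  rfl

/-- the involution of a hyperbolic plane -/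
lemma exists_z (h2 : (2 : K) ≠ 0) {e f : Fin m ⊕ Fin m → K} (h : Bf K m e f = 1) :
    ∃ s : Sy K m, ∀ x, s.1 *ᵥ x = x - (2 : K) • (Bf K m x f • e - Bf K m x e • f) := by
  obtain ⟨s, hs⟩ := ex_of (LinearMap.id - (2 : K) • (((Bf K m).flip f).smulRight e -
    ((Bf K m).flip e).smulRight f)) (fun x y => by
      have h1 := Bf_skew e f
      have h3 := Bf_alt h2 e
      have h4 := Bf_alt h2 f
      have h5 := Bf_skew y e
      have h6 := Bf_skew y f
      simp only [LinearMap.sub_apply, LinearMap.id_apply, LinearMap.smul_apply,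
        LinearMap.smulRight_apply, LinearMap.BilinForm.flip_apply, map_sub, map_smul, smul_eq_mul, h1, h3,
        h4, h5, h6, h]
      ring)
  refine ⟨s, fun x => ?_⟩
  rw [hs]
  rfl

/-- the transvections -/
lemma exists_t (h2 : (2 : K) ≠ 0) (v : Fin m ⊕ Fin m → K) (c : K) :
    ∃ s : Sy K m, ∀ x, s.1 *ᵥ x = x + (c * Bf K m x v) • v := by
  obtain ⟨s, hs⟩ := ex_of (LinearMap.id + c • (((Bf K m).flip v).smulRight v)) (fun x y => by
      have h3 := Bf_alt h2 v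
      have h5 := Bf_skew y v
      simp only [LinearMap.add_apply, LinearMap.id_apply, LinearMap.smul_apply,
        LinearMap.smulRight_apply, LinearMap.BilinForm.flip_apply, map_add, map_smul, smul_eq_mul, h3, h5]
      ring)
  refine ⟨s, fun x => ?_⟩
  rw [hs]
  simp only [LinearMap.add_apply, LinearMap.id_apply, LinearMap.smul_apply,
    LinearMap.smulRight_apply, LinearMap.BilinForm.flip_apply, smul_smul]

/-- the involution of a hyperbolic plane -/
def zz (h2 : (2 : K) ≠ 0) {e f : Fin m ⊕ Fin m → K} (h : Bf K m e f = 1) : Sy K m :=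
  (exists_z h2 h).choose

lemma zz_act (h2 : (2 : K) ≠ 0) {e f : Fin m ⊕ Fin m → K} (h : Bf K m e f = 1)
    (x : Fin m ⊕ Fin m → K) :
    (zz h2 h).1 *ᵥ x = x - (2 : K) • (Bf K m x f • e - Bf K m x e • f) :=
  (exists_z h2 h).choose_spec x

/-- the transvections -/
def tt (h2 : (2 : K) ≠ 0) (v : Fin m ⊕ Fin m → K) (c : K) : Sy K m := (exists_t h2 v c).choose

lemma tt_act (h2 : (2 : K) ≠ 0) (v : Fin m ⊕ Fin m → K) (c : K) (x : Fin m ⊕ Fin m → K) :
    (tt h2 v c).1 *ᵥ x = x + (c * Bf K m x v) • v :=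
  (exists_t h2 v c).choose_spec x

lemma tt_conj (h2 : (2 : K) ≠ 0) (v : Fin m ⊕ Fin m → K) (c : K) (s : Sy K m) :
    s * tt h2 v c = tt h2 (s.1 *ᵥ v) c * s := by
  refine sy_ext fun x => ?_
  rw [mul_act, mul_act, tt_act, tt_act, sy_Bf, Matrix.mulVec_add, Matrix.mulVec_smul]

lemma tt_comm (h2 : (2 : K) ≠ 0) {v : Fin m ⊕ Fin m → K} (c : K) {s : Sy K m}
    (hs : s.1 *ᵥ v = v ∨ s.1 *ᵥ v = -v) : tt h2 v c * s = s * tt h2 v c := by
  rw [tt_conj]
  rcases hs with hs | hs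
  · rw [hs]
  · congr 1
    refine sy_ext fun x => ?_
    rw [hs, tt_act, tt_act, map_neg, smul_neg, mul_neg, neg_smul, neg_neg]

lemma zz_conj (h2 : (2 : K) ≠ 0) {e f : Fin m ⊕ Fin m → K} (h : Bf K m e f = 1) (s : Sy K m)
    {e' f' : Fin m ⊕ Fin m → K} (he : s.1 *ᵥ e = e') (hf : s.1 *ᵥ f = f')
    (h' : Bf K m e' f' = 1) : s * zz h2 h = zz h2 h' * s := by
  subst he hf
  refine sy_ext fun x => ?_
  rw [mul_act, mul_act, zz_act, zz_act, sy_Bf, sy_Bf]
  simp only [Matrix.mulVec_sub, Matrix.mulVec_smul]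

lemma zz_sq (h2 : (2 : K) ≠ 0) {e f : Fin m ⊕ Fin m → K} (h : Bf K m e f = 1) :
    zz h2 h * zz h2 h = 1 := by
  refine sy_ext fun x => ?_
  have h1 := Bf_skew e f
  have h3 := Bf_alt h2 e
  have h4 := Bf_alt h2 f
  have e1 : (1 : Sy K m).1 *ᵥ x = x := Matrix.one_mulVec x
  rw [mul_act, zz_act, zz_act, e1]
  simp only [map_sub, map_smul, LinearMap.sub_apply, LinearMap.smul_apply, smul_eq_mul, h1, h3,
    h4, h]
  match_scalars <;> ring

lemma zz_plane (h2 : (2 : K) ≠ 0) {e f : Fin m ⊕ Fin m → K} (h : Bf K m e f = 1) {a b c d : K}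
    (had : a * d - b * c = 1) (h' : Bf K m (a • e + b • f) (c • e + d • f) = 1) :
    zz h2 h' = zz h2 h := by
  refine sy_ext fun x => ?_
  rw [zz_act, zz_act]
  simp only [map_add, map_smul, smul_eq_mul]
  match_scalars
  · ring
  · linear_combination (-2 * Bf K m x f) * had
  · linear_combination (2 * Bf K m x e) * had

lemma zz_fix (h2 : (2 : K) ≠ 0) {e f x : Fin m ⊕ Fin m → K} (h : Bf K m e f = 1)
    (he : Bf K m x e = 0) (hf : Bf K m x f = 0) : (zz h2 h).1 *ᵥ x = x := by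
  rw [zz_act, he, hf, zero_smul, zero_smul, sub_zero, smul_zero, sub_zero]

lemma zz_neg (h2 : (2 : K) ≠ 0) {e f : Fin m ⊕ Fin m → K} (h : Bf K m e f = 1) (a b : K) :
    (zz h2 h).1 *ᵥ (a • e + b • f) = -(a • e + b • f) := by
  have h1 := Bf_skew e f
  have h3 := Bf_alt h2 e
  have h4 := Bf_alt h2 f
  rw [zz_act]
  simp only [map_add, map_smul, LinearMap.add_apply, LinearMap.smul_apply, smul_eq_mul, h1, h3,
    h4, h]
  match_scalars <;> ring

/-- the involutions are not scalar -/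
lemma zz_ne (h2 : (2 : K) ≠ 0) (hm : 2 ≤ m) {e f : Fin m ⊕ Fin m → K} (h : Bf K m e f = 1)
    (c : K) : (zz h2 h).1 ≠ c • (1 : Matrix (Fin m ⊕ Fin m) (Fin m ⊕ Fin m) K) := by
  intro hc
  have h1 := Bf_skew e f
  have hact : ∀ x, (zz h2 h).1 *ᵥ x = c • x := by
    intro x
    rw [hc, Matrix.smul_mulVec, Matrix.one_mulVec]
  have he0 : e ≠ 0 := by
    rintro rfl
    rw [map_zero, LinearMap.zero_apply] at h
    exact zero_ne_one h
  have hc1 : c = -1 := by
    have h3 := zz_neg h2 h 1 0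
    rw [zero_smul, add_zero, one_smul, hact] at h3
    have h4 : (c + 1) • e = 0 := by rw [add_smul, one_smul, h3, neg_add_cancel]
    exact eq_neg_of_add_eq_zero_left ((smul_eq_zero.1 h4).resolve_right he0)
  obtain ⟨φ, hφ⟩ : ∃ φ : (Fin m ⊕ Fin m → K) →ₗ[K] (K × K),
    φ = ((Bf K m).flip f).prod ((Bf K m).flip e) := ⟨_, rfl⟩
  have hinj : Function.Injective φ := by
    rw [← LinearMap.ker_eq_bot, LinearMap.ker_eq_bot']
    intro x hx
    rw [hφ] at hx
    have hx1 : Bf K m x f = 0 := congrArg Prod.fst hx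
    have hx2 : Bf K m x e = 0 := congrArg Prod.snd hx
    have h3 := zz_fix h2 h hx2 hx1
    rw [hact, hc1, neg_smul, one_smul] at h3
    have h4 : (2 : K) • x = 0 := by
      rw [two_smul]
      nth_rewrite 1 [← h3]
      rw [neg_add_cancel]
    exact (smul_eq_zero.1 h4).resolve_left h2
  have h5 := LinearMap.finrank_le_finrank_of_injective hinj
  rw [Module.finrank_prod, Module.finrank_self, Module.finrank_fintype_fun_eq_card,
    Fintype.card_sum, Fintype.card_fin] at h5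
  omega

section
variable {L : Type v} [Group L] {π : Sy K m →* L}

/-- the component of an involution -/
theorem exists_path (h2 : (2 : K) ≠ 0) (hm : 2 ≤ m)
    (hπ : ∀ s, π s = 1 → ∃ c : K, s.1 = c • (1 : Matrix (Fin m ⊕ Fin m) (Fin m ⊕ Fin m) K))
    {e f : Fin m ⊕ Fin m → K} (h : Bf K m e f = 1) (x : Fin m ⊕ Fin m → K) (c : K) :
    ∃ y, ReflTransGen (Cr 2) (π (zz h2 h)) y ∧ π (tt h2 x c) * y = y * π (tt h2 x c) := by
  have hzc : ∀ {e f : Fin m ⊕ Fin m → K} (h : Bf K m e f = 1),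
      π (zz h2 h) ^ 2 = 1 ∧ π (zz h2 h) ≠ 1 := by
    intro e f h
    refine ⟨by rw [pow_two, ← map_mul, zz_sq, map_one], fun h3 => ?_⟩
    obtain ⟨c, hc⟩ := hπ _ h3
    exact zz_ne h2 hm h c hc
  have hfe : Bf K m f e = -1 := by rw [Bf_skew e f, h]
  have hee := Bf_alt h2 e
  have hff := Bf_alt h2 f
  -- projections
  have proj : ∀ y : Fin m ⊕ Fin m → K, ∃ a b : K, ∃ y', y = (a • e + b • f) + y' ∧
      Bf K m y' e = 0 ∧ Bf K m y' f = 0 := by
    intro y
    refine ⟨Bf K m y f, -Bf K m y e, y - (Bf K m y f • e + (-Bf K m y e) • f), by abel, ?_, ?_⟩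
    · simp only [map_sub, map_add, map_smul, LinearMap.sub_apply, LinearMap.add_apply,
        LinearMap.smul_apply, smul_eq_mul, hfe, hee]
      ring
    · simp only [map_sub, map_add, map_smul, LinearMap.sub_apply, LinearMap.add_apply,
        LinearMap.smul_apply, smul_eq_mul, h, hff]
      ring
  obtain ⟨a, b, x2, hx, hx2e, hx2f⟩ := proj x
  by_cases h1 : a • e + b • f = 0
  · refine ⟨_, ReflTransGen.refl, ?_⟩
    rw [← map_mul, ← map_mul, tt_comm h2 c (Or.inl ?_)]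
    rw [hx, h1, zero_add]
    exact zz_fix h2 h hx2e hx2f
  by_cases h3 : x2 = 0
  · refine ⟨_, ReflTransGen.refl, ?_⟩
    rw [← map_mul, ← map_mul, tt_comm h2 c (Or.inr ?_)]
    rw [hx, h3, add_zero]
    exact zz_neg h2 h a b
  obtain ⟨g, hg⟩ := exists_pair h1
  obtain ⟨a', b', g', hg', hg'e, hg'f⟩ := proj g
  obtain ⟨k, hk⟩ := exists_pair h3
  obtain ⟨a2, b2, g2, hk', hg2e, hg2f⟩ := proj k
  have sk : ∀ {u w : Fin m ⊕ Fin m → K}, Bf K m u w = 0 → Bf K m w u = 0 := by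
    intro u w huw
    rw [Bf_skew u w, huw, neg_zero]
  have had : a * b' - b * a' = 1 := by
    rw [hg'] at hg
    simp only [map_add, map_smul, LinearMap.add_apply, LinearMap.smul_apply, smul_eq_mul, h, hfe,
      hee, hff, sk hg'e, sk hg'f] at hg
    linear_combination hg
  have h11 : Bf K m (a • e + b • f) (a' • e + b' • f) = 1 := by
    simp only [map_add, map_smul, LinearMap.add_apply, LinearMap.smul_apply, smul_eq_mul, h, hfe,
      hee, hff]
    linear_combination had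
  have h22 : Bf K m x2 g2 = 1 := by
    rw [hk'] at hk
    simp only [map_add, map_smul, smul_eq_mul, hx2e, hx2f] at hk
    linear_combination hk
  obtain ⟨x1, hx1⟩ : ∃ x1, x1 = a • e + b • f := ⟨_, rfl⟩
  obtain ⟨g1, hg1⟩ : ∃ g1, g1 = a' • e + b' • f := ⟨_, rfl⟩
  have o12 : Bf K m x1 x2 = 0 := by
    rw [hx1]
    simp only [map_add, map_smul, LinearMap.add_apply, LinearMap.smul_apply, smul_eq_mul,
      sk hx2e, sk hx2f, mul_zero, add_zero]
  have o1g : Bf K m x1 g2 = 0 := by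
    rw [hx1]
    simp only [map_add, map_smul, LinearMap.add_apply, LinearMap.smul_apply, smul_eq_mul,
      sk hg2e, sk hg2f, mul_zero, add_zero]
  have og2 : Bf K m g1 x2 = 0 := by
    rw [hg1]
    simp only [map_add, map_smul, LinearMap.add_apply, LinearMap.smul_apply, smul_eq_mul,
      sk hx2e, sk hx2f, mul_zero, add_zero]
  have ogg : Bf K m g1 g2 = 0 := by
    rw [hg1]
    simp only [map_add, map_smul, LinearMap.add_apply, LinearMap.smul_apply, smul_eq_mul,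
      sk hg2e, sk hg2f, mul_zero, add_zero]
  have hz0 : zz h2 h11 = zz h2 h := zz_plane h2 h had h11
  revert h11
  rw [← hx1, ← hg1]
  intro h11 hz0
  have sx1 := Bf_alt h2 x1
  have sx2 := Bf_alt h2 x2
  have sg1 := Bf_alt h2 g1
  have sg2 := Bf_alt h2 g2
  have t1 : Bf K m g1 x1 = -1 := by rw [Bf_skew x1 g1, h11]
  have t2 : Bf K m g2 x2 = -1 := by rw [Bf_skew x2 g2, h22]
  have o21 := sk o12
  have o2g := sk og2
  have og1 := sk o1g
  have ogg' := sk ogg
  have hww : Bf K m (x1 - x2) ((1 / 2 : K) • (g1 - g2)) = 1 := by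
    simp only [map_sub, map_smul, LinearMap.sub_apply, smul_eq_mul, h11, h22, o1g, o2g]
    field_simp
    ring
  obtain ⟨w, hw⟩ : ∃ w, w = zz h2 hww := ⟨_, rfl⟩
  have wx1 : w.1 *ᵥ x1 = x2 := by
    rw [hw, zz_act]
    simp only [map_sub, map_smul, smul_eq_mul, h11, o1g, sx1, o12]
    match_scalars <;> field_simp <;> ring
  have wg1 : w.1 *ᵥ g1 = g2 := by
    rw [hw, zz_act]
    simp only [map_sub, map_smul, smul_eq_mul, t1, og2, sg1, ogg]
    match_scalars <;> field_simp <;> ring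
  have wz : w * zz h2 h = zz h2 h22 * w := by
    rw [← hz0]
    exact zz_conj h2 h11 w wx1 wg1 h22
  have w2 : w * w = 1 := by rw [hw, zz_sq]
  have wz' : zz h2 h * w = w * zz h2 h22 := by
    calc zz h2 h * w = (w * w) * zz h2 h * w := by rw [w2, one_mul]
      _ = w * (w * zz h2 h) * w := by group
      _ = w * (zz h2 h22 * w) * w := by rw [wz]
      _ = w * zz h2 h22 * (w * w) := by group
      _ = w * zz h2 h22 := by rw [w2, mul_one]
  have z02 : zz h2 h * zz h2 h22 = zz h2 h22 * zz h2 h := by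
    refine zz_conj h2 h22 _ ?_ ?_ h22
    · exact zz_fix h2 h hx2e hx2f
    · exact zz_fix h2 h hg2e hg2f
  have hwx : w.1 *ᵥ x = x := by
    rw [hx, ← hx1, hw]
    refine zz_fix h2 hww ?_ ?_
    · simp only [map_sub, map_add, LinearMap.add_apply, sx1, sx2, o12, o21]
      ring
    · simp only [map_sub, map_add, map_smul, smul_eq_mul, LinearMap.add_apply, h11, h22, o1g, o2g]
      ring
  obtain ⟨hz1, hz2⟩ := hzc h
  obtain ⟨hz1', hz2'⟩ := hzc h22
  obtain ⟨hw1, hw2⟩ := hzc hww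
  rw [← hw] at hw1 hw2
  refine ⟨π w, ?_, by rw [← map_mul, ← map_mul, tt_comm h2 c (Or.inl hwx)]⟩
  by_cases hd : π (zz h2 h * zz h2 h22) = 1
  · refine ReflTransGen.single ⟨⟨hz1, hz2⟩, ⟨hw1, hw2⟩, ?_⟩
    have h4 : π (zz h2 h22) = π (zz h2 h) := by
      rw [map_mul] at hd
      have h5 : π (zz h2 h) * π (zz h2 h) = 1 := by rw [← pow_two, hz1]
      exact mul_left_cancel (hd.trans h5.symm)
    rw [← h4, ← map_mul, ← wz, map_mul, h4]
  · have hd2 : π (zz h2 h * zz h2 h22) ^ 2 = 1 := by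
      rw [← map_pow, pow_two, mul_assoc, ← mul_assoc (zz h2 h22), ← z02, mul_assoc, zz_sq, mul_one,
        zz_sq, map_one]
    refine (ReflTransGen.single (b := π (zz h2 h * zz h2 h22))
      ⟨⟨hz1, hz2⟩, ⟨hd2, hd⟩, ?_⟩).tail ⟨⟨hd2, hd⟩, ⟨hw1, hw2⟩, ?_⟩
    · rw [← map_mul, ← map_mul]
      congr 1
      calc zz h2 h * zz h2 h22 * w = zz h2 h22 * (zz h2 h * w) := by rw [z02, mul_assoc]
        _ = (zz h2 h22 * w) * zz h2 h22 := by rw [wz', mul_assoc]
        _ = w * zz h2 h * zz h2 h22 := by rw [← wz]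
        _ = w * (zz h2 h * zz h2 h22) := by rw [mul_assoc]
    · rw [← map_mul, ← map_mul, mul_assoc, ← z02]

end

/-- **The poset `A_2(PSp_{2m}(K))`, `m ≥ 2`, `K` finite of odd order, is connected.** -/
theorem conn_PSp [Finite K] (h2 : (2 : K) ≠ 0) (hm : 2 ≤ m) {L : Type v} [Group L]
    (e : (Sy K m ⧸ center (Sy K m)) ≃* L) (hs : IsSimpleGroup L) (A B : Ap 2 L) :
    ReflTransGen (fun X Y : Ap 2 L => X ≤ Y ∨ Y ≤ X) A B := by
  have hfin : Finite L := Finite.of_equiv _ e.toEquiv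
  obtain ⟨π, hπd⟩ : ∃ π : Sy K m →* L, π = e.toMonoidHom.comp (QuotientGroup.mk' _) := ⟨_, rfl⟩
  have hπ : ∀ s, π s = 1 → ∃ c : K, s.1 = c • (1 : Matrix (Fin m ⊕ Fin m) (Fin m ⊕ Fin m) K) := by
    intro s h
    rw [hπd] at h
    have h1 : e (QuotientGroup.mk s) = 1 := h
    rw [map_eq_one_iff _ e.injective, QuotientGroup.eq_one_iff] at h1
    exact (mem_center_sy (by omega) s).1 h1
  have hsur : Function.Surjective π := by
    rw [hπd]
    exact e.surjective.comp (QuotientGroup.mk'_surjective _)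
  have : Nonempty (Fin m) := ⟨⟨0, by omega⟩⟩
  obtain ⟨i⟩ := this
  have hx0 : (Pi.single (Sum.inl i) 1 : Fin m ⊕ Fin m → K) ≠ 0 := by
    intro h
    have h1 := congrFun h (Sum.inl i)
    rw [Pi.single_eq_same, Pi.zero_apply] at h1
    exact one_ne_zero h1
  obtain ⟨x0, hx0'⟩ : ∃ x0 : Fin m ⊕ Fin m → K, x0 = Pi.single (Sum.inl i) 1 := ⟨_, rfl⟩
  rw [← hx0'] at hx0
  obtain ⟨f0, hf0⟩ := exists_pair hx0
  have hz1 : π (zz h2 hf0) ^ 2 = 1 := by rw [pow_two, ← map_mul, zz_sq, map_one]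
  have hz2 : π (zz h2 hf0) ≠ 1 := by
    intro h3
    obtain ⟨c, hc⟩ := hπ _ h3
    exact zz_ne h2 hm hf0 c hc
  refine conn_of_simple (p := 2) hs hz1 hz2 (T := {t | ∃ v c, t = π (tt h2 v c)}) ?_ ?_ ?_ A B
  · rintro _ ⟨v, c, rfl⟩ g
    obtain ⟨s, rfl⟩ := hsur g
    refine ⟨s.1 *ᵥ v, c, ?_⟩
    rw [← map_mul, tt_conj, map_mul, mul_inv_cancel_right]
  · refine ⟨_, ⟨x0, 1, rfl⟩, fun h3 => ?_⟩
    obtain ⟨c, hc⟩ := hπ _ h3
    have hact : ∀ x, (tt h2 x0 1).1 *ᵥ x = c • x := by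
      intro x
      rw [hc, Matrix.smul_mulVec, Matrix.one_mulVec]
    have h4 := hact x0
    rw [tt_act, Bf_alt h2, mul_zero, zero_smul, add_zero] at h4
    have hc1 : c = 1 := by
      have h5 : (c - 1) • x0 = 0 := by rw [sub_smul, one_smul, ← h4, sub_self]
      exact sub_eq_zero.1 ((smul_eq_zero.1 h5).resolve_right hx0)
    have h5 := hact f0
    have h6 : Bf K m f0 x0 = -1 := by rw [Bf_skew x0 f0, hf0]
    rw [tt_act, h6, hc1, one_smul, one_mul, neg_smul, one_smul] at h5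
    have h7 : -x0 = 0 := by
      have h8 : f0 + -x0 = f0 + 0 := by rw [h5, add_zero]
      exact add_left_cancel h8
    exact hx0 (neg_eq_zero.1 h7)
  · rintro _ ⟨v, c, rfl⟩
    exact exists_path h2 hm hπ hf0 v c

end

end Vale.Agent.P240.R2.H112.Cn
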