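import Vale.Agent.P240.Defs
import Mathlib.GroupTheory.Sylow
import Mathlib.GroupTheory.Subgroup.Simple

/-!
A criterion for the connectedness of the poset of nontrivial elementary abelian `p`-subgroups.
-/

set_option linter.all false

namespace Vale.Agent.P240.R2.H112.Cn

open Subgroup Relation

universe u

section
variable {G : Type u} [Group G] {p : ℕ}

/-- commuting elements of order `p` -/
def Cr (p : ℕ) (x y : G) : Prop := (x ^ p = 1 ∧ x ≠ 1) ∧ (y ^ p = 1 ∧ y ≠ 1) ∧ x * y = y * x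

lemma Cr.symm {x y : G} (h : Cr p x y) : Cr p y x := ⟨h.2.1, h.1, h.2.2.symm⟩

lemma conn_symm {x y : G} (h : ReflTransGen (Cr p) x y) : ReflTransGen (Cr p) y x := by
  induction h with
  | refl => exact ReflTransGen.refl
  | tail _ h2 ih => exact ReflTransGen.head h2.symm ih

lemma pow_conj' (g x : G) (k : ℕ) : (g * x * g⁻¹) ^ k = g * x ^ k * g⁻¹ := by
  rw [conj_pow]

lemma Cr.conj {x y : G} (h : Cr p x y) (g : G) : Cr p (g * x * g⁻¹) (g * y * g⁻¹) := by
  obtain ⟨⟨h1, h2⟩, ⟨h3, h4⟩, h5⟩ := h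
  refine ⟨⟨by rw [conj_pow, h1, mul_one, mul_inv_cancel], fun h => h2 ?_⟩,
    ⟨by rw [conj_pow, h3, mul_one, mul_inv_cancel], fun h => h4 ?_⟩, ?_⟩
  · exact conj_eq_one_iff.1 h
  · exact conj_eq_one_iff.1 h
  · have e1 : g * x * g⁻¹ * (g * y * g⁻¹) = g * (x * y) * g⁻¹ := by group
    have e2 : g * y * g⁻¹ * (g * x * g⁻¹) = g * (y * x) * g⁻¹ := by group
    rw [e1, e2, h5]

lemma conn_conj {x y : G} (h : ReflTransGen (Cr p) x y) (g : G) :
    ReflTransGen (Cr p) (g * x * g⁻¹) (g * y * g⁻¹) := by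
  induction h with
  | refl => exact ReflTransGen.refl
  | tail _ h2 ih => exact ih.tail (h2.conj g)

/-- the elements moving `z` inside its component -/
def St (p : ℕ) (z : G) : Subgroup G where
  carrier := {g | ReflTransGen (Cr p) z (g * z * g⁻¹)}
  one_mem' := by
    show ReflTransGen (Cr p) z (1 * z * 1⁻¹)
    rw [one_mul, inv_one, mul_one]
  mul_mem' := by
    intro g h hg hh
    show ReflTransGen (Cr p) z (g * h * z * (g * h)⁻¹)
    have h1 := conn_conj hh g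
    have e1 : g * (h * z * h⁻¹) * g⁻¹ = g * h * z * (g * h)⁻¹ := by group
    rw [e1] at h1
    exact hg.trans h1
  inv_mem' := by
    intro g hg
    show ReflTransGen (Cr p) z (g⁻¹ * z * g⁻¹⁻¹)
    have h1 := conn_symm (conn_conj hg g⁻¹)
    have e1 : g⁻¹ * (g * z * g⁻¹) * g⁻¹⁻¹ = z := by group
    rwa [e1] at h1

lemma mem_St {z g : G} : g ∈ St p z ↔ ReflTransGen (Cr p) z (g * z * g⁻¹) := Iff.rfl

/-- elements commuting with an element of the component -/
lemma mem_St_of {z y t : G} (h : ReflTransGen (Cr p) z y) (ht : t * y = y * t) : t ∈ St p z := by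
  have h1 := conn_conj h t
  have e1 : t * y * t⁻¹ = y := by rw [ht, mul_inv_cancel_right]
  rw [e1] at h1
  exact h.trans (conn_symm h1)

/-- the closed path relation of the poset -/
abbrev PR (p : ℕ) (G : Type u) [Group G] : Ap p G → Ap p G → Prop :=
  ReflTransGen fun X Y => X ≤ Y ∨ Y ≤ X

lemma cyc_mem {x : G} (h1 : x ^ p = 1) (h2 : x ≠ 1) :
    zpowers x ≠ ⊥ ∧ (∀ a ∈ zpowers x, ∀ b ∈ zpowers x, a * b = b * a) ∧
      ∀ a ∈ zpowers x, a ^ p = 1 := by
  refine ⟨fun h => h2 (zpowers_eq_bot.1 h), ?_, ?_⟩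
  · rintro _ ⟨i, rfl⟩ _ ⟨j, rfl⟩
    exact (zpow_mul_comm x i j)
  · rintro _ ⟨i, rfl⟩
    show (x ^ i) ^ p = 1
    rw [← zpow_natCast, ← zpow_mul, mul_comm, zpow_mul, zpow_natCast, h1, one_zpow]

lemma two_mem {x y : G} (h : Cr p x y) : zpowers x ⊔ zpowers y ≠ ⊥ ∧
    (∀ a ∈ zpowers x ⊔ zpowers y, ∀ b ∈ zpowers x ⊔ zpowers y, a * b = b * a) ∧
      ∀ a ∈ zpowers x ⊔ zpowers y, a ^ p = 1 := by
  obtain ⟨⟨h1, h2⟩, ⟨h3, h4⟩, h5⟩ := h
  have hc : Commute x y := h5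
  have key : ∀ a ∈ zpowers x ⊔ zpowers y, ∃ i j : ℤ, a = x ^ i * y ^ j := by
    intro a ha
    rw [zpowers_eq_closure, zpowers_eq_closure, ← Subgroup.closure_union] at ha
    induction ha using closure_induction with
    | mem a ha =>
      rcases ha with ha | ha
      · exact ⟨1, 0, by rw [Set.mem_singleton_iff.1 ha, zpow_one, zpow_zero, mul_one]⟩
      · exact ⟨0, 1, by rw [Set.mem_singleton_iff.1 ha, zpow_one, zpow_zero, one_mul]⟩
    | one => exact ⟨0, 0, by rw [zpow_zero, zpow_zero, one_mul]⟩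
    | mul a b _ _ iha ihb =>
      obtain ⟨i, j, rfl⟩ := iha
      obtain ⟨k, l, rfl⟩ := ihb
      refine ⟨i + k, j + l, ?_⟩
      rw [zpow_add, zpow_add, mul_assoc, ← mul_assoc (y ^ j), ((hc.zpow_zpow k j).eq).symm]
      simp only [mul_assoc]
    | inv a _ iha =>
      obtain ⟨i, j, rfl⟩ := iha
      refine ⟨-i, -j, ?_⟩
      rw [_root_.mul_inv_rev, zpow_neg, zpow_neg, ← _root_.mul_inv_rev, ← _root_.mul_inv_rev,
        (hc.zpow_zpow i j).eq]
  refine ⟨fun h => h2 ?_, ?_, ?_⟩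
  · have : zpowers x ≤ ⊥ := h ▸ le_sup_left
    exact zpowers_eq_bot.1 (le_bot_iff.1 this)
  · intro a ha b hb
    obtain ⟨i, j, rfl⟩ := key a ha
    obtain ⟨k, l, rfl⟩ := key b hb
    have c1 : Commute (x ^ i * y ^ j) (x ^ k * y ^ l) :=
      (((Commute.refl x).zpow_zpow i k).mul_right (hc.zpow_zpow i l)).mul_left
        ((hc.symm.zpow_zpow j k).mul_right ((Commute.refl y).zpow_zpow j l))
    exact c1
  · intro a ha
    obtain ⟨i, j, rfl⟩ := key a ha
    rw [(hc.zpow_zpow i j).mul_pow]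
    rw [(cyc_mem h1 h2).2.2 _ ⟨i, rfl⟩, (cyc_mem h3 h4).2.2 _ ⟨j, rfl⟩, one_mul]

/-- paths of elements give paths of subgroups -/
lemma path_of {x y : G} (h : ReflTransGen (Cr p) x y) (hx : x ≠ 1) {A : Ap p G}
    (hA : x ∈ A.1) : ∀ {B : Ap p G}, y ∈ B.1 → PR p G A B := by
  induction h with
  | refl =>
    intro B hB
    have hx1 : x ^ p = 1 := A.2.2.2 x hA
    refine (ReflTransGen.single (b := (⟨zpowers x, cyc_mem hx1 hx⟩ : Ap p G)) (Or.inr ?_)).tail
      (Or.inl ?_)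
    · exact (zpowers_le.2 hA : zpowers x ≤ A.1)
    · exact (zpowers_le.2 hB : zpowers x ≤ B.1)
  | @tail z y hxz hzy ih =>
    intro B hB
    have h1 := ih (B := ⟨zpowers z ⊔ zpowers y, two_mem hzy⟩) (mem_sup_left (mem_zpowers z))
    refine (h1.tail (c := (⟨zpowers y, cyc_mem hzy.2.1.1 hzy.2.1.2⟩ : Ap p G)) (Or.inr ?_)).tail
      (Or.inl ?_)
    · exact (le_sup_right : zpowers y ≤ zpowers z ⊔ zpowers y)
    · exact (zpowers_le.2 hB : zpowers y ≤ B.1)

/-- an element of order `p` which commutes with all elements of a Sylow subgroup -/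
lemma exists_cent [Finite G] [hp : Fact p.Prime] {x : G} (hx : x ^ p = 1) (hx1 : x ≠ 1) :
    ∃ P : Sylow p G, x ∈ P ∧ ∃ c ∈ P, c ^ p = 1 ∧ c ≠ 1 ∧ ∀ y ∈ P, c * y = y * c := by
  have h1 : IsPGroup p (zpowers x) := by
    intro y
    refine ⟨1, Subtype.ext ?_⟩
    rw [pow_one]
    exact (cyc_mem hx hx1).2.2 y.1 y.2
  obtain ⟨P, hP⟩ := h1.exists_le_sylow
  have hxP : x ∈ P := hP (mem_zpowers x)
  refine ⟨P, hxP, ?_⟩
  have hnt : Nontrivial P := ⟨⟨⟨x, hxP⟩, 1, fun h => hx1 (congrArg Subtype.val h)⟩⟩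
  have hcn := P.isPGroup'.center_nontrivial
  have hcp : IsPGroup p (center P) := P.isPGroup'.to_subgroup _
  have hdvd : p ∣ Nat.card (center P) := by
    obtain ⟨n, hn⟩ := hcp.exists_card_eq
    rcases Nat.eq_zero_or_pos n with h0 | h0
    · rw [h0, pow_zero] at hn
      have := Finite.one_lt_card (α := center P)
      omega
    · rw [hn]
      exact dvd_pow_self p (by omega)
  obtain ⟨c, hc⟩ := exists_prime_orderOf_dvd_card' p hdvd
  refine ⟨c.1.1, c.1.2, ?_, ?_, ?_⟩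
  · have h2 : c ^ p = 1 := by
      have h3 := pow_orderOf_eq_one c
      rwa [hc] at h3
    exact congrArg (fun z : center P => (z.1.1 : G)) h2
  · intro h2
    have h3 : c = 1 := Subtype.ext (Subtype.ext h2)
    rw [h3, orderOf_one] at hc
    exact hp.1.one_lt.ne hc
  · intro y hy
    have h2 := mem_center_iff.1 c.2 ⟨y, hy⟩
    exact (congrArg Subtype.val h2).symm

/-- **The criterion.** -/
theorem conn_of_St [Finite G] [hp : Fact p.Prime] {z : G} (hz : z ^ p = 1) (hz1 : z ≠ 1)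
    (hSt : St p z = ⊤) (A B : Ap p G) : PR p G A B := by
  obtain ⟨Q, hzQ, d, hdQ, hd1, hd2, hd3⟩ := exists_cent hz hz1
  have key : ∀ A : Ap p G, ∃ x ∈ A.1, x ≠ 1 ∧ ReflTransGen (Cr p) z x := by
    intro A
    obtain ⟨x, hxA, hx1⟩ : ∃ x ∈ A.1, x ≠ 1 := by
      by_contra hcon
      push Not at hcon
      exact A.2.1 ((eq_bot_iff_forall _).2 hcon)
    have hxp := A.2.2.2 x hxA
    refine ⟨x, hxA, hx1, ?_⟩
    obtain ⟨P, hxP, c, hcP, hc1, hc2, hc3⟩ := exists_cent hxp hx1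
    obtain ⟨g, hg⟩ := MulAction.exists_smul_eq G P Q
    -- the conjugate of `c` commutes with `z`
    have hz' : g⁻¹ * z * g ∈ P := by
      rw [← hg] at hzQ
      have h2 : z ∈ ((g • P : Sylow p G) : Subgroup G) := hzQ
      rw [Sylow.coe_subgroup_smul, mem_pointwise_smul_iff_inv_smul_mem] at h2
      have h3 : (MulAut.conj g)⁻¹ • z ∈ (P : Subgroup G) := h2
      have h4 : (MulAut.conj g)⁻¹ • z = g⁻¹ * z * g := by
        rw [← map_inv]
        show g⁻¹ * z * g⁻¹⁻¹ = _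
        rw [inv_inv]
      rw [h4] at h3
      exact h3
    have h1 : Cr p (g⁻¹ * z * g) c := by
      refine ⟨⟨?_, fun h => hz1 ?_⟩, ⟨hc1, hc2⟩, (hc3 _ hz').symm⟩
      · have e1 : g⁻¹ * z * g = g⁻¹ * z * g⁻¹⁻¹ := by rw [inv_inv]
        rw [e1, conj_pow, hz, mul_one, mul_inv_cancel]
      · have e1 : g⁻¹ * z * g = g⁻¹ * z * g⁻¹⁻¹ := by rw [inv_inv]
        rw [e1] at h
        exact conj_eq_one_iff.1 h
    have h2 : ReflTransGen (Cr p) z (g⁻¹ * z * g) := by
      have h3 : g⁻¹ ∈ St p z := by rw [hSt]; exact mem_top _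
      rw [mem_St, inv_inv] at h3
      exact h3
    exact (h2.tail h1).tail ⟨⟨hc1, hc2⟩, ⟨hxp, hx1⟩, hc3 x hxP⟩
  obtain ⟨x, hxA, hx1, hx⟩ := key A
  obtain ⟨y, hyB, hy1, hy⟩ := key B
  exact path_of ((conn_symm hx).trans hy) hx1 hxA hyB

/-- **The criterion for simple groups.** -/
theorem conn_of_simple [Finite G] [hp : Fact p.Prime] (hs : IsSimpleGroup G) {z : G}
    (hz : z ^ p = 1) (hz1 : z ≠ 1) {T : Set G} (hT : ∀ t ∈ T, ∀ g, g * t * g⁻¹ ∈ T)
    (hT1 : ∃ t ∈ T, t ≠ 1) (h : ∀ t ∈ T, ∃ y, ReflTransGen (Cr p) z y ∧ t * y = y * t)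
    (A B : Ap p G) : PR p G A B := by
  refine conn_of_St hz hz1 ?_ A B
  have hN : (closure T).Normal := by
    refine ⟨fun n hn g => ?_⟩
    induction hn using closure_induction with
    | mem x hx => exact subset_closure (hT x hx g)
    | one => rw [mul_one, mul_inv_cancel]; exact one_mem _
    | mul x y _ _ hx hy =>
      have e1 : g * (x * y) * g⁻¹ = (g * x * g⁻¹) * (g * y * g⁻¹) := by group
      rw [e1]
      exact mul_mem hx hy
    | inv x _ hx =>
      have e1 : g * x⁻¹ * g⁻¹ = (g * x * g⁻¹)⁻¹ := by group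
      rw [e1]
      exact inv_mem hx
  have h1 : closure T = ⊤ := by
    rcases hs.eq_bot_or_eq_top_of_normal _ hN with h2 | h2
    · obtain ⟨t, ht, ht1⟩ := hT1
      have h3 : t ∈ closure T := subset_closure ht
      rw [h2, mem_bot] at h3
      exact absurd h3 ht1
    · exact h2
  rw [eq_top_iff, ← h1, closure_le]
  intro t ht
  obtain ⟨y, hy1, hy2⟩ := h t ht
  exact mem_St_of hy1 hy2

end

end Vale.Agent.P240.R2.H112.Cn
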