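import Mathlib.GroupTheory.OrderOfElement
import Mathlib.Algebra.Group.End
import Mathlib.Data.Fintype.Perm
import Mathlib.Data.Nat.Prime.Basic
import Mathlib.Tactic

/-!
Symmetries of order a power of an odd prime of the Dynkin diagrams `A_m` and `D_m`.
-/

set_option linter.all false

namespace Vale.Agent.P240.R2.H112.Dg

lemma eq_one_of_coprime {G : Type*} [Group G] {g : G} {a b : ℕ} (h : a.Coprime b) (ha : g ^ a = 1)
    (hb : g ^ b = 1) : g = 1 := by
  have h1 := Nat.dvd_gcd (orderOf_dvd_of_pow_eq_one ha) (orderOf_dvd_of_pow_eq_one hb)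
  rw [h.gcd_eq_one] at h1
  exact orderOf_eq_one_iff.1 (Nat.dvd_one.1 h1)

section path
variable {m : ℕ}

/-- neighbours on the path -/
def Pa (m : ℕ) (i j : Fin m) : Prop := i.1 + 1 = j.1 ∨ j.1 + 1 = i.1

lemma path_fix {τ : Equiv.Perm (Fin m)} (h : ∀ i j, Pa m i j ↔ Pa m (τ i) (τ j))
    (h0 : ∀ i : Fin m, i.1 = 0 → τ i = i) : τ = 1 := by
  have key : ∀ n : ℕ, ∀ i : Fin m, i.1 ≤ n → τ i = i := by
    intro n
    induction n with
    | zero => exact fun i hi => h0 i (by omega)
    | succ n ih =>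
      intro i hi
      rcases Nat.lt_or_ge i.1 (n + 1) with h1 | h1
      · exact ih i (by omega)
      have hi' : i.1 = n + 1 := by omega
      obtain ⟨j, hj⟩ : ∃ j : Fin m, j.1 = n := ⟨⟨n, by omega⟩, rfl⟩
      have hji : Pa m j i := Or.inl (by omega)
      have h2 := (h j i).1 hji
      rw [ih j (by omega)] at h2
      rcases h2 with h2 | h2
      · exact Fin.ext (by omega)
      · exfalso
        have h3 := ih (τ i) (by omega)
        have h4 := τ.injective h3
        rw [h4] at h2
        omega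
  ext i
  rw [key i.1 i le_rfl]
  rfl

lemma path_end {σ : Equiv.Perm (Fin m)} (h : ∀ i j, Pa m i j ↔ Pa m (σ i) (σ j)) (i : Fin m)
    (hi : i.1 = 0 ∨ i.1 + 1 = m) : (σ i).1 = 0 ∨ (σ i).1 + 1 = m := by
  by_contra hcon
  push Not at hcon
  have hlt := (σ i).2
  obtain ⟨x, hx⟩ : ∃ x : Fin m, x.1 = (σ i).1 - 1 := ⟨⟨(σ i).1 - 1, by omega⟩, rfl⟩
  obtain ⟨y, hy⟩ : ∃ y : Fin m, y.1 = (σ i).1 + 1 := ⟨⟨(σ i).1 + 1, by omega⟩, rfl⟩
  have h1 : Pa m i (σ.symm x) := (h _ _).2 (by
    rw [Equiv.apply_symm_apply]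
    exact Or.inr (by omega))
  have h2 : Pa m i (σ.symm y) := (h _ _).2 (by
    rw [Equiv.apply_symm_apply]
    exact Or.inl (by omega))
  have h3 : σ.symm x = σ.symm y := by
    apply Fin.ext
    have := (σ.symm x).2
    have := (σ.symm y).2
    rcases h1 with h1 | h1 <;> rcases h2 with h2 | h2 <;> rcases hi with hi | hi <;> omega
  have h4 := congrArg Fin.val (σ.symm.injective h3)
  omega

/-- **the path** -/
theorem path_perm {σ : Equiv.Perm (Fin m)} (h : ∀ i j, Pa m i j ↔ Pa m (σ i) (σ j)) {p k : ℕ}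
    (hp : p.Prime) (hp2 : p ≠ 2) (hk : σ ^ p ^ k = 1) : σ = 1 := by
  have hsq : σ ^ 2 = 1 := by
    refine path_fix (fun i j => ?_) fun i hi => ?_
    · rw [pow_two, Equiv.Perm.mul_apply, Equiv.Perm.mul_apply]
      exact (h i j).trans (h _ _)
    · rw [pow_two, Equiv.Perm.mul_apply]
      rcases path_end h i (Or.inl hi) with h1 | h1
      · have h2 : σ i = i := Fin.ext (by omega)
        rw [h2, h2]
      · rcases path_end h (σ i) (Or.inr h1) with h2 | h2
        · exact Fin.ext (by omega)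
        · have h3 : σ (σ i) = σ i := Fin.ext (by omega)
          have h4 := σ.injective h3
          rw [h4, h4]
  exact eq_one_of_coprime (Nat.Coprime.pow_right k
    ((Nat.coprime_primes Nat.prime_two hp).2 (Ne.symm hp2))) hsq hk

end path

section dm
variable {m : ℕ}

/-- neighbours in the diagram `D_m`: the path `0, …, m - 2` and the node `m - 1` joined to
`m - 3` -/
def Da (m : ℕ) (i j : Fin m) : Prop :=
  (i.1 + 1 = j.1 ∧ j.1 + 1 < m) ∨ (j.1 + 1 = i.1 ∧ i.1 + 1 < m) ∨
    (i.1 + 3 = m ∧ j.1 + 1 = m) ∨ (j.1 + 3 = m ∧ i.1 + 1 = m)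

/-- the branch node is fixed -/
lemma branch_fix (hm : 4 ≤ m) {σ : Equiv.Perm (Fin m)} (h : ∀ i j, Da m i j ↔ Da m (σ i) (σ j))
    (i : Fin m) (hi : i.1 + 3 = m) : σ i = i := by
  obtain ⟨x, hx⟩ : ∃ x : Fin m, x.1 + 4 = m := ⟨⟨m - 4, by omega⟩, by show m - 4 + 4 = m; omega⟩
  obtain ⟨y, hy⟩ : ∃ y : Fin m, y.1 + 2 = m := ⟨⟨m - 2, by omega⟩, by show m - 2 + 2 = m; omega⟩
  obtain ⟨z, hz⟩ : ∃ z : Fin m, z.1 + 1 = m := ⟨⟨m - 1, by omega⟩, by show m - 1 + 1 = m; omega⟩
  have h1 := (h i x).1 (by unfold Da; omega)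
  have h2 := (h i y).1 (by unfold Da; omega)
  have h3 := (h i z).1 (by unfold Da; omega)
  have hxy : (σ x).1 ≠ (σ y).1 := fun e => by
    have := congrArg Fin.val (σ.injective (Fin.ext e))
    omega
  have hxz : (σ x).1 ≠ (σ z).1 := fun e => by
    have := congrArg Fin.val (σ.injective (Fin.ext e))
    omega
  have hyz : (σ y).1 ≠ (σ z).1 := fun e => by
    have := congrArg Fin.val (σ.injective (Fin.ext e))
    omega
  unfold Da at h1 h2 h3
  apply Fin.ext
  omega

/-- symmetries which fix the four last nodes -/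
lemma dm_fix (hm : 4 ≤ m) {τ : Equiv.Perm (Fin m)} (h : ∀ i j, Da m i j ↔ Da m (τ i) (τ j))
    (h0 : ∀ i : Fin m, m ≤ i.1 + 4 → τ i = i) : τ = 1 := by
  have key : ∀ n : ℕ, ∀ i : Fin m, m ≤ i.1 + 4 + n → τ i = i := by
    intro n
    induction n with
    | zero => exact fun i hi => h0 i (by omega)
    | succ n ih =>
      intro i hi
      by_cases h1 : m ≤ i.1 + 4 + n
      · exact ih i h1
      obtain ⟨j, hj⟩ : ∃ j : Fin m, j.1 = i.1 + 1 := ⟨⟨i.1 + 1, by omega⟩, rfl⟩
      obtain ⟨l, hl⟩ : ∃ l : Fin m, l.1 = i.1 + 2 := ⟨⟨i.1 + 2, by omega⟩, rfl⟩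
      obtain ⟨z, hz⟩ : ∃ z : Fin m, z.1 + 1 = m := ⟨⟨m - 1, by omega⟩, by show m - 1 + 1 = m; omega⟩
      have h2 := (h i j).1 (by unfold Da; omega)
      rw [ih j (by omega)] at h2
      have h3 : (τ i).1 ≠ l.1 := fun e => by
        have h4 : τ i = τ l := by rw [ih l (by omega)]; exact Fin.ext e
        have := congrArg Fin.val (τ.injective h4)
        omega
      have h5 : (τ i).1 ≠ z.1 := fun e => by
        have h4 : τ i = τ z := by rw [ih z (by omega)]; exact Fin.ext e
        have := congrArg Fin.val (τ.injective h4)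
        omega
      unfold Da at h2
      apply Fin.ext
      omega
  ext i
  rw [key m i (by omega)]
  rfl

set_option maxRecDepth 20000 in
lemma pow_six : ∀ σ : Equiv.Perm (Fin 4), σ 1 = 1 → σ ^ 6 = 1 := by
  decide

/-- **the diagram `D_m`** -/
theorem dm_perm (hm : 4 ≤ m) {σ : Equiv.Perm (Fin m)} (h : ∀ i j, Da m i j ↔ Da m (σ i) (σ j))
    {p k : ℕ} (hp : p.Prime) (hp2 : p ≠ 2) (h43 : ¬ (m = 4 ∧ p = 3)) (hk : σ ^ p ^ k = 1) :
    σ = 1 := by
  rcases Nat.lt_or_ge 4 m with h5 | h5
  · -- `m ≥ 5`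
    obtain ⟨b, hb⟩ : ∃ b : Fin m, b.1 + 3 = m := ⟨⟨m - 3, by omega⟩, by show m - 3 + 3 = m; omega⟩
    have hσb := branch_fix hm h b hb
    obtain ⟨x, hx⟩ : ∃ x : Fin m, x.1 + 4 = m := ⟨⟨m - 4, by omega⟩, by show m - 4 + 4 = m; omega⟩
    obtain ⟨w, hw⟩ : ∃ w : Fin m, w.1 + 5 = m := ⟨⟨m - 5, by omega⟩, by show m - 5 + 5 = m; omega⟩
    obtain ⟨y, hy⟩ : ∃ y : Fin m, y.1 + 2 = m := ⟨⟨m - 2, by omega⟩, by show m - 2 + 2 = m; omega⟩
    obtain ⟨z, hz⟩ : ∃ z : Fin m, z.1 + 1 = m := ⟨⟨m - 1, by omega⟩, by show m - 1 + 1 = m; omega⟩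
    have nb : ∀ i : Fin m, Da m b i → (i.1 + 4 = m ∨ i.1 + 2 = m ∨ i.1 + 1 = m) := by
      intro i hi
      unfold Da at hi
      omega
    have img : ∀ i : Fin m, Da m b i →
        ((σ i).1 + 4 = m ∨ (σ i).1 + 2 = m ∨ (σ i).1 + 1 = m) := by
      intro i hi
      have h6 := (h b i).1 hi
      rw [hσb] at h6
      exact nb _ h6
    have hσx : σ x = x := by
      have h6 := img x (by unfold Da; omega)
      have h7 := (h x w).1 (by unfold Da; omega)
      have h8 : (σ w).1 ≠ b.1 := fun e => by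
        have h9 : σ w = σ b := by rw [hσb]; exact Fin.ext e
        have := congrArg Fin.val (σ.injective h9)
        omega
      unfold Da at h7
      apply Fin.ext
      omega
    have hne : ∀ i : Fin m, i ≠ x → (σ i).1 + 4 ≠ m := by
      intro i hi e
      apply hi
      apply σ.injective
      rw [hσx]
      exact Fin.ext (by omega)
    have hyx : y ≠ x := fun e => by
      have := congrArg Fin.val e
      omega
    have hzx : z ≠ x := fun e => by
      have := congrArg Fin.val e
      omega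
    have hyz : (σ y).1 ≠ (σ z).1 := fun e => by
      have := congrArg Fin.val (σ.injective (Fin.ext e))
      omega
    have hy1 := img y (by unfold Da; omega)
    have hz1 := img z (by unfold Da; omega)
    have hy2 := hne y hyx
    have hz2 := hne z hzx
    have hsq : σ ^ 2 = 1 := by
      refine dm_fix hm (fun i j => ?_) fun i hi => ?_
      · rw [pow_two, Equiv.Perm.mul_apply, Equiv.Perm.mul_apply]
        exact (h i j).trans (h _ _)
      · rw [pow_two, Equiv.Perm.mul_apply]
        have hi' : i = x ∨ i = b ∨ i = y ∨ i = z := by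
          have := i.2
          have h9 : i.1 = x.1 ∨ i.1 = b.1 ∨ i.1 = y.1 ∨ i.1 = z.1 := by omega
          rcases h9 with h9 | h9 | h9 | h9
          · exact Or.inl (Fin.ext h9)
          · exact Or.inr (Or.inl (Fin.ext h9))
          · exact Or.inr (Or.inr (Or.inl (Fin.ext h9)))
          · exact Or.inr (Or.inr (Or.inr (Fin.ext h9)))
        rcases hi' with rfl | rfl | rfl | rfl
        · rw [hσx, hσx]
        · rw [hσb, hσb]
        · rcases Nat.lt_or_ge ((σ i).1 + 1) m with h9 | h9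
          · have h10 : σ i = i := Fin.ext (by omega)
            rw [h10, h10]
          · have h10 : σ i = z := Fin.ext (by omega)
            rw [h10]
            have h11 : (σ z).1 ≠ z.1 := by
              rw [← h10]
              intro e
              have h12 := σ.injective (Fin.ext e)
              have h13 := congrArg Fin.val (h12.trans rfl)
              omega
            exact Fin.ext (by omega)
        · rcases Nat.lt_or_ge ((σ i).1 + 1) m with h9 | h9
          · have h10 : σ i = y := Fin.ext (by omega)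
            rw [h10]
            have h11 : (σ y).1 ≠ y.1 := by
              rw [← h10]
              intro e
              have h12 := σ.injective (Fin.ext e)
              have h13 := congrArg Fin.val (h12.trans rfl)
              omega
            exact Fin.ext (by omega)
          · have h10 : σ i = i := Fin.ext (by omega)
            rw [h10, h10]
    exact eq_one_of_coprime (Nat.Coprime.pow_right k
      ((Nat.coprime_primes Nat.prime_two hp).2 (Ne.symm hp2))) hsq hk
  · -- `m = 4`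
    have hm4 : m = 4 := by omega
    subst hm4
    have h1 : σ 1 = 1 := branch_fix hm h 1 rfl
    have h6 : σ ^ 6 = 1 := pow_six σ h1
    have hp3 : p ≠ 3 := fun e => h43 ⟨rfl, e⟩
    have hc : Nat.Coprime 6 (p ^ k) := by
      have e6 : (6 : ℕ) = 2 * 3 := rfl
      rw [e6]
      exact Nat.Coprime.mul_left
        (Nat.Coprime.pow_right k ((Nat.coprime_primes Nat.prime_two hp).2 (Ne.symm hp2)))
        (Nat.Coprime.pow_right k ((Nat.coprime_primes Nat.prime_three hp).2 (Ne.symm hp3)))
    exact eq_one_of_coprime hc h6 hk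

end dm

end Vale.Agent.P240.R2.H112.Dg
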