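import Vale.Agent.P240.R2.H112.Dg
import Vale.Agent.P240.R2.H997.ParFix

/-!
Automorphisms of order a power of an odd prime of a group with a split BN-pair of type `D_m`
stabilize the minimal parabolic subgroups.
-/

set_option linter.all false

namespace Vale.Agent.P240.R2.H112.Dg

open Subgroup Vale.Agent.P240.K Vale.Agent.P240.H195 Vale.Agent.P240.R2.H997

universe u

variable {L : Type u} [Group L] {B N U : Subgroup L} {S : Set L} {r : ℕ}

/-- **diagrams of type `D_m`** -/
theorem par_fix_of_dm (h : SB r B N U S) [Finite L] {m : ℕ} (hm : 4 ≤ m) (s : Fin m → L)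
    (hs : ∀ i, s i ∈ S) (hall : ∀ t ∈ S, ∃ i, (s i)⁻¹ * t ∈ B)
    (hinj : ∀ i j, (s i)⁻¹ * s j ∈ B → i = j)
    (hnc1 : ∀ i j : Fin m, i.val + 1 = j.val → j.val + 1 < m → (s j * s i)⁻¹ * (s i * s j) ∉ B)
    (hnc2 : ∀ i j : Fin m, i.val + 3 = m → j.val + 1 = m → (s j * s i)⁻¹ * (s i * s j) ∉ B)
    (hc : ∀ i j : Fin m, i.val < j.val → ¬ (i.val + 1 = j.val ∧ j.val + 1 < m) →
      ¬ (i.val + 3 = m ∧ j.val + 1 = m) → (s j * s i)⁻¹ * (s i * s j) ∈ B)
    {e : MulAut L} (he : am e B = B) {p k : ℕ} (hp : p.Prime) (hp2 : p ≠ 2)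
    (h43 : ¬ (m = 4 ∧ p = 3)) (hen : e ^ p ^ k = 1) :
    ∀ t ∈ S, am e (Par B t) = Par B t := by
  obtain ⟨π, hπ1, hπ2, -, hπ4⟩ := par_perm h s hs hall hinj he
  refine par_fix_of_perm h hs hall hπ1 ?_
  have hcomm : ∀ i j : Fin m, (s j * s i)⁻¹ * (s i * s j) ∈ B →
      (s i * s j)⁻¹ * (s j * s i) ∈ B := by
    intro i j h1
    have := inv_mem h1
    rwa [mul_inv_rev, inv_inv] at this
  have key : ∀ i j : Fin m, i ≠ j → (Da m i j ↔ (s j * s i)⁻¹ * (s i * s j) ∉ B) := by
    have key' : ∀ i j : Fin m, i.val < j.val →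
        (Da m i j ↔ (s j * s i)⁻¹ * (s i * s j) ∉ B) := by
      intro i j hij
      constructor
      · intro hd
        have hd' : (i.val + 1 = j.val ∧ j.val + 1 < m) ∨ (i.val + 3 = m ∧ j.val + 1 = m) := by
          unfold Da at hd
          omega
        rcases hd' with ⟨h1, h2⟩ | ⟨h1, h2⟩
        · exact hnc1 i j h1 h2
        · exact hnc2 i j h1 h2
      · intro hB
        by_contra hd
        refine hB (hc i j hij (fun h1 => hd ?_) fun h1 => hd ?_)
        · unfold Da
          omega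
        · unfold Da
          omega
    intro i j hij
    have hij' : i.val ≠ j.val := fun h => hij (Fin.ext h)
    rcases lt_or_gt_of_ne hij' with h2 | h2
    · exact key' i j h2
    · have h3 : Da m i j ↔ Da m j i := by
        unfold Da
        omega
      rw [h3, key' j i h2]
      exact ⟨fun h4 h5 => h4 (hcomm _ _ h5), fun h4 h5 => h4 (hcomm _ _ h5)⟩
  refine dm_perm hm (fun i j => ?_) hp hp2 h43 (hπ4 _ hen)
  by_cases hij : i = j
  · subst hij
    unfold Da
    omega
  · rw [key i j hij, key (π i) (π j) fun h1 => hij (π.injective h1), hπ2 i j]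

end Vale.Agent.P240.R2.H112.Dg
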