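import Vale.Agent.P240.R2.H112.Dg2
import Vale.Agent.P240.R2.H38.D8

/-!
Automorphisms of order a power of an odd prime of the groups of type `D` stabilize the minimal
parabolic subgroups.
-/

set_option autoImplicit false
set_option linter.all false

namespace Vale.Agent.P240.R2.H112.Dg

open Subgroup Matrix Vale.Agent.P240.H195 Vale.Agent.P240.R2.H38.DD

section
variable {k : ℕ}

/-- the simple reflections -/
def nd (k : ℕ) (hk : 0 < k) (i : Fin (k + 1)) : Equiv.Perm (VI k) :=
  if h : i.val < k then tau ⟨i.val, h⟩ else pp k * tau ⟨k - 1, by omega⟩ * pp k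

lemma nd_lt {hk : 0 < k} {i : Fin (k + 1)} (h : i.val < k) : nd k hk i = tau ⟨i.val, h⟩ :=
  dif_pos h

lemma nd_last {hk : 0 < k} {i : Fin (k + 1)} (h : i.val = k) :
    nd k hk i = pp k * tau ⟨k - 1, by omega⟩ * pp k := dif_neg (by omega)

lemma nd_STy (hk : 0 < k) (i : Fin (k + 1)) : STy (nd k hk i) := by
  by_cases h : i.val < k
  · exact ⟨_, Or.inl (nd_lt h)⟩
  · exact ⟨_, Or.inr (nd_last (by omega))⟩

lemma exists_nd {hk : 0 < k} {τ : Equiv.Perm (VI k)} (h : STy τ) : ∃ i, nd k hk i = τ := by
  obtain ⟨i, rfl | rfl⟩ := h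
  · exact ⟨⟨i.val, by omega⟩, nd_lt i.2⟩
  · by_cases hi : i.val + 1 < k
    · rw [pp_tau hi]
      exact ⟨⟨i.val, by omega⟩, nd_lt i.2⟩
    · refine ⟨⟨k, by omega⟩, ?_⟩
      rw [nd_last rfl]
      have : (⟨k - 1, by omega⟩ : Fin k) = i := Fin.ext (by have := i.2; simp only; omega)
      rw [this]

lemma last_val {hk : 0 < k} {i : Fin (k + 1)} (h : i.val = k) (u : VI k) :
    (nd k hk i u).val = if u.val + 1 = k then k + 1 else if u.val = k + 1 then k - 1 else
      if u.val = k then k + 2 else if u.val = k + 2 then k else u.val := by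
  rw [nd_last h, Equiv.Perm.mul_apply, Equiv.Perm.mul_apply]
  have h1 := pp_val u
  have h2 := tau_val ⟨k - 1, by omega⟩ (pp k u)
  have h3 := pp_val (tau ⟨k - 1, by omega⟩ (pp k u))
  have hu := u.2
  simp only at h2
  generalize (pp k (tau ⟨k - 1, by omega⟩ (pp k u))).val = z at *
  generalize (tau ⟨k - 1, by omega⟩ (pp k u)).val = y at *
  generalize (pp k u).val = x at *
  split_ifs at h1 <;> split_ifs at h2 <;> split_ifs at h3 <;> split_ifs <;> omega

lemma lt_val {hk : 0 < k} {i : Fin (k + 1)} (h : i.val < k) (u : VI k) : (nd k hk i u).val =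
    if u.val = i.val then i.val + 1 else if u.val = i.val + 1 then i.val else
      if u.val + i.val = 2 * k then u.val + 1 else
        if u.val + i.val = 2 * k + 1 then u.val - 1 else u.val := by
  rw [nd_lt h, tau_val]

lemma nd_inj {hk : 0 < k} {i j : Fin (k + 1)} (h : nd k hk i = nd k hk j) : i = j := by
  by_contra hne
  have hne' : i.val ≠ j.val := fun h => hne (Fin.ext h)
  have key : ∀ i j : Fin (k + 1), i.val < j.val → nd k hk i = nd k hk j → False := by
    intro i j hij h
    have hj := j.2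
    obtain ⟨u, hu⟩ : ∃ u : VI k, u.val = i.val := ⟨⟨i.val, by omega⟩, rfl⟩
    have h1 : (nd k hk i u).val = (nd k hk j u).val := by rw [h]
    have hi : i.val < k := by omega
    rw [lt_val hi] at h1
    by_cases hjk : j.val < k
    · rw [lt_val hjk] at h1
      split_ifs at h1 <;> omega
    · rw [last_val (by omega)] at h1
      split_ifs at h1 <;> omega
  rcases lt_or_gt_of_ne hne' with h1 | h1
  · exact key i j h1 h
  · exact key j i h1 h.symm

lemma nd_comm_lt {hk : 0 < k} {i j : Fin (k + 1)} (hij : i.val + 1 < j.val) (hj : j.val < k) :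
    nd k hk i * nd k hk j = nd k hk j * nd k hk i := by
  have hi : i.val < k := by omega
  have hd : Equiv.Perm.Disjoint (nd k hk i) (nd k hk j) := by
    intro u
    have h1 := lt_val (hk := hk) hi u
    have h2 := lt_val (hk := hk) hj u
    have hu := u.2
    have h0 : (nd k hk i u).val = u.val ∨ (nd k hk j u).val = u.val := by
      generalize (nd k hk i u).val = z at *
      generalize (nd k hk j u).val = w at *
      split_ifs at h1 <;> split_ifs at h2 <;> omega
    exact h0.imp Fin.ext Fin.ext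
  exact hd.commute

lemma nd_comm_last {hk : 0 < k} {i j : Fin (k + 1)} (hi : i.val < k) (hij : i.val + 2 ≠ k)
    (hj : j.val = k) : nd k hk i * nd k hk j = nd k hk j * nd k hk i := by
  by_cases hik : i.val + 1 = k
  · ext u
    rw [Equiv.Perm.mul_apply, Equiv.Perm.mul_apply]
    have h1 := lt_val (hk := hk) hi u
    have h2 := last_val (hk := hk) hj u
    have h3 := lt_val (hk := hk) hi (nd k hk j u)
    have h4 := last_val (hk := hk) hj (nd k hk i u)
    have hu := u.2
    generalize (nd k hk i (nd k hk j u)).val = x at *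
    generalize (nd k hk j (nd k hk i u)).val = y at *
    generalize (nd k hk i u).val = z at *
    generalize (nd k hk j u).val = w at *
    have hc : u.val + 1 = k ∨ u.val = k ∨ u.val = k + 1 ∨ u.val = k + 2 ∨
        (u.val + 1 < k ∨ k + 2 < u.val) := by omega
    rcases hc with hc | hc | hc | hc | hc
    · have hz : z = k := by split_ifs at h1 <;> omega
      have hw : w = k + 1 := by split_ifs at h2 <;> omega
      have hx : x = k + 2 := by split_ifs at h3 <;> omega
      have hy : y = k + 2 := by split_ifs at h4 <;> omega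
      omega
    · have hz : z + 1 = k := by split_ifs at h1 <;> omega
      have hw : w = k + 2 := by split_ifs at h2 <;> omega
      have hx : x = k + 1 := by split_ifs at h3 <;> omega
      have hy : y = k + 1 := by split_ifs at h4 <;> omega
      omega
    · have hz : z = k + 2 := by split_ifs at h1 <;> omega
      have hw : w + 1 = k := by split_ifs at h2 <;> omega
      have hx : x = k := by split_ifs at h3 <;> omega
      have hy : y = k := by split_ifs at h4 <;> omega
      omega
    · have hz : z = k + 1 := by split_ifs at h1 <;> omega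
      have hw : w = k := by split_ifs at h2 <;> omega
      have hx : x + 1 = k := by split_ifs at h3 <;> omega
      have hy : y + 1 = k := by split_ifs at h4 <;> omega
      omega
    · have hz : z = u.val := by split_ifs at h1 <;> omega
      have hw : w = u.val := by split_ifs at h2 <;> omega
      have hx : x = u.val := by split_ifs at h3 <;> omega
      have hy : y = u.val := by split_ifs at h4 <;> omega
      omega
  · have hd : Equiv.Perm.Disjoint (nd k hk i) (nd k hk j) := by
      intro u
      have h1 := lt_val (hk := hk) hi u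
      have h2 := last_val (hk := hk) hj u
      have hu := u.2
      have h0 : (nd k hk i u).val = u.val ∨ (nd k hk j u).val = u.val := by
        generalize (nd k hk i u).val = z at *
        generalize (nd k hk j u).val = w at *
        split_ifs at h1 <;> split_ifs at h2 <;> omega
      exact h0.imp Fin.ext Fin.ext
    exact hd.commute

lemma nd_nc_lt {hk : 0 < k} {i j : Fin (k + 1)} (hij : i.val + 1 = j.val) (hj : j.val < k) :
    nd k hk i * nd k hk j ≠ nd k hk j * nd k hk i := by
  intro h
  obtain ⟨u, hu⟩ : ∃ u : VI k, u.val = i.val := ⟨⟨i.val, by omega⟩, rfl⟩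
  have hi : i.val < k := by omega
  have h0 := congrArg (fun v : Equiv.Perm (VI k) => (v u).val) h
  simp only [Equiv.Perm.mul_apply] at h0
  have h1 := lt_val (hk := hk) hi u
  have h2 := lt_val (hk := hk) hj u
  have h3 := lt_val (hk := hk) hi (nd k hk j u)
  have h4 := lt_val (hk := hk) hj (nd k hk i u)
  generalize (nd k hk i (nd k hk j u)).val = x at *
  generalize (nd k hk j (nd k hk i u)).val = y at *
  generalize (nd k hk i u).val = z at *
  generalize (nd k hk j u).val = w at *
  split_ifs at h1 <;> split_ifs at h2 <;> split_ifs at h3 <;> split_ifs at h4 <;> omega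

lemma nd_nc_last {hk : 0 < k} {i j : Fin (k + 1)} (hij : i.val + 2 = k) (hj : j.val = k) :
    nd k hk i * nd k hk j ≠ nd k hk j * nd k hk i := by
  intro h
  obtain ⟨u, hu⟩ : ∃ u : VI k, u.val = i.val := ⟨⟨i.val, by omega⟩, rfl⟩
  have hi : i.val < k := by omega
  have h0 := congrArg (fun v : Equiv.Perm (VI k) => (v u).val) h
  simp only [Equiv.Perm.mul_apply] at h0
  have h1 := lt_val (hk := hk) hi u
  have h2 := last_val (hk := hk) hj u
  have h3 := lt_val (hk := hk) hi (nd k hk j u)
  have h4 := last_val (hk := hk) hj (nd k hk i u)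
  generalize (nd k hk i (nd k hk j u)).val = x at *
  generalize (nd k hk j (nd k hk i u)).val = y at *
  generalize (nd k hk i u).val = z at *
  generalize (nd k hk j u).val = w at *
  split_ifs at h1 <;> split_ifs at h2 <;> split_ifs at h3 <;> split_ifs at h4 <;> omega

end

section
universe u
variable {k : ℕ} {F : Type*} [Field F] [Finite F] {H : Subgroup (SLm (2 * k + 1) F)}
variable {L : Type u} [Group L] {B N U : Subgroup L} {S : Set L} {r : ℕ}

/-- the general form: a homomorphic image `L` of `H` -/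
theorem par_fix_D (hk : 3 ≤ k) (hg : Good H) (h : SB r B N U S) [Finite L] (φ : ↥H →* L)
    (hS : ∀ x ∈ SH H, φ x ∈ S) (hS' : ∀ t ∈ S, ∃ x ∈ SH H, φ x = t)
    (hB : ∀ x, φ x ∈ B ↔ x ∈ BH H)
    {e : MulAut L} (he : am e B = B) {p a : ℕ} (hp : p.Prime) (hp2 : p ≠ 2)
    (h43 : ¬ (k = 3 ∧ p = 3)) (hea : e ^ p ^ a = 1) :
    ∀ t ∈ S, am e (Par B t) = Par B t := by
  have hk0 : 0 < k := by omega
  have hex : ∀ i : Fin (k + 1), ∃ s : ↥H, Mon s.1 (nd k hk0 i) := fun i =>
    exists_STy hg (nd_STy hk0 i)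
  choose s hs using hex
  have hcom : ∀ i j, (φ (s j) * φ (s i))⁻¹ * (φ (s i) * φ (s j)) ∈ B ↔
      nd k hk0 i * nd k hk0 j = nd k hk0 j * nd k hk0 i := by
    intro i j
    rw [← map_mul, ← map_mul, ← map_inv, ← map_mul, hB]
    have h1 : Mon ((s j * s i)⁻¹ * (s i * s j)).1
        ((nd k hk0 j * nd k hk0 i)⁻¹ * (nd k hk0 i * nd k hk0 j)) :=
      mon_mul (mon_inv (mon_mul (hs j) (hs i))) (mon_mul (hs i) (hs j))
    constructor
    · intro h2
      have h3 := mon_up h1 h2
      rw [inv_mul_eq_one] at h3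
      exact h3.symm
    · intro h2
      rw [h2, inv_mul_cancel] at h1
      exact mem_T' h1
  refine par_fix_of_dm h (m := k + 1) (by omega) (fun i => φ (s i)) ?_ ?_ ?_ ?_ ?_ ?_ he hp hp2
    (fun h1 => h43 ⟨by omega, h1.2⟩) hea
  · exact fun i => hS _ (Sim_iff.2 ⟨_, nd_STy hk0 i, hs i⟩)
  · intro t ht
    obtain ⟨x, hx, rfl⟩ := hS' t ht
    obtain ⟨τ, hτ, hxτ⟩ := Sim_iff.1 (show Sim x.1 from hx)
    obtain ⟨i, rfl⟩ := exists_nd (hk := hk0) hτ
    refine ⟨i, ?_⟩
    rw [← map_inv, ← map_mul, hB]
    have : Mon ((s i)⁻¹ * x).1 ((nd k hk0 i)⁻¹ * nd k hk0 i) := mon_mul (mon_inv (hs i)) hxτ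
    rw [inv_mul_cancel] at this
    exact mem_T' this
  · intro i j hij
    rw [← map_inv, ← map_mul, hB] at hij
    have : Mon ((s i)⁻¹ * s j).1 ((nd k hk0 i)⁻¹ * nd k hk0 j) := mon_mul (mon_inv (hs i)) (hs j)
    have h2 := mon_up this hij
    rw [inv_mul_eq_one] at h2
    exact nd_inj h2
  · intro i j hij hj h1
    exact nd_nc_lt hij (by omega) ((hcom i j).1 h1)
  · intro i j hi hj h1
    exact nd_nc_last (by omega) (by omega) ((hcom i j).1 h1)
  · intro i j hij h1 h2
    rw [hcom]
    by_cases hj : j.val < k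
    · exact nd_comm_lt (by omega) hj
    · exact nd_comm_last (by omega) (by omega) (by have := j.2; omega)

/-- the group itself -/
theorem par_fix_dSB {q : ℕ} [hq : Fact q.Prime] [CharP F q] (hk : 3 ≤ k) (hg : Good H)
    (hgen : Gen H) {e : MulAut ↥H} (he : am e (BH H) = BH H) {p a : ℕ} (hp : p.Prime)
    (hp2 : p ≠ 2) (h43 : ¬ (k = 3 ∧ p = 3)) (hea : e ^ p ^ a = 1) :
    ∀ t ∈ SH H, am e (Par (BH H) t) = Par (BH H) t :=
  par_fix_D hk hg (dSB (p := q) (by omega) hg hgen) (MonoidHom.id ↥H) (fun x hx => hx)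
    (fun t ht => ⟨t, ht, rfl⟩) (fun x => Iff.rfl) he hp hp2 h43 hea

/-- the quotient by the centre -/
theorem par_fix_qSB {q : ℕ} [hq : Fact q.Prime] [CharP F q] (hk : 3 ≤ k) (hg : Good H)
    (hgen : Gen H) {e : MulAut (↥H ⧸ center ↥H)} (he : am e ((BH H).map (pH H)) = (BH H).map (pH H))
    {p a : ℕ} (hp : p.Prime) (hp2 : p ≠ 2) (h43 : ¬ (k = 3 ∧ p = 3)) (hea : e ^ p ^ a = 1) :
    ∀ t ∈ pH H '' SH H, am e (Par ((BH H).map (pH H)) t) = Par ((BH H).map (pH H)) t :=
  par_fix_D hk hg (qSB (p := q) (by omega) hg hgen) (pH H) (fun x hx => ⟨x, hx, rfl⟩)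
    (fun t ht => ht)
    (fun x => Vale.Agent.P240.R2.H487.CG.pi_mem (dSB (p := q) (by omega) hg hgen) hq.out)
    he hp hp2 h43 hea

end

end Vale.Agent.P240.R2.H112.Dg
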