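import Mathlib

/-!
Skew symmetric matrices of odd rank, and unipotent unitary matrices of small rank.
-/

set_option autoImplicit false

namespace Vale.Agent.P240.R2.H112.Eu

open Matrix

variable {K : Type*} [Field K]

theorem det_skew {k : ℕ} (hk : Odd k) (h2 : (2 : K) ≠ 0) {X : Matrix (Fin k) (Fin k) K}
    (hX : Xᵀ = -X) : X.det = 0 := by
  have h := congrArg Matrix.det hX
  rw [det_transpose, det_neg, Fintype.card_fin, hk.neg_one_pow] at h
  have h1 : 2 * X.det = 0 := by linear_combination h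
  exact (mul_eq_zero.1 h1).resolve_left h2

/-- a skew symmetric matrix does not have odd rank -/
theorem no_skew {k n : ℕ} (hk : Odd k) (h2 : (2 : K) ≠ 0) {P W' : Matrix (Fin n) (Fin k) K}
    {W P' : Matrix (Fin k) (Fin n) K} (hM : (P * W)ᵀ = -(P * W)) (hP : P' * P = 1)
    (hW : W * W' = 1) : False := by
  have h1 : W = -((P' * Wᵀ) * Pᵀ) := by
    have h3 : P' * (P * W) = W := by rw [← Matrix.mul_assoc, hP, Matrix.one_mul]
    have h4 : P * W = -(Wᵀ * Pᵀ) := by
      rw [transpose_mul] at hM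
      rw [hM, neg_neg]
    rw [h4, Matrix.mul_neg, ← Matrix.mul_assoc] at h3
    exact h3.symm
  have h3 : (P' * Wᵀ)ᵀ = -(P' * Wᵀ) := by
    have h4 : P' * Wᵀ = -(P' * Wᵀ)ᵀ := by
      conv_lhs => rw [h1]
      rw [transpose_neg, transpose_mul, transpose_transpose, Matrix.mul_neg, ← Matrix.mul_assoc,
        hP, Matrix.one_mul]
    rw [← neg_eq_iff_eq_neg] at h4
    exact h4.symm
  have h5 := det_skew hk h2 h3
  have h6 : (P' * Wᵀ) * (-(Pᵀ * W')) = 1 := by
    rw [Matrix.mul_neg, ← Matrix.mul_assoc, ← Matrix.neg_mul, ← h1, hW]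
  have h7 := congrArg Matrix.det h6
  rw [det_mul, h5, zero_mul, det_one] at h7
  exact zero_ne_one h7

variable [StarRing K] {n : ℕ}

/-- transposes of skew hermitian matrices -/
theorem tr_sk {N : Matrix (Fin n) (Fin n) K} (hN : star N = -N) : Nᵀ = -(N.map star) := by
  ext i j
  have h4 := congrFun (congrFun hN j) i
  rw [star_apply, neg_apply] at h4
  rw [transpose_apply, neg_apply, map_apply, h4, neg_neg]

/-- transposes of `N g` -/
theorem trs {N g : Matrix (Fin n) (Fin n) K} {c : K} (hN : star N = -N)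
    (hg : gᵀ = c • g) (hNg : g * N.map star = N * g) : (N * g)ᵀ = -(c • (N * g)) := by
  rw [transpose_mul, hg, tr_sk hN, Matrix.mul_neg, Matrix.smul_mul, hNg]

/-- transposes of `N ^ 2 g` -/
theorem trs2 {N g : Matrix (Fin n) (Fin n) K} {c : K} (hN : star N = -N)
    (hg : gᵀ = c • g) (hNg : g * N.map star = N * g) : (N * N * g)ᵀ = c • (N * N * g) := by
  rw [transpose_mul, transpose_mul, hg, tr_sk hN, neg_mul_neg, ← Matrix.mul_assoc,
    Matrix.smul_mul, hNg, Matrix.smul_mul, Matrix.mul_assoc, hNg, ← Matrix.mul_assoc]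

/-- `g` is symmetric or alternating if `g * star g` is a scalar, entrywise -/
theorem tr_g {g : Matrix (Fin n) (Fin n) K} {c : K} (hg : g * star g = 1)
    (hc : g * g.map star = c • 1) (hcs : star c = c) : gᵀ = c • g := by
  have hg' : star g * g = 1 := mul_eq_one_comm.1 hg
  have h1 : g.map star = c • star g := by
    calc g.map star = star g * (g * g.map star) := by rw [← Matrix.mul_assoc, hg', Matrix.one_mul]
      _ = c • star g := by rw [hc, Matrix.mul_smul, Matrix.mul_one]
  ext i j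
  have h3 := congrFun (congrFun h1 j) i
  rw [map_apply, Matrix.smul_apply, star_apply, smul_eq_mul] at h3
  have h4 := congrArg star h3
  rw [star_star, star_mul', star_star, hcs] at h4
  rw [transpose_apply, Matrix.smul_apply, smul_eq_mul, h4]

/-- the two ranks of a skew hermitian matrix fixed by a graph automorphism -/
theorem no_graph {k l : ℕ} (hk : Odd k) (h2 : (2 : K) ≠ 0) {N g : Matrix (Fin n) (Fin n) K}
    {c : K} (hg : g * star g = 1) (hc : g * g.map star = c • 1) (hcs : star c = c)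
    (hc1 : c = 1 ∨ c = -1) (hN : star N = -N) (hNg : g * N.map star = N * g)
    {P Q' : Matrix (Fin n) (Fin k) K} {Q P' : Matrix (Fin k) (Fin n) K} (h1 : N = P * Q)
    (h3 : P' * P = 1) (h4 : Q * Q' = 1)
    (hm : c = -1 → Odd l ∧ ∃ (R S' : Matrix (Fin n) (Fin l) K) (S R' : Matrix (Fin l) (Fin n) K),
      N * N = R * S ∧ R' * R = 1 ∧ S * S' = 1) : False := by
  have ht := tr_g hg hc hcs
  have hW : ∀ {m : ℕ} {S : Matrix (Fin m) (Fin n) K} {S' : Matrix (Fin n) (Fin m) K},
      S * S' = 1 → (S * g) * (star g * S') = 1 := by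
    intro m S S' h
    rw [Matrix.mul_assoc, ← Matrix.mul_assoc g, hg, Matrix.one_mul, h]
  rcases hc1 with rfl | rfl
  · have h5 := trs hN ht hNg
    rw [one_smul, h1, Matrix.mul_assoc] at h5
    exact no_skew hk h2 h5 h3 (hW h4)
  · obtain ⟨hl, R, S', S, R', e1, e3, e4⟩ := hm rfl
    have h5 := trs2 hN ht hNg
    rw [e1, Matrix.mul_assoc, neg_smul, one_smul] at h5
    exact no_skew hl h2 h5 e3 (hW e4)

end Vale.Agent.P240.R2.H112.Eu
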