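import Vale.Agent.P240.R2.H112.S12

/-!
P240, symplectic line: `S1` for arbitrary invertible matrices.
-/

set_option autoImplicit false
set_option linter.unusedSectionVars false

namespace Vale.Agent.P240.R2.H112

open Matrix Subgroup
open Vale.Agent.P240.R2.AS
open Vale.Agent.P240.R2.H715 (ts)

universe u

section

variable {K : Type u} [Field K] {m : ℕ}

theorem mul_ne_g {s s' : Matrix (Fin m ⊕ Fin m) (Fin m ⊕ Fin m) K} (hs : s * s' = 1)
    {N : Matrix (Fin m ⊕ Fin m) (Fin m ⊕ Fin m) K} (hN : N ≠ 0) : N * s ≠ 0 := by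
  intro h
  apply hN
  calc N = N * (s * s') := by rw [hs, Matrix.mul_one]
    _ = 0 := by rw [← Matrix.mul_assoc, h, Matrix.zero_mul]

/-- the basic computation with a one-parameter group -/
theorem comm_of_g {s s' : Matrix (Fin m ⊕ Fin m) (Fin m ⊕ Fin m) K} (hs : s * s' = 1)
    {σ : K ≃+* K}
    (H : ∀ h : Vale.Agent.P240.R2.H715.Sy K m, ∃ c : K, s * h.1.map σ = c • (h.1 * s))
    {N : Matrix (Fin m ⊕ Fin m) (Fin m ⊕ Fin m) K} (hN : N ≠ 0) (hN2 : N * N = 0)
    (hσ : N.map σ = N) (hm : ∀ t : K, 1 + t • N ∈ Matrix.symplecticGroup (Fin m) K) (t : K) :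
    σ t • (s * N) = t • (N * s) := by
  obtain ⟨c, hc⟩ := H ⟨1 + t • N, hm t⟩
  have h1 : (1 + t • N).map σ = 1 + σ t • N := by
    ext i j
    have h2 : σ (N i j) = N i j := congrFun (congrFun hσ i) j
    simp only [Matrix.map_apply, Matrix.add_apply, Matrix.smul_apply, smul_eq_mul, map_add,
      map_mul, h2]
    congr 1
    rw [Matrix.one_apply]
    split_ifs <;> simp
  simp only [h1] at hc
  rw [Matrix.mul_add, Matrix.mul_one, Matrix.mul_smul, Matrix.add_mul, Matrix.one_mul,
    Matrix.smul_mul] at hc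
  -- multiply by `N` on the left
  have h2 : N * s + σ t • (N * (s * N)) = c • (N * s) := by
    have h3 := congrArg (fun X => N * X) hc
    simp only [Matrix.mul_add, Matrix.mul_smul] at h3
    rw [← Matrix.mul_assoc N N, hN2, Matrix.zero_mul, smul_zero, add_zero] at h3
    exact h3
  have h3 : N * (s * N) = c • (N * (s * N)) := by
    have h4 := congrArg (fun X => X * N) h2
    simp only [Matrix.add_mul, Matrix.smul_mul] at h4
    rw [Matrix.mul_assoc N (s * N) N, Matrix.mul_assoc s N N, hN2, Matrix.mul_zero,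
      Matrix.mul_zero, smul_zero, add_zero, Matrix.mul_assoc] at h4
    exact h4
  have hc1 : c = 1 := by
    by_cases h5 : N * (s * N) = 0
    · rw [h5, smul_zero, add_zero] at h2
      have h6 : (1 - c) • (N * s) = 0 := by rw [sub_smul, one_smul, ← h2, sub_self]
      rcases smul_eq_zero.1 h6 with h7 | h7
      · exact (sub_eq_zero.1 h7).symm
      · exact absurd h7 (mul_ne_g hs hN)
    · have h6 : (1 - c) • (N * (s * N)) = 0 := by rw [sub_smul, one_smul, ← h3, sub_self]
      rcases smul_eq_zero.1 h6 with h7 | h7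
      · exact (sub_eq_zero.1 h7).symm
      · exact absurd h7 h5
  rw [hc1, one_smul] at hc
  exact add_left_cancel hc

end

/-- **S1** for invertible matrices -/
theorem stmtS1g (K : Type u) [Field K] (m : ℕ) (hm : 1 ≤ m)
    (s s' : Matrix (Fin m ⊕ Fin m) (Fin m ⊕ Fin m) K) (hss : s * s' = 1) (σ : K ≃+* K)
    (H : ∀ h : Vale.Agent.P240.R2.H715.Sy K m, ∃ c : K, s * h.1.map σ = c • (h.1 * s)) :
    σ = RingEquiv.refl K ∧
      ∃ c : K, s = c • (1 : Matrix (Fin m ⊕ Fin m) (Fin m ⊕ Fin m) K) := by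
  classical
  have up : ∀ B : Matrix (Fin m) (Fin m) K, B ≠ 0 → Bᵀ = B → B.map σ = B → ∀ t : K,
      σ t • (s * fromBlocks 0 B 0 0) = t • (fromBlocks 0 B 0 0 * s) := by
    intro B hB hT hσ t
    refine comm_of_g hss H (fun h => hB ?_) ?_ ?_ (up_mem hT) t
    · have := congrArg Matrix.toBlocks₁₂ h
      rwa [toBlocks_fromBlocks₁₂] at this
    · rw [fromBlocks_multiply]
      simp
    · rw [fromBlocks_map, hσ, Matrix.map_zero _ (map_zero σ)]
  have lo : ∀ B : Matrix (Fin m) (Fin m) K, B ≠ 0 → Bᵀ = B → B.map σ = B → ∀ t : K,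
      σ t • (s * fromBlocks 0 0 B 0) = t • (fromBlocks 0 0 B 0 * s) := by
    intro B hB hT hσ t
    refine comm_of_g hss H (fun h => hB ?_) ?_ ?_ (lo_mem hT) t
    · have := congrArg Matrix.toBlocks₂₁ h
      rwa [toBlocks_fromBlocks₂₁] at this
    · rw [fromBlocks_multiply]
      simp
    · rw [fromBlocks_map, hσ, Matrix.map_zero _ (map_zero σ)]
  have i₀ : Fin m := ⟨0, hm⟩
  have h1ne : (1 : Matrix (Fin m) (Fin m) K) ≠ 0 := by
    intro h
    have := congrFun (congrFun h i₀) i₀
    rw [Matrix.one_apply_eq, Matrix.zero_apply] at this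
    exact one_ne_zero this
  have h1σ : (1 : Matrix (Fin m) (Fin m) K).map σ = 1 :=
    Matrix.map_one _ (map_zero σ) (map_one σ)
  -- `σ = 1`
  have hσ1 : ∀ t : K, σ t = t := by
    intro t
    have h1 := up 1 h1ne transpose_one h1σ 1
    rw [map_one, one_smul, one_smul] at h1
    have h2 := up 1 h1ne transpose_one h1σ t
    rw [h1] at h2
    have h3 : (σ t - t) • (fromBlocks 0 (1 : Matrix (Fin m) (Fin m) K) 0 0 * s) = 0 := by
      rw [sub_smul, h2, sub_self]
    rcases smul_eq_zero.1 h3 with h4 | h4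
    · exact sub_eq_zero.1 h4
    · refine absurd h4 (mul_ne_g hss (fun h => h1ne ?_))
      have := congrArg Matrix.toBlocks₁₂ h
      rwa [toBlocks_fromBlocks₁₂] at this
  refine ⟨RingEquiv.ext hσ1, ?_⟩
  have upc : ∀ B : Matrix (Fin m) (Fin m) K, B ≠ 0 → Bᵀ = B → B.map σ = B →
      s * fromBlocks 0 B 0 0 = fromBlocks 0 B 0 0 * s := by
    intro B h1 h2 h3
    have := up B h1 h2 h3 1
    rwa [map_one, one_smul, one_smul] at this
  have loc : ∀ B : Matrix (Fin m) (Fin m) K, B ≠ 0 → Bᵀ = B → B.map σ = B →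
      s * fromBlocks 0 0 B 0 = fromBlocks 0 0 B 0 * s := by
    intro B h1 h2 h3
    have := lo B h1 h2 h3 1
    rwa [map_one, one_smul, one_smul] at this
  obtain ⟨a, b, c, d, hs⟩ : ∃ a b c d : Matrix (Fin m) (Fin m) K, s = fromBlocks a b c d :=
    ⟨_, _, _, _, (fromBlocks_toBlocks s).symm⟩
  rw [hs] at upc loc
  simp only [fromBlocks_multiply, Matrix.mul_zero, Matrix.zero_mul, add_zero, zero_add,
    fromBlocks_inj] at upc loc
  have hc0 : c = 0 := by
    have := (upc 1 h1ne transpose_one h1σ).1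
    rw [Matrix.one_mul] at this
    exact this.symm
  have hb0 : b = 0 := by
    have := (loc 1 h1ne transpose_one h1σ).1
    rwa [Matrix.mul_one] at this
  have had : a = d := by
    have := (upc 1 h1ne transpose_one h1σ).2.1
    rwa [Matrix.mul_one, Matrix.one_mul] at this
  subst had
  have ha : ∀ B : Matrix (Fin m) (Fin m) K, B ≠ 0 → Bᵀ = B → B.map σ = B → a * B = B * a :=
    fun B h1 h2 h3 => (upc B h1 h2 h3).2.1
  have hmapσ : ∀ B : Matrix (Fin m) (Fin m) K, B.map σ = B := fun B => by
    ext i j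
    rw [Matrix.map_apply, hσ1]
  have hdiag : ∀ i j, i ≠ j → a i j = 0 := by
    intro i j hij
    have h1 := ha (Matrix.single j j 1) (fun h => by
      have := congrFun (congrFun h j) j
      rw [Matrix.single_apply_same, Matrix.zero_apply] at this
      exact one_ne_zero this) (Matrix.transpose_single _ _ _) (hmapσ _)
    have h2 := congrFun (congrFun h1 i) j
    rw [Matrix.mul_single_apply_same, mul_one,
      Matrix.single_mul_apply_of_ne _ _ _ _ _ hij] at h2
    exact h2
  have heq : ∀ i j, a i i = a j j := by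
    intro i j
    by_cases hij : i = j
    · rw [hij]
    have h1 := ha (Matrix.single i j 1 + Matrix.single j i 1) (fun h => by
      have := congrFun (congrFun h i) j
      rw [Matrix.add_apply, Matrix.single_apply_same,
        Matrix.single_apply_of_row_ne (fun h => hij h.symm), Matrix.zero_apply, add_zero] at this
      exact one_ne_zero this) (by
      rw [Matrix.transpose_add, Matrix.transpose_single, Matrix.transpose_single, add_comm])
      (hmapσ _)
    have h2 := congrFun (congrFun h1 i) j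
    rw [Matrix.mul_add, Matrix.add_mul, Matrix.add_apply, Matrix.add_apply,
      Matrix.mul_single_apply_same, Matrix.mul_single_apply_of_ne _ _ _ _ _ (fun h => hij h.symm),
      Matrix.single_mul_apply_same, Matrix.single_mul_apply_of_ne _ _ _ _ _ hij,
      mul_one, one_mul, add_zero, add_zero] at h2
    exact h2
  refine ⟨a i₀ i₀, ?_⟩
  have hA : a = a i₀ i₀ • (1 : Matrix (Fin m) (Fin m) K) := by
    ext i j
    rw [Matrix.smul_apply, smul_eq_mul, Matrix.one_apply]
    by_cases hij : i = j
    · rw [if_pos hij, mul_one, hij]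
      exact heq j i₀
    · rw [if_neg hij, mul_zero]
      exact hdiag i j hij
  rw [hs, hb0, hc0, ← fromBlocks_one, fromBlocks_smul, ← hA, smul_zero]


end Vale.Agent.P240.R2.H112
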