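import Vale.Agent.P240.R2.H112.PC
import Vale.Agent.P240.R2.H923.PUDefs

/-!
The rows `StmtC` and `StmtC'` of the line of `PSU_4(q)`.
-/

set_option linter.all false

namespace Vale.Agent.P240.R2.H112.PC

open Matrix Subgroup Vale.Agent.P240.K Vale.Agent.P240.H195
open Vale.Agent.P240.R2.AS (GU SU PGU PSU)
open Vale.Agent.P240.R2.H487 (Ww Vv HM PP)

universe u

variable {K : Type u} [Field K] [StarRing K] {a m : ℕ}

/-- the two sets are the same -/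
lemma mU_eq (i0 : K) (σ : Fin (m + 1) ≃ Vv a) (b : Ww a) (Z : GLm m K) :
    H923.PU.mU i0 σ b Z = mU i0 σ b Z := by
  ext la
  constructor
  · rintro ⟨V, d, h⟩
    exact ⟨V.1.1, (Unitary.mem_iff.1 V.1.2).2, V.2, d, h⟩
  · rintro ⟨V, h1, h2, d, h⟩
    have h3 : V ∈ unitary (Matrix (Fin (m + 1)) (Fin (m + 1)) K) :=
      Unitary.mem_iff.2 ⟨mul_eq_one_comm.1 h1, h1⟩
    exact ⟨⟨⟨V, h3⟩, h2⟩, d, h⟩

/-- **The counts for `PSU_n(q)`**, `4 ∣ n`, `9 ≤ q`. -/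
theorem mxU [Finite K] {q : ℕ} (hK : Nat.card K = q ^ 2) (hs : ∀ x : K, star x = x ^ q)
    (hq : Odd q) (hq9 : 9 ≤ q) {i0 : K} (hi : i0 * i0 = -1) (hm : 4 ∣ m + 1)
    {σ : Fin (m + 1) ≃ Vv a} {b : Ww a} (hb : b ≠ 0) {Z : GLm m K} {X : SU K (m + 1)} {c : K}
    (hX : X.1.1 * Z.1 = c • (Z.1 * PP i0 σ b)) :
    12 ≤ Nat.card {la : Kˣ // la ^ 2 ∈ H923.PU.mU i0 σ b Z} ∧
      3 * Nat.card {la : Kˣ // la ∈ H923.PU.mU i0 σ b Z ∧ la ^ 4 = 1} ≤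
        2 * Nat.card {la : Kˣ // la ∈ H923.PU.mU i0 σ b Z} ∧
      ∃ la ∈ H923.PU.mU i0 σ b Z, la ^ 4 ≠ 1 := by
  rw [mU_eq]
  exact mx hK hs (Nat.odd_iff.1 hq) hq9 hi hb hm (Unitary.mem_iff.1 X.1.2).2 X.2 hX

/-- **Row C.** -/
theorem stmtC : H923.PU.StmtC.{u} := by
  intro K _ _ _ q hq9 hq hK hs i hi σ b Z X c hb hX
  exact (mxU hK hs hq hq9 hi (by norm_num) hb hX).1

/-- **Row C'.** -/
theorem stmtC' : H923.PU.StmtC'.{u} := by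
  intro K _ _ _ h2 m a i0 σ b Z h
  exact counts' h

end Vale.Agent.P240.R2.H112.PC
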