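import Vale.Agent.P240.R2.H112.EuW
import Vale.Agent.P240.R2.H487.AM3

/-!
`PSU_n(F)`, `|F| = 9` or `25`, as a factor for the prime `2`.
-/

set_option autoImplicit false
set_option linter.all false

namespace Vale.Agent.P240.R2.H112.Eu

open Vale.Agent.P240.R2 Vale.Agent.P240.H195

universe u

/-- `PSU_n(F)`, where `|F| = 9` and `4 ∤ n`, or `|F| = 25` and `n` is odd -/
theorem psu_eu {L : Type u} [Group L] {F : Type} [Field F] [Finite F] (hs : IsSimpleGroup L)
    (hnab : ∃ x y : L, x * y ≠ y * x) {n : ℕ} (hn : 3 ≤ n)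
    (h1 : (Nat.card F = 9 ∧ n % 2 = 0) ∨ (Nat.card F = 25 ∧ (n % 2 = 0 ∨ n % 3 = 0)))
    (h2 : ¬ ((Nat.card F = 9 ∧ n % 4 = 0) ∨ (Nat.card F = 25 ∧ n % 2 = 0)))
    (h : H487.PSUn n F L) : EuFree 2 L := by
  have hc : ∀ x : L, (∀ y, x * y = y * x) → x = 1 := by
    intro x hx
    have h3 : x ∈ Subgroup.center L := Subgroup.mem_center_iff.2 fun y => (hx y).symm
    rcases hs.eq_bot_or_eq_top_of_normal (Subgroup.center L) inferInstance with h4 | h4
    · rwa [h4, Subgroup.mem_bot] at h3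
    · obtain ⟨a, c, hac⟩ := hnab
      have h5 : a ∈ Subgroup.center L := by rw [h4]; exact Subgroup.mem_top a
      exact absurd ((Subgroup.mem_center_iff.1 h5 c).symm) hac
  have hodd : Nat.card F % 2 = 1 := by
    rcases h1 with h1 | h1 <;> rw [h1.1]
  obtain ⟨r, hr, hr2, hrF, ha⟩ := h.autFree hs hnab hn hodd
  obtain ⟨q, hft, hstar, hqo, hq3, hK, hst, ⟨e⟩⟩ := h.data hr hrF hr2
  rcases Nat.mod_two_eq_zero_or_one n with h0 | h0
  · -- `n` even: `|F| = 9` and `n % 4 = 2`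
    have h9 : Nat.card F = 9 := by
      rcases h1 with h1 | h1
      · exact h1.1
      · exact absurd (Or.inr ⟨h1.1, h0⟩) h2
    have hn4 : n % 4 ≠ 0 := fun h4 => h2 (Or.inl ⟨h9, h4⟩)
    have hq : q = 3 := by
      rw [hK] at h9
      nlinarith
    subst hq
    have hn5 : 5 ≤ n := by omega
    have h3 : Nat.gcd n (3 + 1) ∣ 4 := Nat.gcd_dvd_right _ _
    have hle : Nat.gcd n (3 + 1) ≤ 4 := Nat.le_of_dvd (by norm_num) h3
    have h5 : Nat.gcd n (3 + 1) ∣ n := Nat.gcd_dvd_left _ _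
    refine euFree_five hr hrF hr2 le_rfl hK hst hn5 ?_ e hc ha
    generalize Nat.gcd n (3 + 1) = d at h3 hle h5
    interval_cases d
    · norm_num at h3
    · norm_num
    · norm_num
    · norm_num at h3
    · exact absurd (Nat.mod_eq_zero_of_dvd h5) hn4
  · exact euFree_odd hr hrF hr2 hq3 hK hst hn (Nat.odd_iff.2 h0) e hc ha

end Vale.Agent.P240.R2.H112.Eu
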