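import Vale.Agent.P240.H195.Eu3
import Vale.Agent.P240.H195.SO3
import Vale.Agent.P240.H195.SO5
import Vale.Agent.P240.H195.Hyper

/-!
If an `r`-subgroup of `L` normalizes no nontrivial elementary abelian `p`-group of automorphisms of
`L`, then every `r`-element of `L` satisfies the Euler characteristic condition of `EuFree p`.
-/

set_option autoImplicit false

namespace Vale.Agent.P240.R2.H112.Eu

open Subgroup Vale.Agent.P240.K Vale.Agent.P240.H195

universe u

/-- the Euler characteristic condition for `r`-elements -/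
theorem lam_ne_zero {p r : ℕ} [hr : Fact r.Prime] {L : Type u} [Group L] [Finite L]
    (hc : ∀ x : L, (∀ y, x * y = y * x) → x = 1) (h : AutFree p r L) {s : L} {k : ℕ}
    (hs : s ^ r ^ k = 1) : eulerFix p (⊤ : Subgroup L) s ≠ 0 := by
  obtain ⟨U, hU, hfree⟩ := h
  have hinj : Function.Injective (MulAut.conj : L →* MulAut L) := by
    rw [injective_iff_map_eq_one]
    intro x hx
    refine hc x fun y => ?_
    have h1 := congrArg (fun f : MulAut L => f y) hx
    change x * y * x⁻¹ = y at h1
    rw [← eq_mul_inv_iff_mul_eq, inv_inv] at h1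
    exact h1
  rw [eulerFix_eq, ← lam_range hinj]
  have h1 := eu_mod (r := r) (S := Ain p (MulAut.conj (G := L)).range) (U.map MulAut.conj)
    (hU.map _) (fun u hu E hE => cj_mem_Ain (by
      obtain ⟨x, -, rfl⟩ := hu
      exact ⟨x, rfl⟩) hE)
  have h0 : {E | E ∈ Ain p (MulAut.conj (G := L)).range ∧
      U.map MulAut.conj ≤ normalizer (E : Set (MulAut L))} = ∅ := by
    ext E
    simp only [Set.mem_ofPred_eq, Set.mem_empty_iff_false, iff_false]
    rintro ⟨⟨h1, -⟩, h3⟩
    exact hfree E h1 h3
  rw [h0, eu_empty] at h1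
  have hsp : IsPGroup r (zpowers (MulAut.conj s)) := by
    intro x
    refine ⟨k, ?_⟩
    obtain ⟨x, j, rfl⟩ := x
    ext1
    change (MulAut.conj s ^ j) ^ r ^ k = 1
    rw [← zpow_natCast, ← zpow_mul, mul_comm, zpow_mul, zpow_natCast, ← map_pow, hs, map_one,
      one_zpow]
  have h2 := eu_mod (r := r) (S := Ain p (MulAut.conj (G := L)).range) (zpowers (MulAut.conj s))
    hsp (fun u hu E hE => cj_mem_Ain (by
      obtain ⟨j, rfl⟩ := hu
      exact (MulAut.conj (G := L)).range.zpow_mem ⟨s, rfl⟩ j) hE)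
  have h3 : {E | E ∈ Ain p (MulAut.conj (G := L)).range ∧
      zpowers (MulAut.conj s) ≤ normalizer (E : Set (MulAut L))} =
      {E | E ∈ Ain p (MulAut.conj (G := L)).range ∧
        MulAut.conj s ∈ normalizer (E : Set (MulAut L))} := by
    ext E
    simp only [Set.mem_ofPred_eq, zpowers_le]
  rw [h3] at h2
  intro h4
  rw [lam] at h4
  rw [h4] at h2
  have h5 : (r : ℤ) ∣ 1 := by
    have h6 := dvd_sub h2 h1
    have h7 : eu (Ain p (MulAut.conj (G := L)).range) - 0 -
        (eu (Ain p (MulAut.conj (G := L)).range) - 1) = 1 := by ring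
    rwa [h7] at h6
  have h8 := Int.eq_one_of_dvd_one (by positivity) h5
  have h9 := hr.out.one_lt
  omega

/-- **an `r`-element that is not fixed by outer automorphisms of order `p`** -/
theorem euFree_of_elt {p r : ℕ} [hr : Fact r.Prime] {L : Type u} [Group L] [Finite L]
    (hc : ∀ x : L, (∀ y, x * y = y * x) → x = 1) (h : AutFree p r L) {s : L} {k : ℕ}
    (hs : s ^ r ^ k = 1)
    (hf : ∀ f : MulAut L, f ^ p = 1 → f ∉ (MulAut.conj (G := L)).range → f s ≠ s) :
    EuFree p L :=
  ⟨s, lam_ne_zero hc h hs, hf⟩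

end Vale.Agent.P240.R2.H112.Eu
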