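import Vale.Agent.P240.R2.H112.EuM

/-!
Unipotent unitary matrices.
-/

set_option autoImplicit false

namespace Vale.Agent.P240.R2.H112.Eu

open Matrix

variable {K : Type*} [Field K] [StarRing K] {n : ℕ}

/-- `x y^*` -/
def vv (x y : Fin n → K) : Matrix (Fin n) (Fin n) K := vecMulVec x (star y)

theorem vv_star (x y : Fin n → K) : star (vv x y) = vv y x := by
  ext i j
  rw [vv, vv, star_apply, vecMulVec_apply, vecMulVec_apply, star_mul', Pi.star_apply,
    Pi.star_apply, star_star, mul_comm]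

theorem vv_mul (x y z w : Fin n → K) : vv x y * vv z w = (star y ⬝ᵥ z) • vv x w := by
  rw [vv, vv, vecMulVec_mul_vecMulVec]
  ext i j
  simp only [vv, vecMulVec_apply, Matrix.smul_apply, smul_eq_mul, Pi.smul_apply]
  ring

/-- a unitary transvection -/
theorem tv_mul {x : Fin n → K} {a : K} (hx : star x ⬝ᵥ x = 0) (ha : star a = -a) :
    (1 + a • vv x x) * star (1 + a • vv x x) = 1 := by
  rw [star_add, star_one, star_smul, vv_star, ha]
  simp only [Matrix.add_mul, Matrix.mul_add, Matrix.one_mul, Matrix.mul_one, Matrix.smul_mul,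
    Matrix.mul_smul, vv_mul, hx, zero_smul, smul_zero]
  module

section
variable {x z t : Fin n → K} {a h : K} (hxx : star x ⬝ᵥ x = 0) (hxz : star x ⬝ᵥ z = 0)
  (hzx : star z ⬝ᵥ x = 0) (hzz : star z ⬝ᵥ z = 1) (htt : star t ⬝ᵥ t = 0)
  (hxt : star x ⬝ᵥ t = 0) (htx : star t ⬝ᵥ x = 0) (hzt : star z ⬝ᵥ t = 0)
  (htz : star t ⬝ᵥ z = 0) (ha : star a = -a) (hh : star h = h) (h2h : 2 * h = 1)

/-- the nilpotent part -/
def nn (x z t : Fin n → K) (a h : K) : Matrix (Fin n) (Fin n) K :=
  vv z x - vv x z - h • vv x x + a • vv t t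

include hxx hxz hzx hzz htt hxt htx hzt htz in
theorem nn_sq : nn x z t a h * nn x z t a h = -vv x x := by
  simp only [nn, Matrix.add_mul, Matrix.mul_add, Matrix.sub_mul, Matrix.mul_sub, Matrix.smul_mul,
    Matrix.mul_smul, vv_mul, hxx, hxz, hzx, hzz, htt, hxt, htx, hzt, htz, zero_smul, smul_zero,
    one_smul]
  module

include hxx hxz hzx hzz htt hxt htx hzt htz in
theorem nn_cube : nn x z t a h * nn x z t a h * nn x z t a h = 0 := by
  rw [nn_sq hxx hxz hzx hzz htt hxt htx hzt htz]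
  simp only [nn, Matrix.mul_add, Matrix.mul_sub, Matrix.neg_mul,
    Matrix.mul_smul, vv_mul, hxx, hxz, hxt, zero_smul]
  module

include ha hh in
theorem nn_star : star (nn x z t a h) = vv x z - vv z x - h • vv x x - a • vv t t := by
  rw [nn, star_add, star_sub, star_sub, star_smul, star_smul, vv_star, vv_star, vv_star, vv_star,
    ha, hh]
  module

include hxx hxz hzx hzz htt hxt htx hzt htz ha hh h2h in
theorem nn_mul : (1 + nn x z t a h) * star (1 + nn x z t a h) = 1 := by
  rw [star_add, star_one, nn_star ha hh]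
  simp only [nn, Matrix.add_mul, Matrix.mul_add, Matrix.sub_mul, Matrix.mul_sub, Matrix.smul_mul,
    Matrix.mul_smul, vv_mul, hxx, hxz, hzx, hzz, htt, hxt, htx, hzt, htz, zero_smul, smul_zero,
    one_smul, Matrix.one_mul, Matrix.mul_one]
  have h1 : h = 1 - h := by linear_combination h2h
  have e : (1 : K) - h - h = 0 := by linear_combination -h2h
  have : (1 : Matrix (Fin n) (Fin n) K) = 1 + ((1 : K) - h - h) • vv x x := by
    rw [e, zero_smul, add_zero]
  conv_rhs => rw [this]
  module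

include ha hh in
theorem nn_sub : (1 + nn x z t a h) - star (1 + nn x z t a h) =
    (2 : K) • (vv z x - vv x z + a • vv t t) := by
  rw [star_add, star_one, nn_star ha hh, nn]
  module

include hxx hxz hzx hzz htt hxt htx hzt htz ha hh in
theorem nn_sub_sq : ((1 + nn x z t a h) - star (1 + nn x z t a h)) *
    ((1 + nn x z t a h) - star (1 + nn x z t a h)) = (-4 : K) • vv x x := by
  rw [nn_sub ha hh]
  simp only [Matrix.add_mul, Matrix.mul_add, Matrix.sub_mul, Matrix.mul_sub, Matrix.smul_mul,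
    Matrix.mul_smul, vv_mul, hxx, hxz, hzx, hzz, htt, hxt, htx, hzt, htz, zero_smul, smul_zero,
    one_smul]
  module

end

/-- `e i + α e j` -/
def uv (i j : Fin n) (α : K) : Fin n → K := Pi.single i 1 + Pi.single j α

theorem uv_dot (i j : Fin n) (α : K) (w : Fin n → K) :
    star (uv i j α) ⬝ᵥ w = w i + star α * w j := by
  rw [uv, star_add, add_dotProduct, ← Pi.single_star, ← Pi.single_star, single_dotProduct,
    single_dotProduct, star_one, one_mul]

theorem sv_dot (i : Fin n) (w : Fin n → K) :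
    star (Pi.single i (1 : K) : Fin n → K) ⬝ᵥ w = w i := by
  rw [← Pi.single_star, single_dotProduct, star_one, one_mul]

theorem uv_self {i j : Fin n} (hij : i ≠ j) {α : K} (hα : α * star α = -1) :
    star (uv i j α) ⬝ᵥ uv i j α = 0 := by
  rw [uv_dot]
  simp only [uv, Pi.add_apply, Pi.single_eq_same, Pi.single_eq_of_ne hij,
    Pi.single_eq_of_ne hij.symm]
  linear_combination hα

omit [StarRing K] in
theorem uv_left {i j : Fin n} (hij : i ≠ j) (α : K) : uv i j α i = 1 := by
  simp [uv, Pi.single_eq_of_ne hij]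

omit [StarRing K] in
theorem uv_ne {i j k : Fin n} (hi : k ≠ i) (hj : k ≠ j) (α : K) : uv i j α k = 0 := by
  simp [uv, Pi.single_eq_of_ne hi, Pi.single_eq_of_ne hj]

theorem vv_rank (x : Fin n → K) {i : Fin n} (hi : x i = 1) {b : K} (hb : b ≠ 0) :
    ∃ (R S' : Matrix (Fin n) (Fin 1) K) (S R' : Matrix (Fin 1) (Fin n) K),
      b • vv x x = R * S ∧ R' * R = 1 ∧ S * S' = 1 := by
  refine ⟨Matrix.of fun j _ => x j, Matrix.of fun j _ => b⁻¹ * Pi.single (M := fun _ => K) i 1 j,
    Matrix.of fun _ j => b * star (x j), Matrix.of fun _ j => Pi.single (M := fun _ => K) i 1 j,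
    ?_, ?_, ?_⟩
  · ext k l
    simp only [vv, Matrix.smul_apply, vecMulVec_apply, smul_eq_mul, Matrix.mul_apply,
      Finset.univ_unique, Finset.sum_const, Finset.card_singleton, one_smul, Matrix.of_apply,
      Pi.star_apply]
    ring
  · ext k l
    have : k = l := Subsingleton.elim _ _
    subst this
    simp [Matrix.mul_apply, Pi.single_apply, hi]
  · ext k l
    have : k = l := Subsingleton.elim _ _
    subst this
    simp [Matrix.mul_apply, Pi.single_apply, hi, hb]

omit [StarRing K] in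
theorem sum_single' (f : Fin n → K) (i : Fin n) (c : K) :
    ∑ l, f l * (c * Pi.single (M := fun _ => K) i 1 l) = f i * c := by
  simp [Pi.single_apply]

omit [StarRing K] in
theorem nn_rank1 {x z t : Fin n → K} {i j k : Fin n} (h2 : (2 : K) ≠ 0)
    (hxi : x i = 1) (hxj : x j = 0) (hxk : x k = 0) (hzi : z i = 0) (hzj : z j = 1)
    (hzk : z k = 0) (hti : t i = 0) (htj : t j = 0) (htk : t k = 1) :
    (Matrix.of fun m l => ![2⁻¹ * Pi.single (M := fun _ => K) j 1 l,
      2⁻¹ * Pi.single (M := fun _ => K) i 1 l, 2⁻¹ * Pi.single (M := fun _ => K) k 1 l] m :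
      Matrix (Fin 3) (Fin n) K) *
    (Matrix.of fun l m => ![2 * z l, 2 * x l, 2 * t l] m : Matrix (Fin n) (Fin 3) K) = 1 := by
  ext l m
  rw [Matrix.mul_apply]
  fin_cases l <;> fin_cases m <;>
    simp [Pi.single_apply, hxi, hxj, hxk, hzi, hzj, hzk, hti, htj, htk, h2]

theorem nn_rank2 {x z t : Fin n → K} {i j k : Fin n} {a : K} (ha : a ≠ 0)
    (hxi : x i = 1) (hxj : x j = 0) (hxk : x k = 0) (hzi : z i = 0) (hzj : z j = 1)
    (hzk : z k = 0) (hti : t i = 0) (htj : t j = 0) (htk : t k = 1) :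
    (Matrix.of fun m l => ![star (x l), -star (z l), a * star (t l)] m :
      Matrix (Fin 3) (Fin n) K) *
    (Matrix.of fun l m => ![1 * Pi.single (M := fun _ => K) i 1 l,
      (-1) * Pi.single (M := fun _ => K) j 1 l,
      a⁻¹ * Pi.single (M := fun _ => K) k 1 l] m : Matrix (Fin n) (Fin 3) K) = 1 := by
  ext l m
  rw [Matrix.mul_apply]
  simp only [Matrix.of_apply]
  fin_cases l <;> fin_cases m <;> dsimp only [Fin.zero_eta, Fin.mk_one, Fin.reduceFinMk,
    Matrix.cons_val] <;> rw [sum_single'] <;>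
    simp [hxi, hxj, hxk, hzi, hzj, hzk, hti, htj, htk, ha]

theorem nn_rank {x z t : Fin n → K} {i j k : Fin n} {a : K} (h2 : (2 : K) ≠ 0) (ha : a ≠ 0)
    (hxi : x i = 1) (hxj : x j = 0) (hxk : x k = 0) (hzi : z i = 0) (hzj : z j = 1)
    (hzk : z k = 0) (hti : t i = 0) (htj : t j = 0) (htk : t k = 1) :
    ∃ (P Q' : Matrix (Fin n) (Fin 3) K) (Q P' : Matrix (Fin 3) (Fin n) K),
      (2 : K) • (vv z x - vv x z + a • vv t t) = P * Q ∧ P' * P = 1 ∧ Q * Q' = 1 := by
  refine ⟨_, _, _, _, ?_, nn_rank1 h2 hxi hxj hxk hzi hzj hzk hti htj htk,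
    nn_rank2 ha hxi hxj hxk hzi hzj hzk hti htj htk⟩
  ext l m
  simp [vv, vecMulVec_apply, Matrix.mul_apply, Fin.sum_univ_three]
  ring

end Vale.Agent.P240.R2.H112.Eu
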