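import Vale.Agent.P240.R2.H687.FewUA
import Vale.Agent.P240.R2.H401.NL5a
import Vale.Agent.P240.R2.H401.NL5c
import Vale.Agent.P240.R2.H112.EuT
import Vale.Agent.P240.R2.H112.EuV

/-!
`EuFree 2 (PSU_n(q))`, `q` odd: unipotent elements that no outer automorphism of order `2` fixes.
-/

set_option autoImplicit false
set_option linter.unusedSectionVars false

namespace Vale.Agent.P240.R2.H112.Eu

open Subgroup
open Vale.Agent.P240.H195 (AutFree EuFree)
open Vale.Agent.P240.R2.AS Vale.Agent.P240.R2.H472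
open Vale.Agent.P240.R2.H63.As (il th_inj th_surj th_psu)

variable {K : Type} [Field K] [Fintype K] [StarRing K] {n q : ℕ}

theorem exists_phase (hK : Nat.card K = q ^ 2) (hs : ∀ x : K, star x = x ^ q) :
    ∃ m : K, m ≠ 1 ∧ m * star m = 1 := by
  obtain ⟨z, hz⟩ := H401.exists_star_ne hK hs
  have hz0 : z ≠ 0 := by
    rintro rfl
    exact hz (star_zero K)
  have hzs : star z ≠ 0 := by simpa using hz0
  refine ⟨z / star z, ?_, ?_⟩
  · intro h1
    rw [div_eq_one_iff_eq hzs] at h1
    exact hz h1.symm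
  · rw [star_div₀, star_star, div_mul_div_cancel₀ hzs, div_self hz0]

theorem scal_of_center (hK : Nat.card K = q ^ 2) (hs : ∀ x : K, star x = x ^ q) {g : GU K n}
    (h : (QuotientGroup.mk g : PGU K n) = 1) :
    ∃ c : K, g.1 = c • (1 : Matrix (Fin n) (Fin n) K) := by
  obtain ⟨m, hm1, hm2⟩ := exists_phase hK hs
  have h3 : g ∈ center (GU K n) := (QuotientGroup.eq_one_iff g).1 h
  rwa [H296.mem_center_iff hm1 hm2] at h3

theorem eq_smul (hK : Nat.card K = q ^ 2) (hs : ∀ x : K, star x = x ^ q) {g h : GU K n}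
    (e : (QuotientGroup.mk g : PGU K n) = QuotientGroup.mk h) : ∃ c : K, g.1 = c • h.1 := by
  have h1 : (QuotientGroup.mk (g * h⁻¹) : PGU K n) = 1 := by
    have h3 : (QuotientGroup.mk (g * h⁻¹) : PGU K n) =
      QuotientGroup.mk g * (QuotientGroup.mk h)⁻¹ := rfl
    rw [h3, e, mul_inv_cancel]
  obtain ⟨c, hc⟩ := scal_of_center hK hs h1
  refine ⟨c, ?_⟩
  have h3 : g = (g * h⁻¹) * h := by rw [inv_mul_cancel_right]
  calc g.1 = (g * h⁻¹).1 * h.1 := congrArg Subtype.val h3
    _ = c • h.1 := by rw [hc, Matrix.smul_mul, Matrix.one_mul]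

theorem one_of_pow {r : ℕ} [Fact r.Prime] [CharP K r] {c : K} (h : c ^ r = 1) : c = 1 := by
  have h1 : (c - 1) ^ r = 0 := by rw [sub_pow_char, h, one_pow, sub_self]
  exact sub_eq_zero.1 (pow_eq_zero_iff (Nat.Prime.ne_zero Fact.out) |>.1 h1)

theorem gu_star (g : GU K n) : g.1 * star g.1 = 1 := Matrix.mem_unitaryGroup_iff.1 g.2

/-- matrices that commute in `PGU` -/
theorem eq_of_mk {r : ℕ} [Fact r.Prime] [CharP K r] (hK : Nat.card K = q ^ 2)
    (hs : ∀ x : K, star x = x ^ q) (hn : 0 < n) {A B : GU K n} (hA : A ^ r = 1) (hB : B ^ r = 1)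
    (e : (QuotientGroup.mk A : PGU K n) = QuotientGroup.mk B) : A = B := by
  obtain ⟨c, hc⟩ := eq_smul hK hs e
  have h1 : (A ^ r).1 = c ^ r • (B ^ r).1 := by
    have h3 : (A ^ r).1 = A.1 ^ r := rfl
    have h4 : (B ^ r).1 = B.1 ^ r := rfl
    rw [h3, h4, hc, smul_pow]
  rw [hA, hB] at h1
  have h3 := congrFun (congrFun h1 ⟨0, hn⟩) ⟨0, hn⟩
  have h4 : c ^ r = 1 := by
    have h5 : ((1 : GU K n).1 : Matrix (Fin n) (Fin n) K) = 1 := rfl
    rw [h5, Matrix.smul_apply, Matrix.one_apply_eq, smul_eq_mul, mul_one] at h3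
    exact h3.symm
  have h5 := one_of_pow h4
  rw [h5, one_smul] at hc
  exact Subtype.ext hc

theorem c_sq (hn : 0 < n) {u : Matrix (Fin n) (Fin n) K} {c : K} (hu : u * star u = 1)
    (hc : u * u.map star = c • 1) : c = 1 ∨ c = -1 := by
  have hu' : star u * u = 1 := mul_eq_one_comm.1 hu
  have h1 : u.map star = c • star u := by
    calc u.map star = star u * (u * u.map star) := by rw [← Matrix.mul_assoc, hu', Matrix.one_mul]
      _ = c • star u := by rw [hc, Matrix.mul_smul, Matrix.mul_one]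
  -- `bar u * u = c`
  have h3 : u.map star * u = c • 1 := by rw [h1, Matrix.smul_mul, hu']
  have h4 : u.map star * u = star c • 1 := by
    have h5 : (u * u.map star).map (starRingEnd K) = u.map star * u := by
      rw [Matrix.map_mul]
      congr 1
      ext i j
      exact star_star _
    rw [← h5, hc]
    ext i j
    rw [Matrix.map_apply, Matrix.smul_apply, Matrix.smul_apply, smul_eq_mul, smul_eq_mul, map_mul,
      Matrix.one_apply]
    split_ifs
    · rw [map_one]
      rfl
    · rw [map_zero, mul_zero, mul_zero]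
  have h5 : c = star c := by
    have h6 := congrFun (congrFun (h3.symm.trans h4) ⟨0, hn⟩) ⟨0, hn⟩
    simpa using h6
  have h6 : c * star c = 1 := by
    have h7 : u.map star * star (u.map star) = 1 := by
      have h8 : (u * star u).map (starRingEnd K) = u.map star * star (u.map star) := by
        rw [Matrix.map_mul]
        congr 1
      rw [← h8, hu]
      exact Matrix.map_one _ (map_zero _) (map_one _)
    have h8 : (u * u.map star) * star (u * u.map star) = 1 := by
      rw [star_mul, Matrix.mul_assoc, ← Matrix.mul_assoc (u.map star), h7, Matrix.one_mul, hu]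
    rw [hc, star_smul, star_one, smul_mul_smul_comm, one_mul] at h8
    have h9 := congrFun (congrFun h8 ⟨0, hn⟩) ⟨0, hn⟩
    simpa using h9
  rw [← h5] at h6
  exact mul_self_eq_one_iff.1 h6

/-- **outer automorphisms of order two of `PSU_n(q)` that fix an element of order `r`** -/
theorem fix_core {r : ℕ} [Fact r.Prime] [CharP K r] (hq : 3 ≤ q) (hK : Nat.card K = q ^ 2)
    (hs : ∀ x : K, star x = x ^ q) (hn : 3 ≤ n) {S : GU K n} (hS : S ^ r = 1)
    (hSp : (QuotientGroup.mk S : PGU K n) ∈ PSU K n)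
    (hdiag : ∀ (u : GU K n) (c : K), u.1 * u.1 = c • 1 → u.1 * S.1 = S.1 * u.1 → Rn n u.1.det)
    (hgr : ∀ (u : GU K n) (c : K), (c = 1 ∨ c = -1) → u.1 * u.1.map star = c • 1 →
      u.1 * S.1.map star = S.1 * u.1 → False)
    {f : MulAut (PSU K n)} (hf2 : f ^ 2 = 1) (hfo : f ∉ (MulAut.conj (G := PSU K n)).range)
    (hfs : f ⟨QuotientGroup.mk S, hSp⟩ = ⟨QuotientGroup.mk S, hSp⟩) : False := by
  have hinj : Function.Injective (H63.As.th K n) := th_inj (h := H651.inj_all hq hK hs hn)
  have hsurj : Function.Surjective (H63.As.th K n) :=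
    th_surj (h := fun α => H687.U.tr_PSU hq hK hs hn α)
  obtain ⟨y, rfl⟩ := hsurj f
  have e1 : y * y = 1 := hinj (by rw [map_mul, ← pow_two, hf2, map_one])
  obtain ⟨u, hu⟩ := QuotientGroup.mk_surjective y.left
  -- `y` fixes `S`
  have e2 := H63.As.th_apply y ⟨QuotientGroup.mk S, hSp⟩
  rw [hfs] at e2
  have e3 : (QuotientGroup.mk (u * mapGU y.right S * u⁻¹) : PGU K n) = QuotientGroup.mk S := by
    have h1 := conj_inl y (QuotientGroup.mk S : PGU K n)
    have h3 : (SemidirectProduct.inl (QuotientGroup.mk S : PGU K n) : PGamU K n) =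
        SemidirectProduct.inl (y.left * act n y.right (QuotientGroup.mk S) * y.left⁻¹) :=
      e2.trans h1
    have h4 := SemidirectProduct.inl_injective h3
    rw [← hu] at h4
    exact h4.symm
  have e4 : u * mapGU y.right S * u⁻¹ = S := by
    refine eq_of_mk hK hs (by omega) ?_ hS e3
    rw [conj_pow, ← map_pow, hS, map_one, mul_one, mul_inv_cancel]
  have e5 : u * mapGU y.right S = S * u := mul_inv_eq_iff_eq_mul.1 e4
  -- `y ^ 2 = 1`
  have e6 : (QuotientGroup.mk (u * mapGU y.right u) : PGU K n) = 1 := by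
    have h1 := congrArg (fun z : PGamU K n => z.left) e1
    have h3 : y.left * act n y.right y.left = 1 := h1
    rw [← hu] at h3
    exact h3
  obtain ⟨c, hc⟩ := scal_of_center hK hs e6
  by_cases hy : y.right = 1
  · rw [hy] at e5 hc
    rw [mapGU_one] at e5 hc
    apply hfo
    rw [← th_psu]
    refine ⟨y, ⟨y.left, ?_, H63.As.mem_range_il hy⟩, rfl⟩
    rw [← hu]
    exact mk_mem_PSU (hdiag u c hc (congrArg Subtype.val e5))
  · have h1 : (y.right.1 : RingAut K) ^ 2 = 1 := by
      have h3 := congrArg (SemidirectProduct.rightHom : PGamU K n →* SA K) e1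
      rw [map_mul, map_one] at h3
      have h4 : y.right * y.right = 1 := h3
      rw [pow_two]
      exact congrArg Subtype.val h4
    have h3 : ∀ x : K, y.right.1 x = star x :=
      H401.aut_eq_star hK hs y.right.1 h1 (fun h => hy (Subtype.ext h))
    have h4 : ∀ A : GU K n, (mapGU y.right A).1 = A.1.map star := by
      intro A
      ext i j
      exact h3 _
    have e7 : u.1 * S.1.map star = S.1 * u.1 := by
      rw [← h4]
      exact congrArg Subtype.val e5
    have e8 : u.1 * u.1.map star = c • 1 := by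
      rw [← h4]
      exact hc
    exact hgr u c (c_sq (by omega) (gu_star u) e8) e8 e7

/-- from fixed elements to `EuFree` -/
theorem euFree_core {r : ℕ} [Fact r.Prime] [CharP K r] (hq : 3 ≤ q) (hK : Nat.card K = q ^ 2)
    (hs : ∀ x : K, star x = x ^ q) (hn : 3 ≤ n) {S : GU K n} (hS : S ^ r = 1)
    (hdiag : ∀ (u : GU K n) (c : K), u.1 * u.1 = c • 1 → u.1 * S.1 = S.1 * u.1 → Rn n u.1.det)
    (hgr : ∀ (u : GU K n) (c : K), (c = 1 ∨ c = -1) → u.1 * u.1.map star = c • 1 →
      u.1 * S.1.map star = S.1 * u.1 → False)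
    (hc : ∀ x : PSU K n, (∀ y, x * y = y * x) → x = 1) (ha : AutFree 2 r (PSU K n)) :
    EuFree 2 (PSU K n) := by
  have hd : S.1.det = 1 := by
    refine one_of_pow (r := r) ?_
    have h1 : (S ^ r).1 = S.1 ^ r := rfl
    rw [← Matrix.det_pow, ← h1, hS]
    exact Matrix.det_one
  have hSp : (QuotientGroup.mk S : PGU K n) ∈ PSU K n := mk_mem_PSU (by rw [hd]; exact Rn.one n)
  refine euFree_of_elt (k := 1) hc ha (s := ⟨QuotientGroup.mk S, hSp⟩) ?_
    fun f hf2 hfo hfs => fix_core hq hK hs hn hS hSp hdiag hgr hf2 hfo hfs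
  rw [pow_one]
  apply Subtype.ext
  have h1 : ((QuotientGroup.mk S : PGU K n)) ^ r = QuotientGroup.mk (S ^ r) := rfl
  show (QuotientGroup.mk S : PGU K n) ^ r = 1
  rw [h1, hS]
  rfl

theorem two_ne {r : ℕ} [Fact r.Prime] [CharP K r] (hr2 : r ≠ 2) : (2 : K) ≠ 0 := by
  intro h
  have h1 : ((2 : ℕ) : K) = 0 := by exact_mod_cast h
  rw [CharP.cast_eq_zero_iff K r] at h1
  exact hr2 ((Nat.prime_dvd_prime_iff_eq Fact.out Nat.prime_two).1 h1)

/-- a skew scalar -/
theorem exists_skew (hK : Nat.card K = q ^ 2) (hs : ∀ x : K, star x = x ^ q) :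
    ∃ a : K, a ≠ 0 ∧ star a = -a := by
  obtain ⟨z, hz⟩ := H401.exists_star_ne hK hs
  refine ⟨z - star z, sub_ne_zero.2 hz.symm, ?_⟩
  rw [star_sub, star_star, neg_sub]

theorem exists_neg_one (hK : Nat.card K = q ^ 2) (hs : ∀ x : K, star x = x ^ q) :
    ∃ α : K, α * star α = -1 := by
  obtain ⟨z, -, hz⟩ := H401.exists_norm_eq hK hs (w := -1) (neg_ne_zero.2 one_ne_zero)
    (by rw [star_neg, star_one])
  exact ⟨z, hz⟩

theorem scal_norm (hn : 0 < n) {A : Matrix (Fin n) (Fin n) K} {c : K} (hA : A * star A = 1)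
    (hc : A = c • 1) : c * star c = 1 := by
  rw [hc, star_smul, star_one, smul_mul_smul_comm, one_mul] at hA
  have h6 := congrFun (congrFun hA ⟨0, hn⟩) ⟨0, hn⟩
  simpa using h6

/-- unipotent matrices have order `r` -/
theorem unip_pow {r : ℕ} [hr : Fact r.Prime] [CharP K r] (hr2 : r ≠ 2) (hn : 0 < n)
    {N : Matrix (Fin n) (Fin n) K} (hN : N * N * N = 0) : (1 + N) ^ r = 1 := by
  have : Nonempty (Fin n) := ⟨⟨0, hn⟩⟩
  have h3 : 3 ≤ r := by
    have := hr.out.two_le
    omega
  rw [add_pow_char_of_commute r (Commute.one_left N), one_pow]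
  obtain ⟨k, rfl⟩ := Nat.exists_eq_add_of_le h3
  rw [pow_add, pow_succ, pow_two, hN, zero_mul, add_zero]

theorem comm_sub {u S : Matrix (Fin n) (Fin n) K} (hS : S * star S = 1)
    (h : u * S.map star = S * u) :
    u * (S - star S).map star = (S - star S) * u := by
  have hS' : star S * S = 1 := mul_eq_one_comm.1 hS
  have h1 : (S - star S).map star = S.map star - star (S.map star) := by
    ext i j
    rw [Matrix.map_apply, Matrix.sub_apply, star_sub, Matrix.sub_apply, Matrix.map_apply,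
      Matrix.star_apply, Matrix.star_apply, Matrix.map_apply]
  have h2 : S.map star * star (S.map star) = 1 := by
    have h8 : (S * star S).map (starRingEnd K) = S.map star * star (S.map star) := by
      rw [Matrix.map_mul]
      congr 1
    rw [← h8, hS]
    exact Matrix.map_one _ (map_zero _) (map_one _)
  have h3 : u * star (S.map star) = star S * u := by
    calc u * star (S.map star) = star S * (S * u) * star (S.map star) := by
          rw [← Matrix.mul_assoc, hS', Matrix.one_mul]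
      _ = star S * u := by
          rw [← h, Matrix.mul_assoc, Matrix.mul_assoc, h2, Matrix.mul_one]
  rw [h1, Matrix.mul_sub, Matrix.sub_mul, h, h3]

theorem star_sub_self (S : Matrix (Fin n) (Fin n) K) : star (S - star S) = -(S - star S) := by
  rw [star_sub, star_star, neg_sub]

/-- `n` odd: the sign is `1` -/
theorem sign_odd (hodd : Odd n) (h2 : (2 : K) ≠ 0) (u : GU K n) {c : K} (hc1 : c = 1 ∨ c = -1)
    (hc : u.1 * u.1.map star = c • 1) : c = 1 := by
  rcases hc1 with h | rfl
  · exact h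
  · exfalso
    have h1 := congrArg Matrix.det hc
    have h3 := RingHom.map_det (starRingEnd K) u.1
    have h4 : (u.1.map star).det = star u.1.det := h3.symm
    rw [Matrix.det_mul, h4, det_norm, Matrix.det_smul, Matrix.det_one, mul_one, Fintype.card_fin,
      hodd.neg_one_pow] at h1
    apply h2
    linear_combination h1

/-- diagonal automorphisms, `2 ∤ gcd(n, q + 1)` -/
theorem diag_odd (hs : ∀ x : K, star x = x ^ q) (hn : 0 < n) (hd : ¬ 2 ∣ Nat.gcd n (q + 1))
    (u : GU K n) {c : K} (hc : u.1 * u.1 = c • 1) : Rn n u.1.det := by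
  have hcc : c * star c = 1 := scal_norm hn (A := (u * u).1) (gu_star (u * u)) hc
  refine Rn_of_pow hs Nat.prime_two hd (det_norm u) ⟨c, hcc, ?_⟩
  have h4 := congrArg Matrix.det hc
  rw [Matrix.det_smul, Matrix.det_one, mul_one, Fintype.card_fin, Matrix.det_mul] at h4
  rw [pow_two, h4]

/-- **`PSU_n(q)`, `n` odd** -/
theorem euFree_psu_odd {r : ℕ} [Fact r.Prime] [CharP K r] (hr2 : r ≠ 2) (hq : 3 ≤ q)
    (hK : Nat.card K = q ^ 2) (hs : ∀ x : K, star x = x ^ q) (hn : 3 ≤ n) (hodd : Odd n)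
    (hc : ∀ x : PSU K n, (∀ y, x * y = y * x) → x = 1) (ha : AutFree 2 r (PSU K n)) :
    EuFree 2 (PSU K n) := by
  have h2 : (2 : K) ≠ 0 := two_ne hr2
  obtain ⟨a, ha0, has⟩ := exists_skew hK hs
  obtain ⟨α, hα⟩ := exists_neg_one hK hs
  have h01 : (⟨0, by omega⟩ : Fin n) ≠ ⟨1, by omega⟩ := by
    rw [Ne, Fin.mk.injEq]
    omega
  set x : Fin n → K := uv ⟨0, by omega⟩ ⟨1, by omega⟩ α with hx
  have hxx : star x ⬝ᵥ x = 0 := uv_self h01 hα
  let S : GU K n := ⟨1 + a • vv x x, Matrix.mem_unitaryGroup_iff.2 (tv_mul hxx has)⟩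
  have hN2 : (a • vv x x) * (a • vv x x) = 0 := by
    rw [smul_mul_smul_comm, vv_mul, hxx, zero_smul, smul_zero]
  have hS : S ^ r = 1 := Subtype.ext (unip_pow hr2 (by omega) (by rw [hN2, zero_mul]))
  have hd : ¬ 2 ∣ Nat.gcd n (q + 1) := fun h => by
    have h1 := h.trans (Nat.gcd_dvd_left n (q + 1))
    obtain ⟨k, hk⟩ := hodd
    omega
  refine euFree_core hq hK hs hn hS (fun u c hc _ => diag_odd hs (by omega) hd u hc) ?_ hc ha
  intro u c hc1 hc hu
  have hc' : c = 1 := sign_odd hodd h2 u hc1 hc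
  have hx0 : x ⟨0, by omega⟩ = 1 := uv_left h01 α
  obtain ⟨R, S', Q, R', e1, e2, e3⟩ := vv_rank x hx0 (b := 2 * a) (mul_ne_zero h2 ha0)
  refine no_graph (l := 1) (k := 1) (N := S.1 - star S.1) (by decide) h2 (gu_star u) hc
    (by rw [hc', star_one]) hc1 (star_sub_self _) (comm_sub (gu_star S) hu) ?_ e2 e3
    (fun h => ?_)
  · rw [← e1]
    show (1 + a • vv x x) - star (1 + a • vv x x) = _
    rw [star_add, star_one, star_smul, vv_star, has]
    module
  · exfalso
    apply h2
    linear_combination h - hc'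

/-- **groups isomorphic to `PSU_n(q)`, `n` odd** -/
theorem euFree_odd {r : ℕ} (hr : r.Prime) (hrK : (r : K) = 0) (hr2 : r ≠ 2) (hq : 3 ≤ q)
    (hK : Nat.card K = q ^ 2) (hs : ∀ x : K, star x = x ^ q) (hn : 3 ≤ n) (hodd : Odd n)
    {L : Type*} [Group L] (e : L ≃* PSU K n) (hc : ∀ x : L, (∀ y, x * y = y * x) → x = 1)
    (ha : AutFree 2 r L) : EuFree 2 L := by
  have : Fact r.Prime := ⟨hr⟩
  have hch : CharP K r := by
    have h1 := CharP.ringChar_of_prime_eq_zero hr hrK
    have h2 := ringChar.charP K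
    rwa [h1] at h2
  refine (euFree_psu_odd hr2 hq hK hs hn hodd (fun x hx => ?_) (ha.congr e)).congr e.symm
  have h1 : e.symm x = 1 := hc _ fun y => e.injective (by
    rw [map_mul, map_mul, e.apply_symm_apply, hx])
  rw [← e.apply_symm_apply x, h1, map_one]

end Vale.Agent.P240.R2.H112.Eu
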