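import Vale.Agent.P240.R2.H112.EuU

/-!
`EuFree 2 (PSU_n(q))`, `q` odd, `n ≥ 5`, `2 gcd(n, q + 1) ∣ q + 1`.
-/

set_option autoImplicit false
set_option linter.unusedSectionVars false

namespace Vale.Agent.P240.R2.H112.Eu

open Subgroup
open Vale.Agent.P240.H195 (AutFree EuFree)
open Vale.Agent.P240.R2.AS Vale.Agent.P240.R2.H472

variable {K : Type} [Field K] [Fintype K] [StarRing K] {n q : ℕ}

/-- `-1` is an `n`-th power of a norm one element -/
theorem Rn_neg_one (hK : Nat.card K = q ^ 2) (hs : ∀ x : K, star x = x ^ q)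
    (hd : 2 * n.gcd (q + 1) ∣ q + 1) : Rn n (-1 : K) := by
  obtain ⟨α, hα⟩ := exists_neg_one hK hs
  obtain ⟨k, hk⟩ := hd
  have h1 : (α ^ (2 * k)) * star (α ^ (2 * k)) = 1 := by
    rw [star_pow, ← mul_pow, hα, pow_mul, neg_one_sq, one_pow]
  have h2 := Rn_gcd hs n h1
  have h3 : (α ^ (2 * k)) ^ n.gcd (q + 1) = -1 := by
    rw [← pow_mul]
    have h4 : 2 * k * n.gcd (q + 1) = q + 1 := (mul_right_comm _ _ _).trans hk.symm
    rw [h4, pow_succ', ← hs, hα]
  rwa [h3] at h2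

/-- a unitary matrix that commutes with `x x^*` and whose square is a scalar -/
theorem diag_vv (hR : Rn n (-1 : K)) (u : GU K n) {c : K} (hc : u.1 * u.1 = c • 1)
    {x : Fin n → K} {i : Fin n} (hi : x i = 1) (hu : u.1 * vv x x = vv x x * u.1) :
    Rn n u.1.det := by
  have h1 : ∀ k l, (u.1.mulVec x) k * star (x l) = x k * (Matrix.vecMul (star x) u.1) l := by
    intro k l
    rw [vv, Matrix.mul_vecMulVec, Matrix.vecMulVec_mul] at hu
    exact congrFun (congrFun hu k) l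
  set β : K := (Matrix.vecMul (star x) u.1) i with hβ
  have h2 : ∀ k, (u.1.mulVec x) k = β * x k := by
    intro k
    have h3 := h1 k i
    rw [hi, star_one, mul_one] at h3
    rw [h3, mul_comm]
  have h3 : u.1.mulVec x = β • x := funext h2
  have h4 : Matrix.vecMul (star x) u.1 = β • star x := by
    funext l
    have h5 := h1 i l
    rw [h2 i, hi, mul_one, one_mul] at h5
    exact h5.symm
  have hc2 : c = β * β := by
    have h5 : (u.1 * u.1).mulVec x = c • x := by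
      rw [hc, Matrix.smul_mulVec, Matrix.one_mulVec]
    rw [← Matrix.mulVec_mulVec, h3, Matrix.mulVec_smul, h3] at h5
    have h6 := congrFun h5 i
    simp only [Pi.smul_apply, smul_eq_mul, hi, mul_one] at h6
    exact h6.symm
  have hβ1 : β * star β = 1 := by
    have h5 : (star u.1).mulVec x = star β • x := by
      have h6 := congrArg star h4
      rw [Matrix.star_vecMul, star_star, star_smul, star_star] at h6
      exact h6
    have h6 : (u.1 * star u.1).mulVec x = x := by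
      rw [gu_star, Matrix.one_mulVec]
    rw [← Matrix.mulVec_mulVec, h5, Matrix.mulVec_smul, h3] at h6
    have h7 := congrFun h6 i
    simp only [Pi.smul_apply, smul_eq_mul, hi, mul_one] at h7
    rw [mul_comm]
    exact h7
  have hdet : u.1.det * u.1.det = β ^ n * β ^ n := by
    have h5 := congrArg Matrix.det hc
    rw [Matrix.det_mul, Matrix.det_smul, Matrix.det_one, mul_one, Fintype.card_fin, hc2,
      mul_pow] at h5
    exact h5
  have hRβ : Rn n (β ^ n) := ⟨β, hβ1, rfl⟩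
  rcases mul_self_eq_mul_self_iff.1 hdet with h | h
  · rw [h]
    exact hRβ
  · rw [h, ← neg_one_mul]
    exact hR.mul hRβ

/-- **`PSU_n(q)`, `n ≥ 5`** -/
theorem euFree_psu_five {r : ℕ} [Fact r.Prime] [CharP K r] (hr2 : r ≠ 2) (hq : 3 ≤ q)
    (hK : Nat.card K = q ^ 2) (hs : ∀ x : K, star x = x ^ q) (hn : 5 ≤ n)
    (hR : Rn n (-1 : K))
    (hc : ∀ x : PSU K n, (∀ y, x * y = y * x) → x = 1) (ha : AutFree 2 r (PSU K n)) :
    EuFree 2 (PSU K n) := by
  have h2 : (2 : K) ≠ 0 := two_ne hr2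
  obtain ⟨a, ha0, has⟩ := exists_skew hK hs
  obtain ⟨α, hα⟩ := exists_neg_one hK hs
  set i0 : Fin n := ⟨0, by omega⟩ with hi0
  set i1 : Fin n := ⟨1, by omega⟩ with hi1
  set i2 : Fin n := ⟨2, by omega⟩ with hi2
  set i3 : Fin n := ⟨3, by omega⟩ with hi3
  set i4 : Fin n := ⟨4, by omega⟩ with hi4
  have n01 : i0 ≠ i1 := by simp [hi0, hi1]
  have n02 : i0 ≠ i2 := by simp [hi0, hi2]
  have n03 : i0 ≠ i3 := by simp [hi0, hi3]
  have n04 : i0 ≠ i4 := by simp [hi0, hi4]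
  have n12 : i1 ≠ i2 := by simp [hi1, hi2]
  have n13 : i1 ≠ i3 := by simp [hi1, hi3]
  have n14 : i1 ≠ i4 := by simp [hi1, hi4]
  have n23 : i2 ≠ i3 := by simp [hi2, hi3]
  have n24 : i2 ≠ i4 := by simp [hi2, hi4]
  have n34 : i3 ≠ i4 := by simp [hi3, hi4]
  set x : Fin n → K := uv i0 i1 α with hx
  set z : Fin n → K := Pi.single i2 1 with hz
  set t : Fin n → K := uv i3 i4 α with ht
  have x0 : x i0 = 1 := uv_left n01 α
  have x2 : x i2 = 0 := uv_ne n02.symm n12.symm α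
  have x3 : x i3 = 0 := uv_ne n03.symm n13.symm α
  have x4 : x i4 = 0 := uv_ne n04.symm n14.symm α
  have z0 : z i0 = 0 := Pi.single_eq_of_ne n02 1
  have z1 : z i1 = 0 := Pi.single_eq_of_ne n12 1
  have z2 : z i2 = 1 := Pi.single_eq_same _ _
  have z3 : z i3 = 0 := Pi.single_eq_of_ne n23.symm 1
  have z4 : z i4 = 0 := Pi.single_eq_of_ne n24.symm 1
  have t0 : t i0 = 0 := uv_ne n03 n04 α
  have t1 : t i1 = 0 := uv_ne n13 n14 α
  have t2 : t i2 = 0 := uv_ne n23 n24 α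
  have t3 : t i3 = 1 := uv_left n34 α
  have hxx : star x ⬝ᵥ x = 0 := uv_self n01 hα
  have htt : star t ⬝ᵥ t = 0 := uv_self n34 hα
  have hxz : star x ⬝ᵥ z = 0 := by rw [hx, uv_dot, z0, z1, mul_zero, add_zero]
  have hzx : star z ⬝ᵥ x = 0 := by rw [hz, sv_dot, x2]
  have hzz : star z ⬝ᵥ z = 1 := by rw [hz, sv_dot, ← hz, z2]
  have hxt : star x ⬝ᵥ t = 0 := by rw [hx, uv_dot, t0, t1, mul_zero, add_zero]
  have htx : star t ⬝ᵥ x = 0 := by rw [ht, uv_dot, x3, x4, mul_zero, add_zero]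
  have hzt : star z ⬝ᵥ t = 0 := by rw [hz, sv_dot, t2]
  have htz : star t ⬝ᵥ z = 0 := by rw [ht, uv_dot, z3, z4, mul_zero, add_zero]
  have hh : star (2⁻¹ : K) = 2⁻¹ := by
    rw [star_inv₀, star_ofNat]
  have h2h : 2 * (2⁻¹ : K) = 1 := mul_inv_cancel₀ h2
  let S : GU K n := ⟨1 + nn x z t a 2⁻¹,
    Matrix.mem_unitaryGroup_iff.2 (nn_mul hxx hxz hzx hzz htt hxt htx hzt htz has hh h2h)⟩
  have hS : S ^ r = 1 := Subtype.ext (unip_pow hr2 (by omega)
    (nn_cube hxx hxz hzx hzz htt hxt htx hzt htz))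
  refine euFree_core hq hK hs (by omega) hS (fun u c hc hu => ?_) (fun u c hc1 hc hu => ?_) hc ha
  · refine diag_vv hR u hc x0 ?_
    have h3 : u.1 * nn x z t a 2⁻¹ = nn x z t a 2⁻¹ * u.1 := by
      have h4 : u.1 * (1 + nn x z t a 2⁻¹) = (1 + nn x z t a 2⁻¹) * u.1 := hu
      rw [Matrix.mul_add, Matrix.add_mul, Matrix.mul_one, Matrix.one_mul] at h4
      exact add_left_cancel h4
    have h4 : u.1 * (nn x z t a 2⁻¹ * nn x z t a 2⁻¹) =
        (nn x z t a 2⁻¹ * nn x z t a 2⁻¹) * u.1 := by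
      rw [← Matrix.mul_assoc, h3, Matrix.mul_assoc, h3, ← Matrix.mul_assoc]
    rw [nn_sq hxx hxz hzx hzz htt hxt htx hzt htz, Matrix.mul_neg, Matrix.neg_mul] at h4
    exact neg_injective h4
  · obtain ⟨P, Q', Q, P', e1, e2, e3⟩ := nn_rank (x := x) (z := z) (t := t) (a := a)
      (i := i0) (j := i2) (k := i3) h2 ha0 x0 x2 x3 z0 z2 z3 t0 t2 t3
    have h4 : (-4 : K) ≠ 0 := by
      have h5 : (-4 : K) = -(2 * 2) := by norm_num
      rw [h5]
      exact neg_ne_zero.2 (mul_ne_zero h2 h2)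
    obtain ⟨R, R1, R2, R3, e4, e5, e6⟩ := vv_rank x x0 h4
    have hcs : star c = c := by
      rcases hc1 with rfl | rfl
      · rw [star_one]
      · rw [star_neg, star_one]
    refine no_graph (l := 1) (k := 3) (N := S.1 - star S.1) (by decide) h2 (gu_star u) hc
      hcs hc1 (star_sub_self _) (comm_sub (gu_star S) hu) ?_ e2 e3
      (fun _ => ⟨by decide, R, R1, R2, R3, ?_, e5, e6⟩)
    · rw [← e1]
      exact nn_sub has hh
    · rw [← e4]
      exact nn_sub_sq hxx hxz hzx hzz htt hxt htx hzt htz has hh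

/-- **groups isomorphic to `PSU_n(q)`, `n ≥ 5`, `2 gcd(n, q + 1) ∣ q + 1`** -/
theorem euFree_five {r : ℕ} (hr : r.Prime) (hrK : (r : K) = 0) (hr2 : r ≠ 2) (hq : 3 ≤ q)
    (hK : Nat.card K = q ^ 2) (hs : ∀ x : K, star x = x ^ q) (hn : 5 ≤ n)
    (hd : 2 * n.gcd (q + 1) ∣ q + 1)
    {L : Type*} [Group L] (e : L ≃* PSU K n) (hc : ∀ x : L, (∀ y, x * y = y * x) → x = 1)
    (ha : AutFree 2 r L) : EuFree 2 L := by
  have : Fact r.Prime := ⟨hr⟩
  have hch : CharP K r := by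
    have h1 := CharP.ringChar_of_prime_eq_zero hr hrK
    have h2 := ringChar.charP K
    rwa [h1] at h2
  refine (euFree_psu_five hr2 hq hK hs hn (Rn_neg_one hK hs hd) (fun x hx => ?_)
    (ha.congr e)).congr e.symm
  have h1 : e.symm x = 1 := hc _ fun y => e.injective (by
    rw [map_mul, map_mul, e.apply_symm_apply, hx])
  rw [← e.apply_symm_apply x, h1, map_one]

/-- **`PSU_n(3)`, `n ≡ 2 mod 4`, `n ≥ 6`** -/
theorem euFree_three (hK : Nat.card K = 3 ^ 2) (hs : ∀ x : K, star x = x ^ 3) (hn : 5 ≤ n)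
    (hn4 : n % 4 ≠ 0) {L : Type*} [Group L] (e : L ≃* PSU K n)
    (hc : ∀ x : L, (∀ y, x * y = y * x) → x = 1) (h3 : (3 : K) = 0)
    (ha : AutFree 2 3 L) : EuFree 2 L := by
  refine euFree_five Nat.prime_three (by exact_mod_cast h3) (by norm_num) le_rfl hK hs hn ?_ e hc ha
  have h4 : Nat.gcd n (3 + 1) ∣ 4 := Nat.gcd_dvd_right _ _
  have hle : Nat.gcd n (3 + 1) ≤ 4 := Nat.le_of_dvd (by norm_num) h4
  have h5 : Nat.gcd n (3 + 1) ∣ n := Nat.gcd_dvd_left _ _
  set d := Nat.gcd n (3 + 1) with hd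
  interval_cases d
  · norm_num at h4
  · norm_num
  · norm_num
  · norm_num at h4
  · exfalso
    exact hn4 (Nat.mod_eq_zero_of_dvd h5)

end Vale.Agent.P240.R2.H112.Eu
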