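import Vale.Agent.P240.R2.H715.SpDefs
import Vale.Agent.P240.R2.H487.CG.Defs

/-!
P240, BN line, row I2: the symplectic groups of `SpDefs` and the groups `GJ (2m) 1`.
-/

set_option autoImplicit false

namespace Vale.Agent.P240.R2.H112

open Matrix Subgroup
open Vale.Agent.P240.R2.H487.CG (JJ GJ PGJ)

universe u

section

variable {F : Type u} [Field F] {m : ℕ}

/-- the first half in order, the second half in reverse order -/
def e2 (m : ℕ) : Fin m ⊕ Fin m ≃ Fin (2 * m) :=
  ((Equiv.sumCongr (Equiv.refl (Fin m)) Fin.revPerm).trans finSumFinEquiv).trans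
    (finCongr (by omega))

theorem e2_inl (i : Fin m) : (e2 m (Sum.inl i)).val = i.val := rfl

theorem e2_inr (i : Fin m) : (e2 m (Sum.inr i)).val = m + (m - (i.val + 1)) := rfl

theorem rev_inl (i : Fin m) : Fin.rev (e2 m (Sum.inl i)) = e2 m (Sum.inr i) := by
  apply Fin.ext
  rw [Fin.val_rev, e2_inl, e2_inr]
  have := i.2
  omega

theorem rev_inr (i : Fin m) : Fin.rev (e2 m (Sum.inr i)) = e2 m (Sum.inl i) := by
  rw [← rev_inl, Fin.rev_rev]

/-- the signs -/
def sg (m : ℕ) (F : Type u) [Field F] : Matrix (Fin m) (Fin m) F :=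
  diagonal fun i => (-1) ^ i.val

theorem sg_mul : sg m F * sg m F = 1 := by
  unfold sg
  rw [diagonal_mul_diagonal, ← diagonal_one]
  congr 1
  funext i
  rw [← mul_pow, neg_one_mul, neg_neg, one_pow]

/-- the base change -/
def P2 (m : ℕ) (F : Type u) [Field F] : Matrix (Fin m ⊕ Fin m) (Fin m ⊕ Fin m) F :=
  fromBlocks (sg m F) 0 0 (-1)

theorem P2_mul : P2 m F * P2 m F = 1 := by
  unfold P2
  rw [fromBlocks_multiply, sg_mul]
  simp [fromBlocks_one]

theorem P2_T : (P2 m F)ᵀ = P2 m F := by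
  unfold P2 sg
  rw [fromBlocks_transpose, diagonal_transpose]
  simp

/-- the form in the new order -/
theorem JJ_sub : (JJ (2 * m) F).submatrix (e2 m) (e2 m) = fromBlocks 0 (sg m F) (-sg m F) 0 := by
  ext i j
  rw [submatrix_apply]
  unfold JJ
  rw [Matrix.of_apply]
  rcases i with i | i <;> rcases j with j | j
  · rw [rev_inl, if_neg, fromBlocks_apply₁₁, Matrix.zero_apply]
    intro h
    exact absurd ((e2 m).injective h) (by simp)
  · rw [rev_inl, fromBlocks_apply₁₂]
    unfold sg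
    rw [Matrix.diagonal_apply, e2_inl]
    by_cases hij : i = j
    · rw [if_pos hij, if_pos (by rw [hij])]
    · rw [if_neg hij, if_neg]
      intro h
      have := (e2 m).injective h
      exact hij (Sum.inr.inj this).symm
  · rw [rev_inr, fromBlocks_apply₂₁]
    unfold sg
    rw [Matrix.neg_apply, Matrix.diagonal_apply, e2_inr]
    by_cases hij : i = j
    · rw [if_pos hij, if_pos (by rw [hij])]
      have h1 : m + (m - (i.val + 1)) = 2 * (m - (i.val + 1)) + i.val + 1 := by
        have := i.2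
        omega
      rw [h1, pow_add, pow_add, pow_mul, neg_one_sq, one_pow, one_mul, pow_one, mul_neg_one]
    · rw [if_neg hij, if_neg, neg_zero]
      intro h
      have := (e2 m).injective h
      exact hij (Sum.inl.inj this).symm
  · rw [rev_inr, if_neg, fromBlocks_apply₂₂, Matrix.zero_apply]
    intro h
    exact absurd ((e2 m).injective h) (by simp)

theorem P2_JJ : P2 m F * (JJ (2 * m) F).submatrix (e2 m) (e2 m) * P2 m F = J (Fin m) F := by
  rw [JJ_sub]
  unfold P2 J
  rw [fromBlocks_multiply, fromBlocks_multiply]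
  simp [sg_mul]

theorem P2_J : P2 m F * J (Fin m) F * P2 m F = (JJ (2 * m) F).submatrix (e2 m) (e2 m) := by
  rw [← P2_JJ]
  calc P2 m F * (P2 m F * (JJ (2 * m) F).submatrix (e2 m) (e2 m) * P2 m F) * P2 m F
      = (P2 m F * P2 m F) * (JJ (2 * m) F).submatrix (e2 m) (e2 m) * (P2 m F * P2 m F) := by
        simp only [Matrix.mul_assoc]
    _ = _ := by rw [P2_mul, Matrix.one_mul, Matrix.mul_one]

/-- the base change of matrices -/
def ph (A : Matrix (Fin m ⊕ Fin m) (Fin m ⊕ Fin m) F) : Matrix (Fin (2 * m)) (Fin (2 * m)) F :=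
  (P2 m F * A * P2 m F).submatrix (e2 m).symm (e2 m).symm

/-- the inverse base change -/
def ps (X : Matrix (Fin (2 * m)) (Fin (2 * m)) F) : Matrix (Fin m ⊕ Fin m) (Fin m ⊕ Fin m) F :=
  P2 m F * X.submatrix (e2 m) (e2 m) * P2 m F

theorem PP (A : Matrix (Fin m ⊕ Fin m) (Fin m ⊕ Fin m) F) :
    P2 m F * (P2 m F * A * P2 m F) * P2 m F = A := by
  calc P2 m F * (P2 m F * A * P2 m F) * P2 m F
      = (P2 m F * P2 m F) * A * (P2 m F * P2 m F) := by simp only [Matrix.mul_assoc]
    _ = A := by rw [P2_mul, Matrix.one_mul, Matrix.mul_one]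

theorem ps_ph (A : Matrix (Fin m ⊕ Fin m) (Fin m ⊕ Fin m) F) : ps (ph A) = A := by
  unfold ps ph
  rw [submatrix_submatrix, (e2 m).symm_comp_self, submatrix_id_id, PP]

theorem ph_ps (X : Matrix (Fin (2 * m)) (Fin (2 * m)) F) : ph (ps X) = X := by
  unfold ps ph
  rw [PP, submatrix_submatrix, (e2 m).self_comp_symm, submatrix_id_id]

theorem ph_mul (A B : Matrix (Fin m ⊕ Fin m) (Fin m ⊕ Fin m) F) : ph (A * B) = ph A * ph B := by
  unfold ph
  rw [submatrix_mul_equiv]
  congr 1
  calc P2 m F * (A * B) * P2 m F = P2 m F * A * (1 : Matrix _ _ F) * B * P2 m F := by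
        rw [Matrix.mul_one, Matrix.mul_assoc (P2 m F) A B]
    _ = P2 m F * A * (P2 m F * P2 m F) * B * P2 m F := by rw [P2_mul]
    _ = P2 m F * A * P2 m F * (P2 m F * B * P2 m F) := by simp only [Matrix.mul_assoc]

theorem ph_det (A : Matrix (Fin m ⊕ Fin m) (Fin m ⊕ Fin m) F) : (ph A).det = A.det := by
  unfold ph
  rw [det_submatrix_equiv_self, det_mul, det_mul]
  have h : (P2 m F).det * (P2 m F).det = 1 := by rw [← det_mul, P2_mul, det_one]
  rw [mul_assoc, mul_comm A.det, ← mul_assoc, h, one_mul]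

theorem ph_T (A : Matrix (Fin m ⊕ Fin m) (Fin m ⊕ Fin m) F) : (ph A)ᵀ = ph Aᵀ := by
  unfold ph
  rw [transpose_submatrix, transpose_mul, transpose_mul, P2_T, Matrix.mul_assoc]

theorem ph_J : ph (J (Fin m) F) = JJ (2 * m) F := by
  unfold ph
  rw [P2_J, submatrix_submatrix, (e2 m).self_comp_symm, submatrix_id_id]

theorem ph_inj {A B : Matrix (Fin m ⊕ Fin m) (Fin m ⊕ Fin m) F} (h : ph A = ph B) : A = B := by
  rw [← ps_ph A, h, ps_ph]

theorem map_refl {n : Type*} (A : Matrix n n F) : A.map (RingEquiv.refl F) = A := by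
  ext i j
  rfl

theorem mem_GJ (A : Matrix (Fin m ⊕ Fin m) (Fin m ⊕ Fin m) F) :
    ((ph A).map (RingEquiv.refl F))ᵀ * JJ (2 * m) F * ph A = JJ (2 * m) F ↔
      A ∈ symplecticGroup (Fin m) F := by
  rw [map_refl, SymplecticGroup.mem_iff', ph_T, ← ph_J, ← ph_mul, ← ph_mul]
  exact ⟨fun h => ph_inj h, fun h => by rw [h]⟩

/-- `Sp_{2m}(F) ≃* GJ (2m) 1` -/
def spGJ (m : ℕ) (F : Type u) [Field F] :
    Vale.Agent.P240.R2.H715.Sy F m ≃* ↥(GJ (2 * m) (RingEquiv.refl F)) where
  toFun A := ⟨⟨ph A.1, by rw [ph_det, SymplecticGroup.det_eq_one A.2]⟩, (mem_GJ A.1).2 A.2⟩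
  invFun X := ⟨ps X.1.1, by
    have h := X.2
    change (X.1.1.map (RingEquiv.refl F))ᵀ * JJ (2 * m) F * X.1.1 = JJ (2 * m) F at h
    rw [← mem_GJ, ph_ps]
    exact h⟩
  left_inv A := Subtype.ext (ps_ph A.1)
  right_inv X := Subtype.ext (Subtype.ext (ph_ps X.1.1))
  map_mul' A B := Subtype.ext (Subtype.ext (ph_mul A.1 B.1))

theorem map_center {G H : Type*} [Group G] [Group H] (e : G ≃* H) :
    (center G).map (e : G →* H) = center H := by
  ext x
  constructor
  · rintro ⟨y, hy, rfl⟩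
    rw [mem_center_iff]
    intro h
    obtain ⟨g, rfl⟩ := e.surjective h
    have h1 := mem_center_iff.1 hy g
    change e g * e y = e y * e g
    rw [← map_mul, ← map_mul, h1]
  · intro hx
    refine ⟨e.symm x, ?_, e.apply_symm_apply x⟩
    change e.symm x ∈ center G
    rw [mem_center_iff]
    intro g
    apply e.injective
    rw [map_mul, map_mul, e.apply_symm_apply]
    exact mem_center_iff.1 hx (e g)

/-- `PSp_{2m}(F) ≃* PGJ (2m) 1` -/
noncomputable def pspPGJ (m : ℕ) (F : Type u) [Field F] :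
    (Vale.Agent.P240.R2.H715.Sy F m ⧸ center (Vale.Agent.P240.R2.H715.Sy F m)) ≃*
      PGJ (2 * m) (RingEquiv.refl F) :=
  QuotientGroup.congr _ _ (spGJ m F) (map_center (spGJ m F))

end

end Vale.Agent.P240.R2.H112
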