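import Mathlib.FieldTheory.Finite.GaloisField
import Mathlib.FieldTheory.Fixed
import Mathlib.FieldTheory.Galois.Basic
import Mathlib.RingTheory.Norm.Transitivity

/-!
P240, odd primes: surjectivity of the norm for an automorphism of prime order of a finite field.
-/

set_option autoImplicit false

namespace Vale.Agent.P240.R2.H112

open Subgroup

universe u

theorem exists_norm {K : Type u} [Field K] [Finite K] (σ : RingAut K) {p : ℕ} (hp : p.Prime)
    (h1 : σ ^ p = 1) (h2 : σ ≠ 1) {a : K} (ha : σ a = a) :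
    ∃ b : K, ∏ i ∈ Finset.range p, (σ ^ i) b = a := by
  classical
  have : Fact p.Prime := ⟨hp⟩
  let H : Subgroup (RingAut K) := Subgroup.zpowers σ
  have : Finite (RingAut K) := Finite.of_injective (fun f : RingAut K => (f : K → K))
    DFunLike.coe_injective
  have : Finite H := inferInstance
  have := Fintype.ofFinite H
  let k := FixedPoints.subfield H K
  have hak : a ∈ k := by
    rintro ⟨g, hg⟩
    obtain ⟨n, rfl⟩ := Subgroup.mem_zpowers_iff.1 hg
    change (σ ^ n) a = a
    have : σ ∈ MulAction.stabilizer (RingAut K) a := ha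
    exact Subgroup.zpow_mem _ this n
  have : Finite k := inferInstance
  obtain ⟨b, hb⟩ := FiniteField.norm_surjective k K ⟨a, hak⟩
  refine ⟨b, ?_⟩
  have : FaithfulSMul H K := inferInstance
  have h3 := Algebra.norm_eq_prod_automorphisms k b
  rw [hb] at h3
  have h4 : (algebraMap k K) ⟨a, hak⟩ = a := rfl
  rw [h4] at h3
  have h5 : ∏ g : K ≃ₐ[k] K, g b = ∏ g : H, g.1 b := by
    refine (Fintype.prod_equiv (FixedPoints.toAlgAutMulEquiv H K).toEquiv _ _ fun g => ?_).symm
    rfl
  have ho : orderOf σ = p := orderOf_eq_prime h1 h2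
  have hf : IsOfFinOrder σ := isOfFinOrder_of_finite σ
  have h6 : ∏ g : H, g.1 b = ∏ i : Fin (orderOf σ), (σ ^ (i : ℕ)) b := by
    refine (Fintype.prod_equiv (finEquivZPowers hf) _ _ fun i => ?_).symm
    rfl
  rw [h3, h5, h6, ← Fin.prod_univ_eq_prod_range (fun i => (σ ^ i) b), ho]

end Vale.Agent.P240.R2.H112
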