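import Vale.Agent.P240.R2.H687.OddDefs
import Vale.Agent.P240.R2.H112.PH

/-!
P240, odd primes: the statement `StmtOP1` of helper687.
-/

set_option autoImplicit false

namespace Vale.Agent.P240.R2.H112

open Vale.Agent.P240.R2.H687.Odd (StmtOP1 PSpHomA)

universe u v

theorem stmtOP1 : StmtOP1.{u, v} := by
  intro K _ _ m hm h2 G _ L he
  obtain ⟨e⟩ := he
  obtain ⟨ε, _, h3, h4, h5⟩ := exists_pspHom h2 hm L e
  exact ⟨ε, h3, h4, h5⟩

end Vale.Agent.P240.R2.H112
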