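import Vale.Agent.P240.R2.H687.OddDefs
import Vale.Agent.P240.R2.H112.S1G
import Vale.Agent.P240.R2.H112.Nm

/-!
P240, odd primes: the statement `StmtOP2` of helper687.
-/

set_option autoImplicit false

namespace Vale.Agent.P240.R2.H112

open Matrix Subgroup
open Vale.Agent.P240.R2.H687.Odd (StmtOP2 PSpHomA Dsc)

universe u v

section

variable {K : Type u} [Field K] {m : ℕ}

/-- similitudes -/
def Sim (M : Matrix (Fin m ⊕ Fin m) (Fin m ⊕ Fin m) K) (μ : K) : Prop :=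
  M * J (Fin m) K * Mᵀ = μ • J (Fin m) K

/-- the inverse of a similitude -/
def si (M : Matrix (Fin m ⊕ Fin m) (Fin m ⊕ Fin m) K) (μ : K) :
    Matrix (Fin m ⊕ Fin m) (Fin m ⊕ Fin m) K :=
  -(μ⁻¹) • (J (Fin m) K * Mᵀ * J (Fin m) K)

theorem mul_si {M : Matrix (Fin m ⊕ Fin m) (Fin m ⊕ Fin m) K} {μ : K} (hμ : μ ≠ 0)
    (h : Sim M μ) : M * si M μ = 1 := by
  unfold si
  unfold Sim at h
  have hJJ : J (Fin m) K * J (Fin m) K = -1 := J_squared _ _
  rw [Matrix.mul_smul, ← Matrix.mul_assoc, ← Matrix.mul_assoc, h, Matrix.smul_mul, hJJ, smul_smul,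
    neg_mul, inv_mul_cancel₀ hμ, neg_smul, one_smul, neg_neg]

theorem si_mul {M : Matrix (Fin m ⊕ Fin m) (Fin m ⊕ Fin m) K} {μ : K} (hμ : μ ≠ 0)
    (h : Sim M μ) : si M μ * M = 1 := mul_eq_one_comm.1 (mul_si hμ h)

theorem J_map (σ : K ≃+* K) : (J (Fin m) K).map σ = J (Fin m) K := by
  unfold J
  rw [fromBlocks_map, Matrix.map_zero _ (map_zero σ), Matrix.map_one _ (map_zero σ) (map_one σ)]
  congr 1
  ext a b
  rw [Matrix.map_apply, Matrix.neg_apply, map_neg, Matrix.one_apply]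
  split_ifs <;> simp

theorem Sim.mapa {M : Matrix (Fin m ⊕ Fin m) (Fin m ⊕ Fin m) K} {μ : K} (h : Sim M μ)
    (σ : K ≃+* K) : Sim (M.map σ) (σ μ) := by
  unfold Sim at h ⊢
  have h1 := congrArg (fun X : Matrix (Fin m ⊕ Fin m) (Fin m ⊕ Fin m) K => X.map σ) h
  have h2 : (M * J (Fin m) K * Mᵀ).map σ = M.map σ * J (Fin m) K * (M.map σ)ᵀ := by
    rw [Matrix.map_mul, Matrix.map_mul, J_map, Matrix.transpose_map]
  have h3 : (μ • J (Fin m) K).map σ = σ μ • J (Fin m) K := by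
    conv_rhs => rw [← J_map (m := m) σ]
    ext i j
    simp only [Matrix.map_apply, Matrix.smul_apply, smul_eq_mul, map_mul]
  simp only [h2, h3] at h1
  exact h1

theorem Sim.mul {A B : Matrix (Fin m ⊕ Fin m) (Fin m ⊕ Fin m) K} {α β : K} (hA : Sim A α)
    (hB : Sim B β) : Sim (A * B) (β * α) := by
  unfold Sim at hA hB ⊢
  calc A * B * J (Fin m) K * (A * B)ᵀ = A * (B * J (Fin m) K * Bᵀ) * Aᵀ := by
        rw [transpose_mul]
        simp only [Matrix.mul_assoc]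
    _ = (β * α) • J (Fin m) K := by
        rw [hB, Matrix.mul_smul, Matrix.smul_mul, hA, smul_smul]

theorem Sim.smul {A : Matrix (Fin m ⊕ Fin m) (Fin m ⊕ Fin m) K} {α : K} (hA : Sim A α) (b : K) :
    Sim (b • A) (b * b * α) := by
  unfold Sim at hA ⊢
  rw [transpose_smul, Matrix.smul_mul, Matrix.smul_mul, Matrix.mul_smul, hA, smul_smul, smul_smul]

theorem Sim.inv {M : Matrix (Fin m ⊕ Fin m) (Fin m ⊕ Fin m) K} {μ : K} (hμ : μ ≠ 0)
    (h : Sim M μ) : Sim (si M μ) μ⁻¹ := by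
  have h1 := si_mul hμ h
  have h2 : Mᵀ * (si M μ)ᵀ = 1 := by rw [← transpose_mul, h1, transpose_one]
  unfold Sim at h ⊢
  have h3 : si M μ * (M * J (Fin m) K * Mᵀ) * (si M μ)ᵀ = J (Fin m) K := by
    calc si M μ * (M * J (Fin m) K * Mᵀ) * (si M μ)ᵀ
        = (si M μ * M) * J (Fin m) K * (Mᵀ * (si M μ)ᵀ) := by simp only [Matrix.mul_assoc]
      _ = _ := by rw [h1, h2, Matrix.one_mul, Matrix.mul_one]
  rw [h, Matrix.mul_smul, Matrix.smul_mul] at h3
  have h4 := congrArg (fun X => μ⁻¹ • X) h3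
  simp only [smul_smul, inv_mul_cancel₀ hμ, one_smul] at h4
  exact h4

theorem Sim.one : Sim (1 : Matrix (Fin m ⊕ Fin m) (Fin m ⊕ Fin m) K) 1 := by
  unfold Sim
  rw [transpose_one, Matrix.one_mul, Matrix.mul_one, one_smul]

theorem sim_sy (g : Vale.Agent.P240.R2.H715.Sy K m) : Sim g.1 1 := by
  unfold Sim
  rw [one_smul]
  exact SymplecticGroup.mem_iff.1 g.2

theorem map_map_symm (A : Matrix (Fin m ⊕ Fin m) (Fin m ⊕ Fin m) K) (σ : K ≃+* K) :
    (A.map σ).map σ.symm = A := by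
  ext i j
  rw [Matrix.map_apply, Matrix.map_apply, RingEquiv.symm_apply_apply]

theorem map_symm_map (A : Matrix (Fin m ⊕ Fin m) (Fin m ⊕ Fin m) K) (σ : K ≃+* K) :
    (A.map σ.symm).map σ = A := by
  ext i j
  rw [Matrix.map_apply, Matrix.map_apply, RingEquiv.apply_symm_apply]

/-- conjugation by a semilinear similitude -/
def th {M M' : Matrix (Fin m ⊕ Fin m) (Fin m ⊕ Fin m) K} (h1 : M * M' = 1) (h2 : M' * M = 1)
    (σ : K ≃+* K) :
    Matrix (Fin m ⊕ Fin m) (Fin m ⊕ Fin m) K ≃+* Matrix (Fin m ⊕ Fin m) (Fin m ⊕ Fin m) K where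
  toFun A := M * A.map σ * M'
  invFun A := (M' * A * M).map σ.symm
  left_inv A := by
    have : M' * (M * A.map σ * M') * M = A.map σ := by
      calc M' * (M * A.map σ * M') * M = (M' * M) * A.map σ * (M' * M) := by
            simp only [Matrix.mul_assoc]
        _ = _ := by rw [h2, Matrix.one_mul, Matrix.mul_one]
    simp only [this, map_map_symm]
  right_inv A := by
    have : M * (M' * A * M) * M' = A := by
      calc M * (M' * A * M) * M' = (M * M') * A * (M * M') := by simp only [Matrix.mul_assoc]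
        _ = _ := by rw [h1, Matrix.one_mul, Matrix.mul_one]
    simp only [map_symm_map, this]
  map_mul' A B := by
    calc M * (A * B).map σ * M' = M * A.map σ * (1 : Matrix _ _ K) * B.map σ * M' := by
          rw [Matrix.map_mul, Matrix.mul_one]
          simp only [Matrix.mul_assoc]
      _ = M * A.map σ * (M' * M) * B.map σ * M' := by rw [h2]
      _ = _ := by simp only [Matrix.mul_assoc]
  map_add' A B := by
    rw [Matrix.map_add _ (map_add σ), Matrix.mul_add, Matrix.add_mul]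

theorem th_mul {M M' : Matrix (Fin m ⊕ Fin m) (Fin m ⊕ Fin m) K} (h1 : M * M' = 1)
    (h2 : M' * M = 1) (σ : K ≃+* K) (A : Matrix (Fin m ⊕ Fin m) (Fin m ⊕ Fin m) K) :
    th h1 h2 σ A * M = M * A.map σ := by
  change M * A.map σ * M' * M = _
  rw [Matrix.mul_assoc, h2, Matrix.mul_one]

/-- the matrices of the powers of `v ↦ M σ(v)` -/
def Mk (M : Matrix (Fin m ⊕ Fin m) (Fin m ⊕ Fin m) K) (σ : RingAut K) :
    ℕ → Matrix (Fin m ⊕ Fin m) (Fin m ⊕ Fin m) K
  | 0 => 1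
  | k + 1 => M * (Mk M σ k).map σ

theorem map_pow_succ (A : Matrix (Fin m ⊕ Fin m) (Fin m ⊕ Fin m) K) (σ : RingAut K) (k : ℕ) :
    A.map (σ ^ (k + 1) : RingAut K) = (A.map (σ ^ k : RingAut K)).map σ := by
  ext i j
  rw [Matrix.map_apply, Matrix.map_apply, Matrix.map_apply, pow_succ']
  rfl

theorem map_pow_zero (A : Matrix (Fin m ⊕ Fin m) (Fin m ⊕ Fin m) K) (σ : RingAut K) :
    A.map (σ ^ 0 : RingAut K) = A := by
  ext i j
  rw [Matrix.map_apply, pow_zero]
  rfl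

theorem Mk_succ' (M : Matrix (Fin m ⊕ Fin m) (Fin m ⊕ Fin m) K) (σ : RingAut K) (k : ℕ) :
    Mk M σ (k + 1) = Mk M σ k * M.map (σ ^ k : RingAut K) := by
  induction k with
  | zero =>
    rw [map_pow_zero]
    change M * (1 : Matrix _ _ K).map σ = 1 * M
    rw [Matrix.map_one _ (map_zero σ) (map_one σ), Matrix.mul_one, Matrix.one_mul]
  | succ k ih =>
    rw [map_pow_succ]
    change M * (Mk M σ (k + 1)).map σ = M * (Mk M σ k).map σ * _
    rw [ih, Matrix.map_mul, Matrix.mul_assoc]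

theorem map_mulVec (A : Matrix (Fin m ⊕ Fin m) (Fin m ⊕ Fin m) K) (σ : K ≃+* K)
    (w : Fin m ⊕ Fin m → K) :
    (fun i => σ ((A *ᵥ w) i)) = A.map σ *ᵥ (fun i => σ (w i)) := by
  funext i
  simp only [Matrix.mulVec, dotProduct, Matrix.map_apply, map_sum, map_mul]

theorem iter_tau (M : Matrix (Fin m ⊕ Fin m) (Fin m ⊕ Fin m) K) (σ : RingAut K) (k : ℕ)
    (v : Fin m ⊕ Fin m → K) :
    (fun v : Fin m ⊕ Fin m → K => M *ᵥ (fun i => σ (v i)))^[k] v =
      Mk M σ k *ᵥ (fun i => (σ ^ k : RingAut K) (v i)) := by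
  induction k with
  | zero =>
    change v = (1 : Matrix _ _ K) *ᵥ _
    rw [one_mulVec]
    rfl
  | succ k ih =>
    rw [Function.iterate_succ_apply', ih]
    rw [map_mulVec, mulVec_mulVec, pow_succ']
    rfl

theorem Mk_sim {M : Matrix (Fin m ⊕ Fin m) (Fin m ⊕ Fin m) K} {μ : K} (hμ : μ ≠ 0)
    (h : Sim M μ) (σ : RingAut K) (k : ℕ) : ∃ ν : K, ν ≠ 0 ∧ Sim (Mk M σ k) ν := by
  induction k with
  | zero => exact ⟨1, one_ne_zero, Sim.one⟩
  | succ k ih =>
    obtain ⟨ν, h1, h2⟩ := ih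
    refine ⟨σ ν * μ, mul_ne_zero ?_ hμ, h.mul (h2.mapa σ)⟩
    exact (map_ne_zero σ).2 h1

theorem iter_th {M M' : Matrix (Fin m ⊕ Fin m) (Fin m ⊕ Fin m) K} (h1 : M * M' = 1)
    (h2 : M' * M = 1) (σ : RingAut K) (A : Matrix (Fin m ⊕ Fin m) (Fin m ⊕ Fin m) K) (k : ℕ) :
    (th h1 h2 σ)^[k] A * Mk M σ k = Mk M σ k * A.map (σ ^ k : RingAut K) := by
  induction k with
  | zero =>
    rw [map_pow_zero]
    change A * 1 = 1 * A
    rw [Matrix.mul_one, Matrix.one_mul]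
  | succ k ih =>
    rw [Function.iterate_succ_apply', map_pow_succ]
    change th h1 h2 σ ((th h1 h2 σ)^[k] A) * (M * (Mk M σ k).map σ) = M * (Mk M σ k).map σ * _
    rw [← Matrix.mul_assoc, th_mul, Matrix.mul_assoc, ← Matrix.map_mul, ih, Matrix.map_mul,
      Matrix.mul_assoc]

/-- the action on the symplectic group -/
def thS {M : Matrix (Fin m ⊕ Fin m) (Fin m ⊕ Fin m) K} {μ : K} (hμ : μ ≠ 0) (h : Sim M μ)
    (σ : K ≃+* K) (g : Vale.Agent.P240.R2.H715.Sy K m) : Vale.Agent.P240.R2.H715.Sy K m :=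
  ⟨th (mul_si hμ h) (si_mul hμ h) σ g.1, by
    have h1 := (h.mul ((sim_sy g).mapa σ)).mul (h.inv hμ)
    rw [map_one, one_mul, inv_mul_cancel₀ hμ] at h1
    rw [SymplecticGroup.mem_iff]
    unfold Sim at h1
    rw [one_smul] at h1
    exact h1⟩

theorem thS_iter {M : Matrix (Fin m ⊕ Fin m) (Fin m ⊕ Fin m) K} {μ : K} (hμ : μ ≠ 0)
    (h : Sim M μ) (σ : K ≃+* K) (g : Vale.Agent.P240.R2.H715.Sy K m) (k : ℕ) :
    ((thS hμ h σ)^[k] g).1 = (th (mul_si hμ h) (si_mul hμ h) σ)^[k] g.1 := by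
  induction k with
  | zero => rfl
  | succ k ih =>
    rw [Function.iterate_succ_apply', Function.iterate_succ_apply', ← ih]
    rfl

theorem acts_iter {G : Type v} [Group G] {ε : Vale.Agent.P240.R2.H715.Sy K m →* G} {y : G}
    {M : Matrix (Fin m ⊕ Fin m) (Fin m ⊕ Fin m) K} {μ : K} (hμ : μ ≠ 0)
    (h : Sim M μ) (σ : K ≃+* K) (ha : Vale.Agent.P240.R2.H715.Acts ε y M σ)
    (g : Vale.Agent.P240.R2.H715.Sy K m) (k : ℕ) :
    ε ((thS hμ h σ)^[k] g) = y ^ k * ε g * (y ^ k)⁻¹ := by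
  induction k with
  | zero => simp
  | succ k ih =>
    rw [Function.iterate_succ_apply']
    have h1 := ha ((thS hμ h σ)^[k] g) (thS hμ h σ ((thS hμ h σ)^[k] g))
      (th_mul _ _ _ _)
    rw [← h1, ih, pow_succ']
    group

/-- the `p`-th power is a scalar -/
theorem pow_scalar (hm : 1 ≤ m) {G : Type v} [Group G]
    {ε : Vale.Agent.P240.R2.H715.Sy K m →* G}
    (hker : ∀ g : Vale.Agent.P240.R2.H715.Sy K m, ε g = 1 →
      ∃ c : K, g.1 = c • (1 : Matrix (Fin m ⊕ Fin m) (Fin m ⊕ Fin m) K))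
    {y : G} {p : ℕ} (hy : y ^ p = 1)
    {M : Matrix (Fin m ⊕ Fin m) (Fin m ⊕ Fin m) K} {μ : K} (hμ : μ ≠ 0)
    (h : Sim M μ) (σ : RingAut K) (ha : Vale.Agent.P240.R2.H715.Acts ε y M σ) :
    σ ^ p = 1 ∧ ∃ a : K, Mk M σ p = a • (1 : Matrix (Fin m ⊕ Fin m) (Fin m ⊕ Fin m) K) := by
  obtain ⟨ν, h1, h2⟩ := Mk_sim hμ h σ p
  refine stmtS1g K m hm (Mk M σ p) (si (Mk M σ p) ν) (mul_si h1 h2) (σ ^ p : RingAut K)
    fun g => ?_
  have h3 := acts_iter hμ h σ ha g p
  rw [hy, one_mul, inv_one, mul_one] at h3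
  obtain ⟨c, hc⟩ := hker ((thS hμ h σ)^[p] g * g⁻¹) (by
    rw [map_mul, h3, map_inv, mul_inv_cancel])
  have h4 : ((thS hμ h σ)^[p] g).1 = c • g.1 := by
    have h5 : ((thS hμ h σ)^[p] g * g⁻¹).1 * g.1 = ((thS hμ h σ)^[p] g).1 :=
      congrArg Subtype.val (inv_mul_cancel_right ((thS hμ h σ)^[p] g) g)
    rw [← h5, hc, Matrix.smul_mul, Matrix.one_mul]
  refine ⟨c, ?_⟩
  have h6 := iter_th (mul_si hμ h) (si_mul hμ h) σ g.1 p
  rw [← thS_iter hμ h σ g p, h4, Matrix.smul_mul] at h6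
  exact h6.symm

theorem one_ne_zero_mat (hm : 1 ≤ m) : (1 : Matrix (Fin m ⊕ Fin m) (Fin m ⊕ Fin m) K) ≠ 0 := by
  intro h
  have := congrFun (congrFun h (Sum.inl ⟨0, hm⟩)) (Sum.inl ⟨0, hm⟩)
  rw [Matrix.one_apply_eq, Matrix.zero_apply] at this
  exact one_ne_zero this

theorem J_ne_zero (hm : 1 ≤ m) : J (Fin m) K ≠ 0 := by
  intro h
  have hJJ : J (Fin m) K * J (Fin m) K = -1 := J_squared _ _
  rw [h, Matrix.zero_mul] at hJJ
  exact one_ne_zero_mat (K := K) hm (neg_eq_zero.1 hJJ.symm)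

/-- inner elements -/
theorem inner_of_refl (hm : 1 ≤ m) {G : Type v} [Group G] {L : Subgroup G}
    {ε : Vale.Agent.P240.R2.H715.Sy K m →* G} (hr : ε.range = L)
    {y : G} {M : Matrix (Fin m ⊕ Fin m) (Fin m ⊕ Fin m) K} {μ b : K}
    (hb : b ≠ 0) (hbb : b * b = μ)
    (h : Sim M μ) (ha : Vale.Agent.P240.R2.H715.Acts ε y M (RingEquiv.refl K)) :
    y ∈ L ⊔ centralizer (L : Set G) := by
  have h1 := h.smul b⁻¹
  have h2 : b⁻¹ * b⁻¹ * μ = 1 := by
    rw [← hbb]
    field_simp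
  rw [h2] at h1
  let s : Vale.Agent.P240.R2.H715.Sy K m := ⟨b⁻¹ • M, by
    rw [SymplecticGroup.mem_iff]
    unfold Sim at h1
    rw [h1, one_smul]⟩
  have hM : M = b • s.1 := by
    change M = b • (b⁻¹ • M)
    rw [smul_smul, mul_inv_cancel₀ hb, one_smul]
  have h3 : ∀ g : Vale.Agent.P240.R2.H715.Sy K m, y * ε g * y⁻¹ = ε s * ε g * (ε s)⁻¹ := by
    intro g
    have h4 := ha g (s * g * s⁻¹) (by
      have h5 : (s * g * s⁻¹).1 * s.1 = s.1 * g.1 :=
        congrArg Subtype.val (inv_mul_cancel_right (s * g) s)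
      have h6 : g.1.map (RingEquiv.refl K) = g.1 := by
        ext i j
        rfl
      have e1 : (s * g * s⁻¹).1 * M = (s * g * s⁻¹).1 * (b • s.1) :=
        congrArg (fun X => (s * g * s⁻¹).1 * X) hM
      have e2 : M * g.1 = (b • s.1) * g.1 := congrArg (fun X => X * g.1) hM
      rw [h6, e1, e2, Matrix.mul_smul, h5]
      exact (Matrix.smul_mul b s.1 g.1).symm)
    rw [h4, map_mul, map_mul, map_inv]
  have h7 : (ε s)⁻¹ * y ∈ centralizer (L : Set G) := by
    rw [mem_centralizer_iff]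
    intro l hl
    have hl' : l ∈ ε.range := by rw [hr]; exact hl
    obtain ⟨g, rfl⟩ := hl'
    have h8 : y * ε g = ε s * ε g * (ε s)⁻¹ * y := by
      rw [← h3 g, inv_mul_cancel_right]
    calc ε g * ((ε s)⁻¹ * y) = (ε s)⁻¹ * (ε s * ε g * (ε s)⁻¹ * y) := by group
      _ = (ε s)⁻¹ * y * ε g := by rw [← h8, mul_assoc]
  have h9 : y = ε s * ((ε s)⁻¹ * y) := by group
  rw [h9]
  refine mul_mem (mem_sup_left ?_) (mem_sup_right h7)
  rw [← hr]
  exact ⟨s, rfl⟩

theorem Mk_refl_sim {M : Matrix (Fin m ⊕ Fin m) (Fin m ⊕ Fin m) K} {μ : K}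
    (h : Sim M μ) (k : ℕ) : Sim (Mk M (1 : RingAut K) k) (μ ^ k) := by
  induction k with
  | zero =>
    rw [pow_zero]
    exact Sim.one
  | succ k ih =>
    have h1 := h.mul (ih.mapa (1 : RingAut K))
    rw [pow_succ]
    exact h1

theorem Mk_smul (M : Matrix (Fin m ⊕ Fin m) (Fin m ⊕ Fin m) K) (σ : RingAut K) (b : K) (k : ℕ) :
    Mk (b • M) σ k = (∏ i ∈ Finset.range k, (σ ^ i : RingAut K) b) • Mk M σ k := by
  induction k with
  | zero =>
    rw [Finset.range_zero, Finset.prod_empty, one_smul]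
    rfl
  | succ k ih =>
    change b • M * (Mk (b • M) σ k).map σ = _ • (M * (Mk M σ k).map σ)
    rw [ih, Finset.prod_range_succ', pow_zero]
    have h1 : ((∏ i ∈ Finset.range k, (σ ^ i : RingAut K) b) • Mk M σ k).map σ =
        (∏ i ∈ Finset.range k, (σ ^ (i + 1) : RingAut K) b) • (Mk M σ k).map σ := by
      ext i j
      simp only [Matrix.map_apply, Matrix.smul_apply, smul_eq_mul, map_mul, map_prod, pow_succ']
      rfl
    rw [h1, Matrix.smul_mul, Matrix.mul_smul, smul_smul, mul_comm]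
    rfl

end

/-- **OP2** -/
theorem stmtOP2 : StmtOP2.{u, v} := by
  intro K _ _ m p hpF hp2 hm G _ L ε hε y hyN hyp hy
  have hp : p.Prime := hpF.out
  rcases hy with hy | hy
  · subst hy
    refine ⟨1, 1, RingEquiv.refl K, RingEquiv.refl _, ⟨one_ne_zero, ?_, ?_, ?_, Or.inl ⟨rfl, rfl⟩⟩,
      fun g => ⟨g, rfl, by simp⟩⟩
    · rw [transpose_one, Matrix.one_mul, Matrix.mul_one, one_smul]
    · intro A
      rw [Matrix.mul_one, Matrix.one_mul]
      rfl
    · intro v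
      have h1 : (fun v : Fin m ⊕ Fin m → K => (1 : Matrix (Fin m ⊕ Fin m) (Fin m ⊕ Fin m) K) *ᵥ
          (fun i => (RingEquiv.refl K) (v i))) = id := by
        funext v
        rw [one_mulVec]
        rfl
      rw [h1, Function.iterate_id]
      rfl
  · obtain ⟨M, μ, σ, hμ, hM, ha⟩ := hε.sem y hyN
    have hS : Sim M μ := hM
    obtain ⟨hσp, a, hMa⟩ := pow_scalar hm (fun g hg => (hε.ker g).1 hg) hyp hμ hS σ ha
    obtain ⟨ν, hν, hMν⟩ := Mk_sim hμ hS σ p
    have hM0 : M ≠ 0 := by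
      intro h0
      have := mul_si hμ hS
      rw [h0, Matrix.zero_mul] at this
      exact one_ne_zero_mat hm this.symm
    have ha0 : a ≠ 0 := by
      intro h0
      have := mul_si hν hMν
      rw [hMa, h0, zero_smul, Matrix.zero_mul] at this
      exact one_ne_zero_mat hm this.symm
    have hσa : σ a = a := by
      have h1 := Mk_succ' M σ p
      have h2 : Mk M σ (p + 1) = σ a • M := by
        change M * (Mk M σ p).map σ = _
        rw [hMa]
        have h3 : (a • (1 : Matrix (Fin m ⊕ Fin m) (Fin m ⊕ Fin m) K)).map σ = σ a • 1 := by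
          ext i j
          rw [Matrix.map_apply, Matrix.smul_apply, Matrix.smul_apply, smul_eq_mul, smul_eq_mul,
            map_mul, Matrix.one_apply]
          split_ifs <;> simp
        rw [h3, Matrix.mul_smul, Matrix.mul_one]
      have h4 : M.map (σ ^ p : RingAut K) = M := by
        rw [hσp]
        ext i j
        rfl
      rw [h2, h4, hMa, Matrix.smul_mul, Matrix.one_mul] at h1
      have h5 : (σ a - a) • M = 0 := by rw [sub_smul, h1, sub_self]
      rcases smul_eq_zero.1 h5 with h6 | h6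
      · exact sub_eq_zero.1 h6
      · exact absurd h6 hM0
    have hσ1 : σ ≠ RingEquiv.refl K := by
      intro h1
      subst h1
      apply hy
      have h2 : Sim (Mk M (1 : RingAut K) p) (μ ^ p) := Mk_refl_sim hS p
      have h3 : Mk M (1 : RingAut K) p = a • (1 : Matrix (Fin m ⊕ Fin m) (Fin m ⊕ Fin m) K) := hMa
      rw [h3] at h2
      have h4 := Sim.smul (Sim.one (K := K) (m := m)) a
      unfold Sim at h2 h4
      rw [h4, mul_one] at h2
      have h5 : (a * a - μ ^ p) • J (Fin m) K = 0 := by rw [sub_smul, h2, sub_self]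
      have h6 : a * a = μ ^ p := by
        rcases smul_eq_zero.1 h5 with h7 | h7
        · exact sub_eq_zero.1 h7
        · exact absurd h7 (J_ne_zero hm)
      obtain ⟨k, hk⟩ := hp.odd_of_ne_two hp2
      have hk0 : μ ^ k ≠ 0 := pow_ne_zero _ hμ
      refine inner_of_refl hm hε.range (b := a / μ ^ k) (div_ne_zero ha0 hk0) ?_ hS ha
      rw [div_mul_div_comm, h6, hk, div_eq_iff (mul_ne_zero hk0 hk0), pow_succ, two_mul, pow_add]
      ring
    obtain ⟨b, hb⟩ := exists_norm (σ : RingAut K) hp hσp (fun h => hσ1 h) (a := a⁻¹)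
      (by rw [map_inv₀, hσa])
    have hb0 : b ≠ 0 := by
      intro h0
      subst h0
      have h7 := Finset.prod_eq_zero (ι := ℕ) (s := Finset.range p) (i := 0)
        (f := fun i : ℕ => ((σ : RingAut K) ^ i) (0 : K)) (Finset.mem_range.2 hp.pos) (map_zero _)
      exact inv_ne_zero ha0 (hb.symm.trans h7)
    refine ⟨b • M, b * b * μ, σ, th (mul_si hμ hS) (si_mul hμ hS) σ,
      ⟨mul_ne_zero (mul_ne_zero hb0 hb0) hμ, hS.smul b, ?_, ?_, Or.inr ⟨hσp, hσ1⟩⟩,
      fun g => ⟨thS hμ hS σ g, rfl, ?_⟩⟩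
    · intro A
      rw [Matrix.mul_smul, th_mul, Matrix.smul_mul]
    · intro v
      have h1 := iter_tau (b • M) σ p v
      rw [Mk_smul, hb, hMa, smul_smul, inv_mul_cancel₀ ha0, one_smul, one_mulVec, hσp] at h1
      exact h1
    · have := acts_iter hμ hS σ ha g 1
      rw [pow_one] at this
      exact this

end Vale.Agent.P240.R2.H112
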