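import Mathlib.FieldTheory.Finite.Basic
import Mathlib.GroupTheory.SpecificGroups.Cyclic
import Mathlib.RingTheory.IntegralDomain
import Mathlib.LinearAlgebra.UnitaryGroup
import Vale.Agent.P240.R2.H487.DO1
import Vale.Agent.P240.R2.H487.DP7

/-!
The counts of elements of half tori in conjugates of the special unitary group.
-/

set_option linter.all false

namespace Vale.Agent.P240.R2.H112.PC

open Matrix Subgroup Vale.Agent.P240.K Vale.Agent.P240.H195 Vale.Agent.P240.R2.H487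

section
variable {K : Type*} [Field K] [StarRing K] {a m : ℕ}

/-- the elements of the half torus of `Z` which are unitary of determinant one up to scalars -/
def mU (i0 : K) (σ : Fin (m + 1) ≃ Vv a) (b : Ww a) (Z : GLm m K) : Set Kˣ :=
  {la | ∃ V : Matrix (Fin (m + 1)) (Fin (m + 1)) K, V * Vᴴ = 1 ∧ V.det = 1 ∧ ∃ d : K,
    V * Z.1 = d • (Z.1 * HM i0 σ b la)}

variable {i0 : K} {σ : Fin (m + 1) ≃ Vv a} {b : Ww a} {Z : GLm m K}
  {X : Matrix (Fin (m + 1)) (Fin (m + 1)) K} {c : K}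

lemma zc {A B : Matrix (Fin (m + 1)) (Fin (m + 1)) K} (h : A * Z.1 = B * Z.1) : A = B := by
  have h1 := congrArg (· * (Z⁻¹).1) h
  simp only [Matrix.mul_assoc] at h1
  have h2 : Z.1 * (Z⁻¹).1 = 1 := by
    have := congrArg Units.val (mul_inv_cancel Z)
    rwa [Units.val_mul, Units.val_one] at this
  rwa [h2, Matrix.mul_one, Matrix.mul_one] at h1

lemma zdet : Z.1.det ≠ 0 := by
  have h9 : Z.1 * (Z⁻¹).1 = 1 := by
    have := congrArg Units.val (mul_inv_cancel Z)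
    rwa [Units.val_mul, Units.val_one] at this
  intro h10
  have h11 := congrArg Matrix.det h9
  rw [Matrix.det_mul, h10, zero_mul, Matrix.det_one] at h11
  exact zero_ne_one h11

/-- the involution in matrix form -/
structure Inv (T : Matrix (Fin (m + 1)) (Fin (m + 1)) K) (i0 : K) (σ : Fin (m + 1) ≃ Vv a)
    (b : Ww a) (Z : GLm m K) (c e : K) : Prop where
  tz : T * Z.1 = Z.1 * PP i0 σ b
  tt : T * T = 1
  st : Tᴴ = e • T
  ee : e = 1 ∨ e = -1
  nc : c * star c = e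
  cn : c ^ (m + 1) = 1

lemma i_pow {i0 : K} (hi : i0 * i0 = -1) (hm : 4 ∣ m + 1) : i0 ^ (m + 1) = 1 := by
  obtain ⟨k, hk⟩ := hm
  rw [hk, pow_mul, show i0 ^ 4 = (i0 * i0) * (i0 * i0) by ring, hi]
  norm_num

lemma det_PP (h2 : (2 : K) ≠ 0) {i0 : K} (hi : i0 * i0 = -1) (hb : b ≠ 0) (hm : 4 ∣ m + 1) :
    (PP i0 σ b).det = 1 := by
  have hi00 : i0 ≠ 0 := by
    rintro rfl
    rw [mul_zero, zero_eq_neg] at hi
    exact one_ne_zero hi
  obtain ⟨i, hi'⟩ : ∃ i : Kˣ, (i : K) = i0 := ⟨Units.mk0 i0 hi00, rfl⟩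
  have h1 : (-1 : Kˣ) = i ^ 2 := by
    apply Units.ext
    rw [Units.val_pow_eq_pow_val, hi', pow_two, hi, Units.val_neg, Units.val_one]
  rw [← HM_neg_one h2 i0 σ b, h1, HM_sq h2, Matrix.det_smul, TM_det h2 hi σ hb, mul_one,
    Fintype.card_fin, hi', i_pow hi hm]

lemma exists_inv (h2 : (2 : K) ≠ 0) {i0 : K} (hi : i0 * i0 = -1) (hb : b ≠ 0) (hm : 4 ∣ m + 1)
    (hXX : X * Xᴴ = 1) (hXd : X.det = 1) (hX : X * Z.1 = c • (Z.1 * PP i0 σ b)) :
    ∃ T e, Inv T i0 σ b Z c e := by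
  have hcn : c ^ (m + 1) = 1 := by
    have h1 := congrArg Matrix.det hX
    rw [Matrix.det_mul, Matrix.det_smul, Matrix.det_mul, det_PP h2 hi hb hm, hXd, one_mul, mul_one,
      Fintype.card_fin] at h1
    exact (mul_right_cancel₀ (zdet (Z := Z)) (by rw [← h1, one_mul])).symm
  have hc : c ≠ 0 := by
    rintro rfl
    rw [zero_pow (by omega)] at hcn
    exact zero_ne_one hcn
  obtain ⟨T, hT⟩ : ∃ T, T = c⁻¹ • X := ⟨_, rfl⟩
  have tz : T * Z.1 = Z.1 * PP i0 σ b := by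
    rw [hT, Matrix.smul_mul, hX, smul_smul, inv_mul_cancel₀ hc, one_smul]
  have tt : T * T = 1 := by
    refine zc (Z := Z) ?_
    rw [Matrix.mul_assoc, tz, ← Matrix.mul_assoc, tz, Matrix.mul_assoc, PP_sq hi, Matrix.mul_one,
      Matrix.one_mul]
  have hXT : X = c • T := by rw [hT, smul_smul, mul_inv_cancel₀ hc, one_smul]
  have hXH : Xᴴ = c⁻¹ • T := by
    have h1 : T * (X * Xᴴ) = T := by rw [hXX, Matrix.mul_one]
    have h3 : T * X = c • (1 : Matrix (Fin (m + 1)) (Fin (m + 1)) K) := by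
      rw [hXT, Matrix.mul_smul, tt]
    rw [← Matrix.mul_assoc, h3, Matrix.smul_mul, Matrix.one_mul] at h1
    calc Xᴴ = c⁻¹ • (c • Xᴴ) := by rw [smul_smul, inv_mul_cancel₀ hc, one_smul]
      _ = c⁻¹ • T := by rw [h1]
  have hsc : star c ≠ 0 := by
    intro h
    apply hc
    rw [← star_star c, h, star_zero]
  obtain ⟨e, he⟩ : ∃ e, e = c⁻¹ * (star c)⁻¹ := ⟨_, rfl⟩
  have st : Tᴴ = e • T := by
    rw [hT, Matrix.conjTranspose_smul, hXH, ← hT, smul_smul, star_inv₀, he]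
    ring_nf
  have hTne : T ≠ 0 := by
    intro h
    rw [h, Matrix.zero_mul] at tt
    exact zero_ne_one tt
  have he2 : e * e = 1 := by
    have h1 : (Tᴴ)ᴴ = (star e * e) • T := by
      rw [st, Matrix.conjTranspose_smul, st, smul_smul]
    rw [Matrix.conjTranspose_conjTranspose] at h1
    have h3 : star e = e := by
      rw [he, star_mul', star_inv₀, star_inv₀, star_star, mul_comm]
    rw [h3] at h1
    have h4 : (1 - e * e) • T = 0 := by
      rw [sub_smul, one_smul, ← h1, sub_self]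
    exact (sub_eq_zero.1 ((smul_eq_zero.1 h4).resolve_right hTne)).symm
  refine ⟨T, e, tz, tt, st, mul_self_eq_one_iff.1 he2, ?_, hcn⟩
  have h5 : c * star c * e = 1 := by
    rw [he]
    field_simp
  calc c * star c = c * star c * (e * e) := by rw [he2, mul_one]
    _ = (c * star c * e) * e := by ring
    _ = e := by rw [h5, one_mul]

/-- the half torus -/
def HT (T : Matrix (Fin (m + 1)) (Fin (m + 1)) K) (μ : Kˣ) : Matrix (Fin (m + 1)) (Fin (m + 1)) K :=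
  cc μ • (1 : Matrix (Fin (m + 1)) (Fin (m + 1)) K) + ss μ • T

variable {T : Matrix (Fin (m + 1)) (Fin (m + 1)) K} {e : K}

lemma HT_mul (h2 : (2 : K) ≠ 0) (tt : T * T = 1) (μ ν : Kˣ) : HT T (μ * ν) = HT T μ * HT T ν := by
  simp only [HT, Matrix.add_mul, Matrix.mul_add, Matrix.smul_mul, Matrix.mul_smul, Matrix.one_mul,
    Matrix.mul_one, tt, cc_mul h2, ss_mul h2]
  match_scalars <;> ring

lemma HT_one (h2 : (2 : K) ≠ 0) : HT T 1 = 1 := by
  rw [HT, cc_one h2, ss_one, zero_smul, add_zero, one_smul]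

lemma HT_neg_one (h2 : (2 : K) ≠ 0) : HT T (-1) = -1 := by
  have h1 : ((-1 : Kˣ)⁻¹ : Kˣ) = -1 := by
    rw [inv_neg, inv_one]
  rw [HT, cc, ss, h1, sub_self, zero_div, zero_smul, add_zero, Units.val_neg, Units.val_one]
  have h3 : ((-1 : K) + -1) / 2 = -1 := by
    field_simp
    ring
  rw [h3, neg_smul, one_smul]

lemma HT_Z (tz : T * Z.1 = Z.1 * PP i0 σ b) (μ : Kˣ) : HT T μ * Z.1 = Z.1 * TM i0 σ b μ := by
  rw [HT, TM, Matrix.add_mul, Matrix.smul_mul, Matrix.smul_mul, Matrix.one_mul, tz, Matrix.mul_add,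
    Matrix.mul_smul, Matrix.mul_smul, Matrix.mul_one]

lemma HT_star (st : Tᴴ = e • T) (μ κ : Kˣ)
    (hκ : (e = 1 ∧ κ = star μ) ∨ (e = -1 ∧ κ = (star μ)⁻¹)) : (HT T μ)ᴴ = HT T κ := by
  have h1 : star (cc μ) = cc (star μ) := by
    rw [cc, cc, star_div₀, star_add, star_ofNat, Units.coe_star, ← star_inv, Units.coe_star]
  have h3 : star (ss μ) = ss (star μ) := by
    rw [ss, ss, star_div₀, star_sub, star_ofNat, Units.coe_star, ← star_inv, Units.coe_star]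
  have h4 : ∀ ν : Kˣ, cc ν⁻¹ = cc ν := by
    intro ν
    rw [cc, cc, inv_inv, add_comm]
  have h5 : ∀ ν : Kˣ, ss ν⁻¹ = -ss ν := by
    intro ν
    rw [ss, ss, inv_inv, ← neg_div, neg_sub]
  rw [HT, Matrix.conjTranspose_add, Matrix.conjTranspose_smul, Matrix.conjTranspose_smul,
    Matrix.conjTranspose_one, st, h1, h3, HT]
  rcases hκ with ⟨h, rfl⟩ | ⟨h, rfl⟩
  · rw [h, one_smul]
  · rw [h, h4, h5, smul_smul]
    ring_nf

/-- the criterion -/
lemma sq_mem (h2 : (2 : K) ≠ 0) {i0 : K} (hi : i0 * i0 = -1) (hb : b ≠ 0)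
    (h : Inv T i0 σ b Z c e) {μ κ ν : Kˣ} (hν : ν = μ * κ)
    (hκ : (e = 1 ∧ κ = star μ) ∨ (e = -1 ∧ κ = (star μ)⁻¹))
    (h1 : ν = 1 ∨ ν = -1 ∧ ∃ x : K, x * star x = -1 ∧ x ^ (m + 1) = 1) :
    μ ^ 2 ∈ mU i0 σ b Z := by
  have key : ∃ x : K, (x * star x) • HT T ν = 1 ∧ x ^ (m + 1) = 1 := by
    rcases h1 with h1 | ⟨h1, x, hx, hx1⟩
    · exact ⟨1, by rw [h1, HT_one h2, star_one, one_mul, one_smul], one_pow _⟩
    · exact ⟨x, by rw [h1, HT_neg_one h2, hx, neg_smul, one_smul, neg_neg], hx1⟩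
  obtain ⟨x, hx, hx1⟩ := key
  refine ⟨x • HT T μ, ?_, ?_, x * ((μ⁻¹ : Kˣ) : K), ?_⟩
  · rw [Matrix.conjTranspose_smul, HT_star h.st _ _ hκ, Matrix.smul_mul, Matrix.mul_smul, smul_smul,
      ← HT_mul h2 h.tt, ← hν, hx]
  · have h3 := congrArg Matrix.det (HT_Z h.tz μ)
    rw [Matrix.det_mul, Matrix.det_mul, TM_det h2 hi σ hb, mul_one] at h3
    have h4 : (HT T μ).det = 1 := mul_right_cancel₀ (zdet (Z := Z)) (by rw [h3, one_mul])
    rw [Matrix.det_smul, Fintype.card_fin, hx1, h4, one_mul]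
  · rw [Matrix.smul_mul, HT_Z h.tz, HM_sq h2, Matrix.mul_smul, smul_smul, mul_assoc,
      Units.inv_mul, mul_one]

/-- the counts of powers -/
lemma card_pow [Finite K] {k : ℕ} (hk : k ∣ Nat.card Kˣ) : Nat.card {x : Kˣ // x ^ k = 1} = k := by
  have h1 := IsCyclic.card_powMonoidHom_ker (G := Kˣ) k
  rw [Nat.gcd_eq_right hk] at h1
  refine Eq.trans ?_ h1
  exact Nat.card_congr ⟨fun x => ⟨x.1, x.2⟩, fun x => ⟨x.1, x.2⟩, fun _ => rfl, fun _ => rfl⟩

/-- squaring is at most two to one -/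
theorem counts' [Finite K] {S : Set Kˣ} (h1 : 12 ≤ Nat.card {la : Kˣ // la ^ 2 ∈ S}) :
    3 * Nat.card {la : Kˣ // la ∈ S ∧ la ^ 4 = 1} ≤ 2 * Nat.card {la : Kˣ // la ∈ S} ∧
      ∃ la ∈ S, la ^ 4 ≠ 1 := by
  classical
  have := Fintype.ofFinite K
  have h3 : Nat.card {la : Kˣ // la ^ 2 ∈ S} ≤ 2 * Nat.card {la : Kˣ // la ∈ S} := by
    rw [Nat.card_eq_fintype_card, Nat.card_eq_fintype_card, ← Finset.card_univ,
      ← Finset.card_univ]
    refine Finset.card_le_mul_card_image_of_maps_to (f := fun x : {la : Kˣ // la ^ 2 ∈ S} =>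
      (⟨x.1 ^ 2, x.2⟩ : {la : Kˣ // la ∈ S})) (fun _ _ => Finset.mem_univ _) 2 fun y _ => ?_
    by_cases hy : ∃ x : {la : Kˣ // la ^ 2 ∈ S}, (⟨x.1 ^ 2, x.2⟩ : {la : Kˣ // la ∈ S}) = y
    · obtain ⟨x, hx⟩ := hy
      have hn : ((-x.1) ^ 2 : Kˣ) ∈ S := by
        rw [neg_sq]
        exact x.2
      refine le_trans (Finset.card_le_card (t := {x, ⟨-x.1, hn⟩}) fun z hz => ?_)
        Finset.card_le_two
      rw [Finset.mem_filter] at hz
      have h4 : z.1 ^ 2 = x.1 ^ 2 := by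
        have h5 := hz.2.trans hx.symm
        exact congrArg Subtype.val h5
      have h5 : (z.1 : K) ^ 2 = (x.1 : K) ^ 2 := by
        rw [← Units.val_pow_eq_pow_val, h4, Units.val_pow_eq_pow_val]
      rw [Finset.mem_insert, Finset.mem_singleton]
      rcases sq_eq_sq_iff_eq_or_eq_neg.1 h5 with h6 | h6
      · exact Or.inl (Subtype.ext (Units.ext h6))
      · refine Or.inr (Subtype.ext (Units.ext ?_))
        rw [h6, Units.val_neg]
    · rw [Finset.card_eq_zero.2]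
      · norm_num
      · rw [Finset.filter_eq_empty_iff]
        exact fun x _ hx => hy ⟨x, hx⟩
  have h4 : Nat.card {la : Kˣ // la ∈ S ∧ la ^ 4 = 1} ≤ 4 := by
    refine le_trans ?_ (IsCyclic.card_pow_eq_one_le (α := Kˣ) (n := 4) (by norm_num))
    rw [Nat.card_eq_fintype_card, Fintype.card_subtype]
    exact Finset.card_le_card fun x hx => by
      rw [Finset.mem_filter] at hx ⊢
      exact ⟨Finset.mem_univ _, hx.2.2⟩
  refine ⟨by omega, ?_⟩
  by_contra hcon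
  push Not at hcon
  have h5 : Nat.card {la : Kˣ // la ∈ S ∧ la ^ 4 = 1} = Nat.card {la : Kˣ // la ∈ S} :=
    Nat.card_congr ⟨fun x => ⟨x.1, x.2.1⟩, fun x => ⟨x.1, x.2, hcon _ x.2⟩, fun _ => rfl,
      fun _ => rfl⟩
  omega

/-- from one count to all of them -/
theorem counts [Finite K] {S : Set Kˣ} {k : ℕ}
    (hk : k ∣ Nat.card Kˣ) (hk12 : 12 ≤ k) (hS : ∀ μ : Kˣ, μ ^ k = 1 → μ ^ 2 ∈ S) :
    12 ≤ Nat.card {la : Kˣ // la ^ 2 ∈ S} ∧
      3 * Nat.card {la : Kˣ // la ∈ S ∧ la ^ 4 = 1} ≤ 2 * Nat.card {la : Kˣ // la ∈ S} ∧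
      ∃ la ∈ S, la ^ 4 ≠ 1 := by
  have h1 : 12 ≤ Nat.card {la : Kˣ // la ^ 2 ∈ S} := by
    refine hk12.trans ?_
    rw [← card_pow (K := K) hk]
    exact Nat.card_le_card_of_injective (fun x => (⟨x.1, hS x.1 x.2⟩ : {la : Kˣ // la ^ 2 ∈ S}))
      fun x y h => Subtype.ext (congrArg (fun z : {la : Kˣ // la ^ 2 ∈ S} => z.1) h)
  exact ⟨h1, counts' h1⟩

/-- **The counts for the special unitary group.** -/
theorem mx [Finite K] {q : ℕ} (hK : Nat.card K = q ^ 2) (hs : ∀ x : K, star x = x ^ q)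
    (hq : q % 2 = 1) (hq9 : 9 ≤ q) {i0 : K} (hi : i0 * i0 = -1) (hb : b ≠ 0) (hm : 4 ∣ m + 1)
    (hXX : X * Xᴴ = 1) (hXd : X.det = 1) (hX : X * Z.1 = c • (Z.1 * PP i0 σ b)) :
    12 ≤ Nat.card {la : Kˣ // la ^ 2 ∈ mU i0 σ b Z} ∧
      3 * Nat.card {la : Kˣ // la ∈ mU i0 σ b Z ∧ la ^ 4 = 1} ≤
        2 * Nat.card {la : Kˣ // la ∈ mU i0 σ b Z} ∧
      ∃ la ∈ mU i0 σ b Z, la ^ 4 ≠ 1 := by
  have hKo : Nat.card K % 2 = 1 := by
    rw [hK]
    exact Nat.odd_iff.1 ((Nat.odd_iff.2 hq).pow)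
  have h2 : (2 : K) ≠ 0 := two_ne hKo
  have hU : Nat.card Kˣ = (q - 1) * (q + 1) := by
    rw [Nat.card_units, hK]
    obtain ⟨j, rfl⟩ : ∃ j, q = j + 1 := ⟨q - 1, by omega⟩
    rw [Nat.add_sub_cancel]
    have : (j + 1) ^ 2 = j * (j + 1 + 1) + 1 := by ring
    rw [this, Nat.add_sub_cancel]
  obtain ⟨T, e, h⟩ := exists_inv (Z := Z) (σ := σ) h2 hi hb hm hXX hXd hX
  have hsu : ∀ μ : Kˣ, star μ = μ ^ q := by
    intro μ
    apply Units.ext
    rw [Units.coe_star, hs, Units.val_pow_eq_pow_val]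
  obtain ⟨l, hl⟩ : ∃ l, q = 2 * l + 1 := ⟨q / 2, by omega⟩
  have hsq : ∀ x : Kˣ, x ^ 2 = 1 → x = 1 ∨ x = -1 := by
    intro x hx
    have h5 : (x : K) ^ 2 = 1 ^ 2 := by
      rw [← Units.val_pow_eq_pow_val, hx, Units.val_one, one_pow]
    rcases sq_eq_sq_iff_eq_or_eq_neg.1 h5 with h6 | h6
    · exact Or.inl (Units.ext h6)
    · exact Or.inr (Units.ext (by rw [h6, Units.val_neg, Units.val_one]))
  rcases h.ee with he | he
  · by_cases h4 : q % 4 = 1
    · -- case A, q = 1 mod 4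
      refine counts (k := 2 * (q + 1)) ?_ (by omega) fun μ hμ => ?_
      · rw [hU, hl]
        refine ⟨l, ?_⟩
        rw [Nat.add_sub_cancel]
        ring
      · refine sq_mem h2 hi hb h (ν := μ * star μ) rfl (Or.inl ⟨he, rfl⟩) ?_
        have h6 : (μ * star μ) ^ 2 = 1 := by
          rw [hsu, ← pow_succ', ← pow_mul, mul_comm, hμ]
        rcases hsq _ h6 with h7 | h7
        · exact Or.inl h7
        · refine Or.inr ⟨h7, i0, ?_, i_pow hi hm⟩
          obtain ⟨j, hj⟩ : ∃ j, q + 1 = 2 * (2 * j + 1) := ⟨q / 4, by omega⟩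
          rw [hs, ← pow_succ', hj, pow_mul, pow_two, hi, Odd.neg_one_pow ⟨j, rfl⟩]
    · -- case A, q = 3 mod 4
      refine counts (k := q + 1) ?_ (by omega) fun μ hμ => ?_
      · rw [hU]
        exact Dvd.intro_left _ rfl
      · refine sq_mem h2 hi hb h (ν := μ * star μ) rfl (Or.inl ⟨he, rfl⟩) (Or.inl ?_)
        rw [hsu, ← pow_succ', hμ]
  · -- case B
    have hne : e ≠ 1 := by
      rw [he]
      intro h5
      apply h2
      linear_combination (-1 : K) * h5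
    refine counts (k := 2 * (q - 1)) ?_ (by omega) fun μ hμ => ?_
    · rw [hU, hl]
      refine ⟨l + 1, ?_⟩
      rw [Nat.add_sub_cancel]
      ring
    · refine sq_mem h2 hi hb h (ν := μ * (star μ)⁻¹) rfl (Or.inr ⟨he, rfl⟩) ?_
      have h6 : (μ * (star μ)⁻¹) ^ 2 = 1 := by
        rw [hsu]
        have h7 : μ * (μ ^ q)⁻¹ = (μ ^ (q - 1))⁻¹ := by
          rw [eq_inv_iff_mul_eq_one, mul_assoc, mul_comm, mul_assoc, ← pow_succ,
            Nat.sub_add_cancel (by omega), inv_mul_cancel]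
        rw [h7, inv_pow, ← pow_mul, mul_comm, hμ, inv_one]
      rcases hsq _ h6 with h7 | h7
      · exact Or.inl h7
      · exact Or.inr ⟨h7, c, by rw [h.nc, he], h.cn⟩

end

end Vale.Agent.P240.R2.H112.PC
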