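import Vale.Agent.P240.R2.H715.SpDefs
import Vale.Agent.P180.R2.H589.Sp.Au5

/-!
P240: every automorphism of `PSp_{2m}(q)`, `m ≥ 2`, `q` odd, is induced by a semilinear similitude
(matrix form of `Vale.Agent.P180.R2.H589.Sp.exists_ssim`).
-/

set_option autoImplicit false
set_option linter.unusedSectionVars false

namespace Vale.Agent.P240.R2.H112

open Matrix Subgroup Module
open LinearMap (BilinForm)
open Vale.Agent.P180.R2.H589.Sp (SpG mem_SpG SSim IndS exists_ssim)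

universe u

noncomputable section

variable {K : Type u} [Field K] {m : ℕ}

/-- the symplectic form of `J` -/
def BJ (K : Type u) [Field K] (m : ℕ) : BilinForm K (Fin m ⊕ Fin m → K) :=
  Matrix.toBilin' (J (Fin m) K)

theorem BJ_apply (x y : Fin m ⊕ Fin m → K) : BJ K m x y = x ⬝ᵥ (J (Fin m) K *ᵥ y) :=
  Matrix.toBilin'_apply' _ _ _

theorem mulVec_dot (A : Matrix (Fin m ⊕ Fin m) (Fin m ⊕ Fin m) K) (x w : Fin m ⊕ Fin m → K) :
    (A *ᵥ x) ⬝ᵥ w = x ⬝ᵥ (Aᵀ *ᵥ w) := by
  rw [dotProduct_mulVec, vecMul_transpose]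

theorem BJ_mulVec (A : Matrix (Fin m ⊕ Fin m) (Fin m ⊕ Fin m) K) (x y : Fin m ⊕ Fin m → K) :
    BJ K m (A *ᵥ x) (A *ᵥ y) = x ⬝ᵥ ((Aᵀ * J (Fin m) K * A) *ᵥ y) := by
  rw [BJ_apply, mulVec_dot, mulVec_mulVec, mulVec_mulVec, Matrix.mul_assoc]

theorem form_single (N : Matrix (Fin m ⊕ Fin m) (Fin m ⊕ Fin m) K) (i j : Fin m ⊕ Fin m) :
    (Pi.single i 1 : Fin m ⊕ Fin m → K) ⬝ᵥ (N *ᵥ Pi.single j 1) = N i j := by
  rw [mulVec_single_one, single_one_dotProduct]
  rfl

theorem BJ_sy : Vale.Agent.P180.R2.H589.Sp.Sy (BJ K m) where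
  alt x := by
    rw [BJ_apply]
    unfold J
    rw [Matrix.fromBlocks_mulVec]
    simp only [dotProduct, Fintype.sum_sum_type, Sum.elim_inl, Sum.elim_inr, zero_mulVec,
      one_mulVec, neg_mulVec, Pi.add_apply, Pi.neg_apply, Pi.zero_apply, Function.comp_apply,
      zero_add, add_zero]
    rw [← Finset.sum_add_distrib]
    refine Finset.sum_eq_zero fun i _ => ?_
    ring
  nd x hx := by
    have h1 : x ᵥ* J (Fin m) K = 0 := by
      funext j
      have := hx (Pi.single j 1)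
      rw [BJ_apply, dotProduct_mulVec, dotProduct_single_one] at this
      exact this
    have h2 : x ᵥ* (J (Fin m) K * J (Fin m) K) = 0 := by
      rw [← vecMul_vecMul, h1, zero_vecMul]
    rw [J_squared, vecMul_neg, vecMul_one, neg_eq_zero] at h2
    exact h2

theorem mat_of_form {A : Matrix (Fin m ⊕ Fin m) (Fin m ⊕ Fin m) K} {c : K}
    (h : ∀ i j, BJ K m (A *ᵥ Pi.single i 1) (A *ᵥ Pi.single j 1) =
      c * BJ K m (Pi.single i 1) (Pi.single j 1)) :
    Aᵀ * J (Fin m) K * A = c • J (Fin m) K := by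
  ext i j
  have h1 := h i j
  rw [BJ_mulVec, form_single, BJ_apply, form_single] at h1
  rw [h1]
  rfl

/-- the matrix of an isometry -/
def toSy : SpG (BJ K m) →* Vale.Agent.P240.R2.H715.Sy K m where
  toFun g := ⟨LinearMap.toMatrix' ((g : (Fin m ⊕ Fin m → K) ≃ₗ[K] (Fin m ⊕ Fin m → K)) :
      (Fin m ⊕ Fin m → K) →ₗ[K] (Fin m ⊕ Fin m → K)), by
    rw [SymplecticGroup.mem_iff']
    have h := mat_of_form (A := LinearMap.toMatrix'
      ((g : (Fin m ⊕ Fin m → K) ≃ₗ[K] (Fin m ⊕ Fin m → K)) :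
        (Fin m ⊕ Fin m → K) →ₗ[K] (Fin m ⊕ Fin m → K))) (c := 1) (fun i j => by
      rw [LinearMap.toMatrix'_mulVec, LinearMap.toMatrix'_mulVec, one_mul]
      exact g.2 _ _)
    rw [h, one_smul]⟩
  map_one' := Subtype.ext (by
    simp only [Subgroup.coe_one]
    exact LinearMap.toMatrix'_one)
  map_mul' g g' := Subtype.ext (by
    simp only [Subgroup.coe_mul]
    exact LinearMap.toMatrix'_mul _ _)

theorem toSy_mulVec (g : SpG (BJ K m)) (v : Fin m ⊕ Fin m → K) :
    (toSy g).1 *ᵥ v = (g : (Fin m ⊕ Fin m → K) ≃ₗ[K] (Fin m ⊕ Fin m → K)) v := by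
  change LinearMap.toMatrix' _ *ᵥ v = _
  rw [LinearMap.toMatrix'_mulVec]
  rfl

theorem toSy_inj : Function.Injective (toSy : SpG (BJ K m) → Vale.Agent.P240.R2.H715.Sy K m) := by
  intro g g' h
  apply Subtype.ext
  apply LinearEquiv.ext
  intro v
  rw [← toSy_mulVec, ← toSy_mulVec, h]

theorem exists_toSy (A : Vale.Agent.P240.R2.H715.Sy K m) : ∃ g : SpG (BJ K m), toSy g = A := by
  have h1 : A.1 * (A⁻¹).1 = 1 := congrArg Subtype.val (mul_inv_cancel A)
  have h2 : (A⁻¹).1 * A.1 = 1 := congrArg Subtype.val (inv_mul_cancel A)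
  let g : (Fin m ⊕ Fin m → K) ≃ₗ[K] (Fin m ⊕ Fin m → K) := Matrix.toLin'OfInv h2 h1
  have hg : ∀ v, g v = A.1 *ᵥ v := fun v => rfl
  have hgU : g ∈ SpG (BJ K m) := by
    intro x y
    rw [hg, hg, BJ_mulVec, SymplecticGroup.mem_iff'.1 A.2, BJ_apply]
  refine ⟨⟨g, hgU⟩, Subtype.ext ?_⟩
  change LinearMap.toMatrix' _ = _
  ext i j
  rw [LinearMap.toMatrix'_apply]
  have h4 : g (Pi.single j 1) i = A.1 i j := by
    rw [hg, Matrix.mulVec_single_one]
    rfl
  exact h4

theorem toSy_surj : Function.Surjective (toSy : SpG (BJ K m) → Vale.Agent.P240.R2.H715.Sy K m) :=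
  exists_toSy

/-- the kernel of `SpG → Sy / center` -/
theorem ker_mk : ((QuotientGroup.mk' (center (Vale.Agent.P240.R2.H715.Sy K m))).comp
    (toSy (K := K) (m := m))).ker = center (SpG (BJ K m)) := by
  ext x
  rw [MonoidHom.mem_ker, MonoidHom.comp_apply, QuotientGroup.mk'_apply, QuotientGroup.eq_one_iff,
    mem_center_iff, mem_center_iff]
  constructor
  · intro h y
    apply toSy_inj
    rw [map_mul, map_mul]
    exact h (toSy y)
  · intro h y
    obtain ⟨y, rfl⟩ := toSy_surj y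
    rw [← map_mul, ← map_mul, h]

/-- **Automorphisms of `PSp_{2m}(K)`**, `m ≥ 2`, odd characteristic: every automorphism is induced
by a semilinear similitude. -/
theorem stmtSA' [Finite K] (h2 : (2 : K) ≠ 0) (hm : 2 ≤ m)
    (f : MulAut (Vale.Agent.P240.R2.H715.Sy K m ⧸ center (Vale.Agent.P240.R2.H715.Sy K m))) :
    ∃ (M : Matrix (Fin m ⊕ Fin m) (Fin m ⊕ Fin m) K) (μ : K) (σ : K ≃+* K), μ ≠ 0 ∧
      M * J (Fin m) K * Mᵀ = μ • J (Fin m) K ∧
      ∀ h h' : Vale.Agent.P240.R2.H715.Sy K m, h'.1 * M = M * h.1.map σ →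
        f (QuotientGroup.mk h) = QuotientGroup.mk h' := by
  have hd : 2 < finrank K (Fin m ⊕ Fin m → K) := by
    rw [Module.finrank_fintype_fun_eq_card, Fintype.card_sum, Fintype.card_fin]
    omega
  have hπ : Function.Surjective ((QuotientGroup.mk' (center (Vale.Agent.P240.R2.H715.Sy K m))).comp
      (toSy (K := K) (m := m))) := (QuotientGroup.mk'_surjective _).comp toSy_surj
  obtain ⟨g, σ, κ, hg, hind⟩ := exists_ssim (BJ_sy (K := K) (m := m)) h2 hd hπ ker_mk f
  -- the matrix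
  let M : Matrix (Fin m ⊕ Fin m) (Fin m ⊕ Fin m) K := Matrix.of fun i j => g (Pi.single j 1) i
  have hM : ∀ v, g v = M *ᵥ (fun i => σ (v i)) := by
    intro v
    have h1 : v = ∑ j, v j • (Pi.single j 1 : Fin m ⊕ Fin m → K) := by
      funext i
      simp [Finset.sum_apply, Pi.single_apply]
    conv_lhs => rw [h1]
    rw [map_sum]
    funext i
    rw [Finset.sum_apply]
    simp only [hg.sl, Matrix.mulVec, dotProduct, M, Matrix.of_apply, Pi.smul_apply, smul_eq_mul]
    exact Finset.sum_congr rfl fun j _ => mul_comm _ _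
  have hMs : ∀ j, M *ᵥ Pi.single j 1 = g (Pi.single j 1) := by
    intro j
    rw [mulVec_single_one]
    rfl
  have hJσ : ∀ i j, σ (J (Fin m) K i j) = J (Fin m) K i j := by
    intro i j
    have : (J (Fin m) K).map σ = J (Fin m) K := by
      unfold J
      rw [fromBlocks_map, Matrix.map_zero _ (map_zero σ), Matrix.map_one _ (map_zero σ) (map_one σ)]
      congr 1
      ext a b
      simp [Matrix.one_apply, apply_ite σ]
    exact congrFun (congrFun this i) j
  have hMJ : Mᵀ * J (Fin m) K * M = κ • J (Fin m) K := by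
    refine mat_of_form fun i j => ?_
    rw [hMs, hMs, hg.form, BJ_apply, form_single, hJσ]
  have hJJ : J (Fin m) K * J (Fin m) K = -1 := J_squared _ _
  have hN : (-(κ⁻¹) • (J (Fin m) K * Mᵀ * J (Fin m) K)) * M = 1 := by
    rw [Matrix.smul_mul, Matrix.mul_assoc, Matrix.mul_assoc, ← Matrix.mul_assoc Mᵀ, hMJ,
      Matrix.mul_smul, hJJ, smul_smul, neg_mul, inv_mul_cancel₀ hg.ne, smul_neg, neg_smul, one_smul,
      neg_neg]
  have hN' := mul_eq_one_comm.1 hN
  have hMJ' : M * J (Fin m) K * Mᵀ = κ • J (Fin m) K := by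
    rw [Matrix.mul_smul] at hN'
    have h3 := congrArg (fun X => κ • (X * J (Fin m) K)) hN'
    simp only [Matrix.smul_mul, one_mul] at h3
    rw [smul_smul, mul_neg, mul_inv_cancel₀ hg.ne, Matrix.mul_assoc, Matrix.mul_assoc _ _ (J (Fin m) K),
      hJJ] at h3
    rw [← h3]
    rw [Matrix.mul_neg, Matrix.mul_one, Matrix.mul_neg, neg_smul, one_smul, neg_neg,
      ← Matrix.mul_assoc]
  refine ⟨M, κ, σ, hg.ne, hMJ', fun h h' hh => ?_⟩
  obtain ⟨x, rfl⟩ := toSy_surj h
  obtain ⟨y, rfl⟩ := toSy_surj h'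
  refine hind x y fun v => ?_
  rw [hM, hM, ← toSy_mulVec, ← toSy_mulVec, mulVec_mulVec, hh]
  have h6 : (fun i => σ (((toSy x).1 *ᵥ v) i)) = ((toSy x).1.map σ) *ᵥ (fun i => σ (v i)) := by
    funext i
    simp only [Matrix.mulVec, dotProduct, Matrix.map_apply, map_sum, map_mul]
  rw [h6, mulVec_mulVec]

end

end Vale.Agent.P240.R2.H112
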